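import Mathlib

/-!
Internal definitions for P171: configuration integrals of pair interactions in `ℝ³`.
-/

namespace Vale.Agent.P171

open MeasureTheory Finset
open scoped ENNReal BigOperators

/-- three dimensional Euclidean space -/
abbrev E := EuclideanSpace ℝ (Fin 3)

/-- sum of `f` over ordered pairs of distinct indices -/
noncomputable def offSum (f : E → E → ℝ) {n : ℕ} (x : Fin n → E) : ℝ :=
  ∑ i, ∑ j, if i = j then 0 else f (x i) (x j)

/-- the closed cube `[0,L]^3` -/
def box (L : ℝ) : Set E := {x | ∀ k, x k ∈ Set.Icc 0 L}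

/-- canonical weight of `n` points in `Λ` (including `1/n!`) with chemical potential `μ` and
energy `offSum f / 2` -/
noncomputable def cpf (f : E → E → ℝ) (μ : ℝ) (Λ : Set E) (n : ℕ) : ℝ≥0∞ :=
  ((n.factorial : ℝ≥0∞))⁻¹ * ∫⁻ x in Set.pi Set.univ (fun _ : Fin n => Λ),
    ENNReal.ofReal (Real.exp (μ * n - offSum f x / 2))

/-- grand canonical partition function in `Λ` -/
noncomputable def pf (f : E → E → ℝ) (μ : ℝ) (Λ : Set E) : ℝ≥0∞ := ∑' n : ℕ, cpf f μ Λ n

/-- pair interactions that we consider: symmetric and measurable -/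
structure IsPair (f : E → E → ℝ) : Prop where
  symm : ∀ a b, f a b = f b a
  meas : Measurable (Function.uncurry f)

/-- finite volume pressure functional `log Ξ / (L+2)^3` supremum over `L>0` -/
noncomputable def Pr (f : E → E → ℝ) (μ : ℝ) : ℝ :=
  ⨆ L : Set.Ioi (0:ℝ), Real.log (pf f μ (box L)).toReal / ((L:ℝ) + 2) ^ 3

/-- attraction `∑ c_m (m+1)^{-3} 1[r ≤ m+1]` -/
noncomputable def att (c : ℕ → ℝ) (r : ℝ) : ℝ :=
  ∑' m : ℕ, if r ≤ (m : ℝ) + 1 then c m / ((m : ℝ) + 1) ^ 3 else 0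

/-- the potential `K 1[r<2] - att c r` -/
noncomputable def pot (K : ℝ) (c : ℕ → ℝ) (r : ℝ) : ℝ :=
  (if r < 2 then K else 0) - att c r

/-- the pair interaction of the potential -/
noncomputable def fc (K : ℝ) (c : ℕ → ℝ) (a b : E) : ℝ := pot K c (dist a b)

/-- index of the cell of side `ℓ` containing `a` -/
noncomputable def cell (ℓ : ℕ) (a : E) : Fin 3 → ℤ := fun k => ⌊a k / (ℓ : ℝ)⌋

/-- number of ordered pairs (including `i = j`) in the same cell of side `ℓ` -/
noncomputable def S (ℓ : ℕ) {n : ℕ} (x : Fin n → E) : ℝ :=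
  ∑ i, ∑ j, if cell ℓ (x i) = cell ℓ (x j) then (1:ℝ) else 0

/-- number of lattice points in the ball of radius `r` -/
noncomputable def G (r : ℝ) : ℕ := Set.ncard {z : Fin 3 → ℤ | 0 ≤ r ∧ ∑ k, ((z k : ℝ)) ^ 2 ≤ r ^ 2}

end Vale.Agent.P171
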