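import Mathlib

/-!
Ekeland's variational principle for a nonnegative lower semicontinuous function on a complete
metric space.
-/

namespace Vale.Agent.P171

open Filter Topology

theorem ekeland {X : Type*} [MetricSpace X] [CompleteSpace X] (F : X → ℝ)
    (hF : LowerSemicontinuous F) (hb : ∀ x, 0 ≤ F x) (x₀ : X) {ε : ℝ} (hε : 0 < ε) :
    ∃ x, F x + ε * dist x x₀ ≤ F x₀ ∧ ∀ y, F x - ε * dist y x ≤ F y := by
  classical
  -- the set of points below `x`
  set S : X → Set X := fun x => {y | F y + ε * dist y x ≤ F x} with hS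
  have hself : ∀ x, x ∈ S x := by intro x; simp [hS]
  have htrans : ∀ x y z, y ∈ S x → z ∈ S y → z ∈ S x := by
    intro x y z hy hz
    simp only [hS, Set.mem_setOf_eq] at *
    have := dist_triangle z y x
    nlinarith
  have hclosed : ∀ x, IsClosed (S x) := by
    intro x
    have h1 : LowerSemicontinuous (fun y => F y + ε * dist y x) := by
      apply hF.add
      exact (by fun_prop : Continuous fun y => ε * dist y x).lowerSemicontinuous
    exact h1.isClosed_preimage (F x)
  have hbdd : ∀ x, BddBelow (F '' S x) := fun x => ⟨0, by rintro _ ⟨y, -, rfl⟩; exact hb y⟩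
  -- near-minimizers
  have hex : ∀ (x : X) (n : ℕ), ∃ y ∈ S x, F y ≤ sInf (F '' S x) + (1 / 2 : ℝ) ^ n := by
    intro x n
    have hne : (F '' S x).Nonempty := ⟨F x, x, hself x, rfl⟩
    obtain ⟨_, ⟨y, hy, rfl⟩, hlt⟩ := exists_lt_of_csInf_lt hne
      (lt_add_of_pos_right (sInf (F '' S x)) (by positivity : (0:ℝ) < (1 / 2 : ℝ) ^ n))
    exact ⟨y, hy, hlt.le⟩
  choose g hg1 hg2 using hex
  let u : ℕ → X := fun n => Nat.rec x₀ (fun n x => g x n) n
  have hu0 : u 0 = x₀ := rfl
  have hus : ∀ n, u (n + 1) = g (u n) n := fun n => rfl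
  have hmem : ∀ n, u (n + 1) ∈ S (u n) := fun n => by rw [hus]; exact hg1 _ _
  have hmem' : ∀ n k, u (n + k) ∈ S (u n) := by
    intro n k
    induction k with
    | zero => exact hself _
    | succ k ih => exact htrans _ _ _ ih (hmem (n + k))
  have hanti : Antitone (fun n => F (u n)) := by
    apply antitone_nat_of_succ_le
    intro n
    have := hmem n
    simp only [hS, Set.mem_setOf_eq] at this
    have h2 : 0 ≤ ε * dist (u (n + 1)) (u n) := by positivity
    linarith
  -- convergence of values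
  obtain ⟨ℓ, hℓ⟩ : ∃ ℓ, Tendsto (fun n => F (u n)) atTop (𝓝 ℓ) :=
    ⟨_, tendsto_atTop_ciInf hanti ⟨0, by rintro _ ⟨n, rfl⟩; exact hb _⟩⟩
  have hℓle : ∀ n, ℓ ≤ F (u n) := fun n => hanti.le_of_tendsto hℓ n
  -- Cauchy
  have hdist : ∀ n k, ε * dist (u (n + k)) (u n) ≤ F (u n) - ℓ := by
    intro n k
    have h1 := hmem' n k
    simp only [hS, Set.mem_setOf_eq] at h1
    have h2 := hℓle (n + k)
    linarith
  have hcauchy : CauchySeq u := by
    rw [Metric.cauchySeq_iff']
    intro δ hδ
    have h1 : ∀ᶠ n in atTop, F (u n) < ℓ + ε * δ :=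
      hℓ.eventually (gt_mem_nhds (by nlinarith))
    obtain ⟨N, hN⟩ := h1.exists
    refine ⟨N, fun n hn => ?_⟩
    obtain ⟨k, rfl⟩ := Nat.exists_eq_add_of_le hn
    have h2 := hdist N k
    have h3 : ε * dist (u (N + k)) (u N) < ε * δ := by linarith
    exact lt_of_mul_lt_mul_left h3 hε.le
  obtain ⟨x, hx⟩ := cauchySeq_tendsto_of_complete hcauchy
  have hxS : ∀ n, x ∈ S (u n) := by
    intro n
    refine (hclosed (u n)).mem_of_tendsto hx ?_
    filter_upwards [eventually_ge_atTop n] with m hm
    obtain ⟨k, rfl⟩ := Nat.exists_eq_add_of_le hm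
    exact hmem' n k
  refine ⟨x, ?_, ?_⟩
  · have := hxS 0
    simpa [hS, hu0] using this
  · intro y
    by_contra hcon
    push Not at hcon
    have hy : y ∈ S x := by
      simp only [hS, Set.mem_setOf_eq]; linarith
    have hyS : ∀ n, y ∈ S (u n) := fun n => htrans _ _ _ (hxS n) hy
    have h1 : ∀ n, F (u (n + 1)) ≤ F y + (1 / 2 : ℝ) ^ n := by
      intro n
      have h2 := hg2 (u n) n
      rw [← hus] at h2
      have h3 : sInf (F '' S (u n)) ≤ F y := csInf_le (hbdd _) ⟨y, hyS n, rfl⟩
      linarith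
    have h2 : ℓ ≤ F y + 0 := by
      refine le_of_tendsto_of_tendsto' ((tendsto_add_atTop_iff_nat 1).2 hℓ)
        (tendsto_const_nhds.add (tendsto_pow_atTop_nhds_zero_of_lt_one (by norm_num) (by norm_num)))
        h1
    have h3 : F x ≤ ℓ := by
      refine ge_of_tendsto' hℓ (fun n => ?_)
      have := hxS n
      simp only [hS, Set.mem_setOf_eq] at this
      have h4 : 0 ≤ ε * dist x (u n) := by positivity
      linarith
    have h5 : 0 ≤ ε * dist y x := by positivity
    linarith

end Vale.Agent.P171
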