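import Mathlib
import Vale.Agent.P171.Defs

/-!
Counting lemmas for P171: lattice points in balls, pairs of points in cells of a grid.
-/

namespace Vale.Agent.P171

open MeasureTheory Finset Filter Topology
open scoped ENNReal BigOperators Pointwise

/-- the closed Euclidean unit ball in coordinates -/
def uball : Set (Fin 3 → ℝ) := {v | ∑ k, v k ^ 2 ≤ 1}

theorem uball_convex : Convex ℝ uball := by
  intro v hv w hw a b ha hb hab
  have hv' : ∑ k, v k ^ 2 ≤ 1 := hv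
  have hw' : ∑ k, w k ^ 2 ≤ 1 := hw
  show ∑ k, (a • v + b • w) k ^ 2 ≤ 1
  have h1 : ∀ k, (a • v + b • w) k ^ 2 ≤ a * v k ^ 2 + b * w k ^ 2 := by
    intro k
    have h2 : a * v k ^ 2 + b * w k ^ 2 - (a • v + b • w) k ^ 2
        = a * b * (v k - w k) ^ 2 := by
      simp only [Pi.add_apply, Pi.smul_apply, smul_eq_mul]
      have hb' : b = 1 - a := by linarith
      subst hb'
      ring
    have h3 : 0 ≤ a * b * (v k - w k) ^ 2 := by positivity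
    linarith
  calc ∑ k, (a • v + b • w) k ^ 2 ≤ ∑ k, (a * v k ^ 2 + b * w k ^ 2) :=
        Finset.sum_le_sum (fun k _ => h1 k)
    _ = a * ∑ k, v k ^ 2 + b * ∑ k, w k ^ 2 := by
        rw [Finset.sum_add_distrib, Finset.mul_sum, Finset.mul_sum]
    _ ≤ a * 1 + b * 1 := by gcongr
    _ = 1 := by linarith

theorem uball_abs_le {v : Fin 3 → ℝ} (hv : v ∈ uball) (k : Fin 3) : |v k| ≤ 1 := by
  have h1 : v k ^ 2 ≤ ∑ k, v k ^ 2 :=
    Finset.single_le_sum (f := fun k => v k ^ 2) (fun i _ => sq_nonneg _) (Finset.mem_univ k)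
  have h2 : v k ^ 2 ≤ 1 := h1.trans hv
  exact abs_le_one_iff_mul_self_le_one.mpr (by nlinarith)

theorem uball_bounded : Bornology.IsBounded uball := by
  refine (Metric.isBounded_iff_subset_closedBall 0).mpr ⟨1, fun v hv => ?_⟩
  rw [mem_closedBall_zero_iff, pi_norm_le_iff_of_nonneg zero_le_one]
  intro k
  exact uball_abs_le hv k

theorem uball_closed : IsClosed uball := by
  apply isClosed_le _ continuous_const
  fun_prop

theorem uball_volume_pos : 0 < volume.real uball := by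
  have hsub : Metric.ball (0 : Fin 3 → ℝ) (1/2) ⊆ uball := by
    intro v hv
    rw [mem_ball_zero_iff, pi_norm_lt_iff (by norm_num)] at hv
    have h : ∀ k, v k ^ 2 ≤ 1 / 4 := by
      intro k
      have := hv k
      rw [Real.norm_eq_abs] at this
      have h1 := abs_lt.mp this
      nlinarith
    show ∑ k, v k ^ 2 ≤ 1
    calc ∑ k, v k ^ 2 ≤ ∑ k : Fin 3, (1/4 : ℝ) := Finset.sum_le_sum (fun k _ => h k)
      _ ≤ 1 := by simp; norm_num
  have h1 : 0 < volume (Metric.ball (0 : Fin 3 → ℝ) (1/2)) :=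
    Metric.measure_ball_pos volume _ (by norm_num)
  have h2 : volume uball ≠ ⊤ := uball_bounded.measure_lt_top.ne
  exact ENNReal.toReal_pos (h1.trans_le (measure_mono hsub)).ne' h2

theorem uball_smul {x y : ℝ} (hx : 0 < x) (hxy : x ≤ y) : x • uball ⊆ y • uball := by
  rintro _ ⟨v, hv, rfl⟩
  have hy : 0 < y := hx.trans_le hxy
  refine ⟨(x / y) • v, ?_, ?_⟩
  · show ∑ k, ((x / y) • v) k ^ 2 ≤ 1
    have h1 : ∑ k, ((x / y) • v) k ^ 2 = (x / y) ^ 2 * ∑ k, v k ^ 2 := by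
      rw [Finset.mul_sum]
      refine Finset.sum_congr rfl fun k _ => ?_
      simp [mul_pow]
    rw [h1]
    have h2 : (x / y) ^ 2 ≤ 1 := by
      apply pow_le_one₀ (by positivity)
      exact (div_le_one hy).mpr hxy
    have h3 : ∑ k, v k ^ 2 ≤ 1 := hv
    have h4 : 0 ≤ ∑ k, v k ^ 2 := Finset.sum_nonneg (fun k _ => sq_nonneg _)
    nlinarith
  · show y • ((x / y) • v) = x • v
    rw [smul_smul, mul_div_cancel₀ _ hy.ne']

theorem G_eq_card {x : ℝ} (hx : 0 < x) :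
    Nat.card ↑(uball ∩ x⁻¹ • (Submodule.span ℤ (Set.range (Pi.basisFun ℝ (Fin 3))) :
      Set (Fin 3 → ℝ))) = G x := by
  rw [G, ← Nat.card_coe_set_eq]
  symm
  refine Nat.card_congr (Equiv.ofBijective
    (fun z : {z : Fin 3 → ℤ | 0 ≤ x ∧ ∑ k, ((z k : ℝ)) ^ 2 ≤ x ^ 2} =>
      (⟨fun k => x⁻¹ * (z.1 k : ℝ), ?_, ?_⟩ : ↑(uball ∩ x⁻¹ • (Submodule.span ℤ
        (Set.range (Pi.basisFun ℝ (Fin 3))) : Set (Fin 3 → ℝ))))) ⟨?_, ?_⟩)
  · have hz := z.2.2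
    show ∑ k, (x⁻¹ * (z.1 k : ℝ)) ^ 2 ≤ 1
    have h1 : ∑ k, (x⁻¹ * (z.1 k : ℝ)) ^ 2 = (x ^ 2)⁻¹ * ∑ k, ((z.1 k : ℝ)) ^ 2 := by
      rw [Finset.mul_sum]
      refine Finset.sum_congr rfl fun k _ => ?_
      rw [mul_pow, inv_pow]
    rw [h1, inv_mul_le_iff₀ (by positivity), mul_one]
    exact hz
  · refine ⟨fun k => (z.1 k : ℝ), ?_, ?_⟩
    · rw [SetLike.mem_coe, Module.Basis.mem_span_iff_repr_mem]
      intro k
      exact ⟨z.1 k, by simp⟩
    · funext k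
      simp
  · intro z w h
    apply Subtype.ext
    funext k
    have h1 := congrFun (congrArg Subtype.val h) k
    simp only at h1
    have h2 := mul_left_cancel₀ (inv_ne_zero hx.ne') h1
    exact_mod_cast h2
  · rintro ⟨v, hv1, w, hw, rfl⟩
    rw [SetLike.mem_coe, Module.Basis.mem_span_iff_repr_mem] at hw
    choose z hz using hw
    have hz' : ∀ k, w k = (z k : ℝ) := by
      intro k
      have := hz k
      simpa using this.symm
    have hmem : 0 ≤ x ∧ ∑ k, ((z k : ℝ)) ^ 2 ≤ x ^ 2 := by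
      refine ⟨hx.le, ?_⟩
      have h1 : ∑ k, (x⁻¹ • w) k ^ 2 ≤ 1 := hv1
      have h2 : ∑ k, (x⁻¹ • w) k ^ 2 = (x ^ 2)⁻¹ * ∑ k, ((z k : ℝ)) ^ 2 := by
        rw [Finset.mul_sum]
        refine Finset.sum_congr rfl fun k _ => ?_
        rw [Pi.smul_apply, smul_eq_mul, mul_pow, inv_pow, hz' k]
      rw [h2, inv_mul_le_iff₀ (by positivity), mul_one] at h1
      exact h1
    refine ⟨⟨z, hmem⟩, ?_⟩
    apply Subtype.ext
    funext k
    simp [hz' k]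

theorem exists_kappa : ∃ κ : ℝ, 0 < κ ∧ Tendsto (fun r : ℝ => (G r : ℝ) / r ^ 3) atTop (𝓝 κ) := by
  refine ⟨volume.real uball, uball_volume_pos, ?_⟩
  have h := tendsto_card_div_pow_atTop_volume' uball uball_bounded uball_closed.measurableSet
    (uball_convex.addHaar_frontier volume) (fun x y hx hy => uball_smul hx hy)
  refine h.congr' ?_
  filter_upwards [eventually_gt_atTop 0] with x hx
  rw [G_eq_card hx, Fintype.card_fin]

theorem G_subset {r : ℝ} (hr : 0 ≤ r) :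
    {z : Fin 3 → ℤ | 0 ≤ r ∧ ∑ k, ((z k : ℝ)) ^ 2 ≤ r ^ 2} ⊆
      ↑(Fintype.piFinset (fun _ : Fin 3 => Finset.Icc (-⌊r⌋) ⌊r⌋)) := by
  intro z hz
  obtain ⟨-, hz⟩ := hz
  rw [Finset.mem_coe, Fintype.mem_piFinset]
  intro k
  have h1 : ((z k : ℝ)) ^ 2 ≤ ∑ k, ((z k : ℝ)) ^ 2 :=
    Finset.single_le_sum (f := fun k => ((z k : ℝ)) ^ 2) (fun i _ => sq_nonneg _)
      (Finset.mem_univ k)
  have h2 : |(z k : ℝ)| ≤ r := abs_le_of_sq_le_sq (h1.trans hz) hr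
  rw [abs_le] at h2
  rw [Finset.mem_Icc]
  constructor
  · rw [neg_le, Int.le_floor]
    push_cast
    linarith
  · exact Int.le_floor.mpr h2.2

theorem G_finite (r : ℝ) :
    {z : Fin 3 → ℤ | 0 ≤ r ∧ ∑ k, ((z k : ℝ)) ^ 2 ≤ r ^ 2}.Finite := by
  by_cases hr : 0 ≤ r
  · exact (Finset.finite_toSet _).subset (G_subset hr)
  · convert Set.finite_empty
    ext z
    simp [hr]

theorem G_le {r : ℝ} (hr : 0 ≤ r) : (G r : ℝ) ≤ (2 * r + 1) ^ 3 := by
  have h1 : G r ≤ (Fintype.piFinset (fun _ : Fin 3 => Finset.Icc (-⌊r⌋) ⌊r⌋)).card := by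
    rw [G, ← Set.ncard_coe_finset]
    exact Set.ncard_le_ncard (G_subset hr) (Finset.finite_toSet _)
  rw [Fintype.card_piFinset] at h1
  simp only [Int.card_Icc, Finset.prod_const, Finset.card_univ, Fintype.card_fin] at h1
  have h0 : 0 ≤ ⌊r⌋ := Int.floor_nonneg.mpr hr
  have h2 : (((⌊r⌋ + 1 - -⌊r⌋).toNat : ℕ) : ℝ) = 2 * (⌊r⌋ : ℝ) + 1 := by
    have h3 : (((⌊r⌋ + 1 - -⌊r⌋).toNat : ℕ) : ℤ) = 2 * ⌊r⌋ + 1 := by
      rw [Int.toNat_of_nonneg (by omega)]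
      ring
    exact_mod_cast h3
  calc (G r : ℝ) ≤ (((⌊r⌋ + 1 - -⌊r⌋).toNat ^ 3 : ℕ) : ℝ) := by exact_mod_cast h1
    _ = (2 * (⌊r⌋ : ℝ) + 1) ^ 3 := by rw [Nat.cast_pow, h2]
    _ ≤ (2 * r + 1) ^ 3 := by
        have := Int.floor_le r
        have h4 : (0:ℝ) ≤ (⌊r⌋ : ℝ) := by exact_mod_cast h0
        gcongr

section counting

variable {α : Type*} [DecidableEq α] {n : ℕ}

/-- occupation number -/
def occ (f : Fin n → α) (z : α) : ℝ := ∑ i, if f i = z then (1:ℝ) else 0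

omit [DecidableEq α] in
theorem occ_nonneg [DecidableEq α] (f : Fin n → α) (z : α) : 0 ≤ occ f z := by
  unfold occ
  exact Finset.sum_nonneg (fun i _ => by split_ifs <;> norm_num)

theorem occ_eq_zero (f : Fin n → α) {z : α} (hz : ∀ i, f i ≠ z) : occ f z = 0 := by
  unfold occ
  exact Finset.sum_eq_zero (fun i _ => by simp [hz i])

theorem sum_comp_occ (f : Fin n → α) (s : Finset α) (hs : ∀ i, f i ∈ s) (h : α → ℝ) :
    ∑ i, h (f i) = ∑ z ∈ s, occ f z * h z := by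
  have h1 : ∀ i, h (f i) = ∑ z ∈ s, if f i = z then h z else 0 := by
    intro i
    rw [Finset.sum_ite_eq]
    simp [hs i]
  simp_rw [h1]
  rw [Finset.sum_comm]
  refine Finset.sum_congr rfl fun z _ => ?_
  unfold occ
  rw [Finset.sum_mul]
  refine Finset.sum_congr rfl fun i _ => ?_
  split_ifs <;> simp

theorem sum_pairs_occ (f : Fin n → α) (s : Finset α) (hs : ∀ i, f i ∈ s) (e : α → α) :
    (∑ i, ∑ j, if f i = e (f j) then (1:ℝ) else 0) = ∑ z ∈ s, occ f z * occ f (e z) := by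
  rw [Finset.sum_comm]
  exact sum_comp_occ f s hs (fun z => occ f (e z))

theorem sum_pairs_shift_le (f : Fin n → α) (e : α ≃ α) :
    (∑ i, ∑ j, if f i = e (f j) then (1:ℝ) else 0) ≤ ∑ i, ∑ j, if f i = f j then (1:ℝ) else 0 := by
  classical
  set s : Finset α := Finset.univ.image f with hs
  have hs1 : ∀ i, f i ∈ s := fun i => Finset.mem_image_of_mem f (Finset.mem_univ i)
  rw [sum_pairs_occ f s hs1 e, sum_pairs_occ f s hs1 (fun z => z)]
  have hoff : ∀ z, z ∉ s → occ f z = 0 := by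
    intro z hz
    refine occ_eq_zero f fun i hi => hz ?_
    rw [← hi]
    exact hs1 i
  have h1 : ∑ z ∈ s, occ f (e z) ^ 2 ≤ ∑ z ∈ s, occ f z ^ 2 := by
    have h2 : ∑ z ∈ s, occ f (e z) ^ 2 = ∑ z ∈ s.map e.toEmbedding, occ f z ^ 2 := by
      rw [Finset.sum_map]
      rfl
    have h3 : ∑ z ∈ s.map e.toEmbedding, occ f z ^ 2
        ≤ ∑ z ∈ s.map e.toEmbedding ∪ s, occ f z ^ 2 :=
      Finset.sum_le_sum_of_subset_of_nonneg Finset.subset_union_left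
        (fun z _ _ => sq_nonneg _)
    have h4 : ∑ z ∈ s.map e.toEmbedding ∪ s, occ f z ^ 2 = ∑ z ∈ s, occ f z ^ 2 := by
      symm
      refine Finset.sum_subset Finset.subset_union_right fun z _ hz => ?_
      rw [hoff z hz]
      norm_num
    rw [h2]
    exact h3.trans h4.le
  have h5 : ∑ z ∈ s, occ f z * occ f (e z) ≤ ∑ z ∈ s, (occ f z ^ 2 + occ f (e z) ^ 2) / 2 := by
    refine Finset.sum_le_sum fun z _ => ?_
    nlinarith [sq_nonneg (occ f z - occ f (e z))]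
  have h6 : ∑ z ∈ s, (occ f z ^ 2 + occ f (e z) ^ 2) / 2
      = (∑ z ∈ s, occ f z ^ 2 + ∑ z ∈ s, occ f (e z) ^ 2) / 2 := by
    rw [← Finset.sum_add_distrib, Finset.sum_div]
  have h7 : ∑ z ∈ s, occ f z * occ f z = ∑ z ∈ s, occ f z ^ 2 :=
    Finset.sum_congr rfl fun z _ => by ring
  rw [h7]
  linarith [h5, h6, h1]

end counting

theorem S_ge {ℓ : ℕ} (hℓ : 0 < ℓ) {n : ℕ} (x : Fin n → E) (s : Finset (Fin 3 → ℤ))
    (hx : ∀ i, cell ℓ (x i) ∈ s) : (n : ℝ) ^ 2 ≤ s.card * S ℓ x := by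
  have h1 : (n : ℝ) = ∑ z ∈ s, occ (fun i => cell ℓ (x i)) z := by
    have := sum_comp_occ (fun i => cell ℓ (x i)) s hx (fun _ => (1:ℝ))
    simpa using this
  have h2 : S ℓ x = ∑ z ∈ s, occ (fun i => cell ℓ (x i)) z ^ 2 := by
    have := sum_pairs_occ (fun i => cell ℓ (x i)) s hx (fun z => z)
    unfold S
    rw [this]
    exact Finset.sum_congr rfl fun z _ => by ring
  rw [h1, h2]
  exact sq_sum_le_card_mul_sum_sq

theorem cell_sub_mem {ℓ : ℕ} (hℓ : 0 < ℓ) {R : ℝ} (hR : 0 ≤ R) {a b : E} (h : dist a b ≤ R) :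
    ∑ k, (((cell ℓ a - cell ℓ b) k : ℤ) : ℝ) ^ 2 ≤ (R / ℓ + 2) ^ 2 := by
  have hℓ' : (0:ℝ) < ℓ := by exact_mod_cast hℓ
  set W : E := WithLp.toLp 2 (fun k => (((cell ℓ a - cell ℓ b) k : ℤ) : ℝ)) with hW
  set D : E := WithLp.toLp 2 (fun k => Int.fract (a k / ℓ) - Int.fract (b k / ℓ)) with hD
  have hWD : W = (1 / (ℓ:ℝ)) • (a - b) - D := by
    ext k
    simp only [hW, hD, PiLp.sub_apply, PiLp.smul_apply, smul_eq_mul, cell, Pi.sub_apply,
      Int.fract]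
    push_cast
    ring
  have hDn : ‖D‖ ≤ 2 := by
    rw [EuclideanSpace.norm_eq]
    rw [show (2:ℝ) = √(2 ^ 2) by rw [Real.sqrt_sq (by norm_num)]]
    apply Real.sqrt_le_sqrt
    have h1 : ∀ k, ‖D k‖ ^ 2 ≤ 1 := by
      intro k
      have h2 := Int.fract_nonneg (a k / (ℓ:ℝ))
      have h3 := Int.fract_lt_one (a k / (ℓ:ℝ))
      have h4 := Int.fract_nonneg (b k / (ℓ:ℝ))
      have h5 := Int.fract_lt_one (b k / (ℓ:ℝ))
      have h6 : |D k| ≤ 1 := by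
        rw [abs_le]
        simp only [hD]
        constructor <;> linarith
      rw [Real.norm_eq_abs]
      have h7 := abs_nonneg (D k)
      nlinarith
    calc ∑ k, ‖D k‖ ^ 2 ≤ ∑ k : Fin 3, (1:ℝ) := Finset.sum_le_sum (fun k _ => h1 k)
      _ ≤ 2 ^ 2 := by simp; norm_num
  have hWn : ‖W‖ ≤ R / ℓ + 2 := by
    rw [hWD]
    calc ‖(1 / (ℓ:ℝ)) • (a - b) - D‖ ≤ ‖(1 / (ℓ:ℝ)) • (a - b)‖ + ‖D‖ := norm_sub_le _ _
      _ = (1 / (ℓ:ℝ)) * dist a b + ‖D‖ := by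
          rw [norm_smul, dist_eq_norm, Real.norm_eq_abs, abs_of_pos (by positivity)]
      _ ≤ (1 / (ℓ:ℝ)) * R + 2 := by gcongr
      _ = R / ℓ + 2 := by ring
  have h8 : ‖W‖ ^ 2 = ∑ k, (((cell ℓ a - cell ℓ b) k : ℤ) : ℝ) ^ 2 := by
    rw [EuclideanSpace.norm_sq_eq]
    refine Finset.sum_congr rfl fun k _ => ?_
    rw [Real.norm_eq_abs, sq_abs]
  rw [← h8]
  have := norm_nonneg W
  gcongr

/-- pairs at distance at most `R` are controlled by pairs in the same cell (no shift) -/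
theorem card_pairs_le {ℓ : ℕ} (hℓ : 0 < ℓ) {R : ℝ} (hR : 0 ≤ R) {n : ℕ} (x : Fin n → E) :
    (∑ i, ∑ j, if dist (x i) (x j) ≤ R then (1:ℝ) else 0) ≤ (G (R / ℓ + 2) : ℝ) * S ℓ x := by
  classical
  have hr : 0 ≤ R / (ℓ:ℝ) + 2 := by positivity
  set W : Finset (Fin 3 → ℤ) := (G_finite (R / (ℓ:ℝ) + 2)).toFinset with hW
  have hWc : W.card = G (R / (ℓ:ℝ) + 2) := by
    rw [hW, G, Set.ncard_eq_toFinset_card _ (G_finite _)]
  have h1 : ∀ i j, (if dist (x i) (x j) ≤ R then (1:ℝ) else 0) ≤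
      ∑ w ∈ W, if cell ℓ (x i) = w + cell ℓ (x j) then (1:ℝ) else 0 := by
    intro i j
    have hnn : ∀ w ∈ W, (0:ℝ) ≤ if cell ℓ (x i) = w + cell ℓ (x j) then (1:ℝ) else 0 := by
      intro w _
      split_ifs <;> norm_num
    split_ifs with h
    · have hmem : cell ℓ (x i) - cell ℓ (x j) ∈ W := by
        rw [hW, Set.Finite.mem_toFinset]
        exact ⟨hr, cell_sub_mem hℓ hR h⟩
      refine le_trans ?_ (Finset.single_le_sum hnn hmem)
      simp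
    · exact Finset.sum_nonneg hnn
  calc (∑ i, ∑ j, if dist (x i) (x j) ≤ R then (1:ℝ) else 0)
      ≤ ∑ i, ∑ j, ∑ w ∈ W, if cell ℓ (x i) = w + cell ℓ (x j) then (1:ℝ) else 0 :=
        Finset.sum_le_sum fun i _ => Finset.sum_le_sum fun j _ => h1 i j
    _ = ∑ w ∈ W, ∑ i, ∑ j, if cell ℓ (x i) = w + cell ℓ (x j) then (1:ℝ) else 0 := by
        rw [Finset.sum_comm]
        have h2 : ∀ j, (∑ i, ∑ w ∈ W, if cell ℓ (x i) = w + cell ℓ (x j) then (1:ℝ) else 0)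
            = ∑ w ∈ W, ∑ i, if cell ℓ (x i) = w + cell ℓ (x j) then (1:ℝ) else 0 :=
          fun j => Finset.sum_comm
        simp_rw [h2]
        rw [Finset.sum_comm]
        refine Finset.sum_congr rfl fun w _ => ?_
        rw [Finset.sum_comm]
    _ ≤ ∑ w ∈ W, S ℓ x := by
        refine Finset.sum_le_sum fun w _ => ?_
        exact sum_pairs_shift_le (fun i => cell ℓ (x i)) (Equiv.addLeft w)
    _ = (G (R / ℓ + 2) : ℝ) * S ℓ x := by
        rw [Finset.sum_const, nsmul_eq_mul, hWc]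

theorem card_floor_ne_aux {ℓ : ℕ} (hℓ : 0 < ℓ) {u v : ℝ} (huv : u ≤ v) :
    ((univ.filter (fun t : Fin ℓ =>
      ⌊(u + ((t : ℕ) : ℝ)) / ℓ⌋ ≠ ⌊(v + ((t : ℕ) : ℝ)) / ℓ⌋)).card : ℝ) ≤ v - u + 1 := by
  have hℓ' : (0:ℝ) < ℓ := by exact_mod_cast hℓ
  have h1 : (univ.filter (fun t : Fin ℓ =>
      ⌊(u + ((t : ℕ) : ℝ)) / ℓ⌋ ≠ ⌊(v + ((t : ℕ) : ℝ)) / ℓ⌋)).card
      ≤ (Finset.Ioc ⌊u⌋ ⌊v⌋).card := by
    apply Finset.card_le_card_of_injOn
      (fun t : Fin ℓ => ⌊(v + ((t : ℕ) : ℝ)) / (ℓ : ℝ)⌋ * (ℓ : ℤ) - ((t : ℕ) : ℤ))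
    · intro t ht
      rw [Finset.mem_coe, Finset.mem_filter] at ht
      have hlt : ⌊(u + ((t : ℕ) : ℝ)) / ℓ⌋ < ⌊(v + ((t : ℕ) : ℝ)) / ℓ⌋ := by
        refine lt_of_le_of_ne ?_ ht.2
        apply Int.floor_le_floor
        gcongr
      rw [Finset.mem_coe, Finset.mem_Ioc]
      constructor
      · rw [Int.floor_lt]
        push_cast
        have h2 := Int.floor_lt.mp hlt
        rw [div_lt_iff₀ hℓ'] at h2
        linarith
      · rw [Int.le_floor]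
        push_cast
        have h2 := Int.floor_le ((v + ((t : ℕ) : ℝ)) / ℓ)
        rw [le_div_iff₀ hℓ'] at h2
        linarith
    · intro t _ t' _ h
      simp only at h
      apply Fin.ext
      have h3 : ((t : ℕ) : ℤ) % ℓ = ((t' : ℕ) : ℤ) % ℓ := by
        have h4 : ((t : ℕ) : ℤ) = ((t' : ℕ) : ℤ) +
          (⌊(v + ((t : ℕ) : ℝ)) / ℓ⌋ - ⌊(v + ((t' : ℕ) : ℝ)) / ℓ⌋) * ℓ := by linarith
        rw [h4, Int.add_mul_emod_self_right]
      have ht := t.2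
      have ht' := t'.2
      rw [Int.emod_eq_of_lt (by positivity) (by exact_mod_cast ht),
        Int.emod_eq_of_lt (by positivity) (by exact_mod_cast ht')] at h3
      exact_mod_cast h3
  have h5 : ((Finset.Ioc ⌊u⌋ ⌊v⌋).card : ℝ) = (⌊v⌋ : ℝ) - ⌊u⌋ := by
    rw [Int.card_Ioc]
    have h6 : (((⌊v⌋ - ⌊u⌋).toNat : ℕ) : ℤ) = ⌊v⌋ - ⌊u⌋ :=
      Int.toNat_of_nonneg (sub_nonneg.mpr (Int.floor_le_floor huv))
    exact_mod_cast h6
  have h7 := Int.floor_le v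
  have h8 := Int.lt_floor_add_one u
  calc ((univ.filter (fun t : Fin ℓ =>
      ⌊(u + ((t : ℕ) : ℝ)) / ℓ⌋ ≠ ⌊(v + ((t : ℕ) : ℝ)) / ℓ⌋)).card : ℝ)
      ≤ ((Finset.Ioc ⌊u⌋ ⌊v⌋).card : ℝ) := by exact_mod_cast h1
    _ ≤ v - u + 1 := by rw [h5]; linarith

theorem card_floor_ne {ℓ : ℕ} (hℓ : 0 < ℓ) (u v : ℝ) :
    ((univ.filter (fun t : Fin ℓ =>
      ⌊(u + ((t : ℕ) : ℝ)) / ℓ⌋ ≠ ⌊(v + ((t : ℕ) : ℝ)) / ℓ⌋)).card : ℝ) ≤ |u - v| + 1 := by
  rcases le_total u v with h | h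
  · have := card_floor_ne_aux hℓ h
    rw [abs_sub_comm, abs_of_nonneg (sub_nonneg.mpr h)]
    exact this
  · have := card_floor_ne_aux hℓ h
    rw [abs_of_nonneg (sub_nonneg.mpr h)]
    simpa only [ne_comm] using this

theorem card_coord {ℓ : ℕ} (k : Fin 3) (P : Fin ℓ → Prop) [DecidablePred P] :
    (univ.filter (fun τ : Fin 3 → Fin ℓ => P (τ k))).card = ℓ ^ 2 * (univ.filter P).card := by
  have h1 : univ.filter (fun τ : Fin 3 → Fin ℓ => P (τ k)) =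
      Fintype.piFinset (fun j : Fin 3 => if j = k then univ.filter P else univ) := by
    ext τ
    simp only [Finset.mem_filter, Finset.mem_univ, true_and, Fintype.mem_piFinset]
    constructor
    · intro h j
      split_ifs with hj
      · subst hj
        simpa using h
      · simp
    · intro h
      have := h k
      simpa using this
  rw [h1, Fintype.card_piFinset, Fin.prod_univ_three]
  have e0 : (univ : Finset (Fin ℓ)).card = ℓ := by simp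
  fin_cases k
  · simp only [Fin.zero_eta, Fin.isValue, if_true, one_ne_zero, if_false, e0,
      show ¬ ((2 : Fin 3) = 0) by decide]
    ring
  · simp only [Fin.mk_one, Fin.isValue, if_true, zero_ne_one, if_false, e0,
      show ¬ ((2 : Fin 3) = 1) by decide]
    ring
  · simp only [Fin.reduceFinMk, Fin.isValue, if_true, if_false, e0,
      show ¬ ((0 : Fin 3) = 2) by decide, show ¬ ((1 : Fin 3) = 2) by decide]
    ring

/-- averaging over integer shifts of the grid: separated pairs -/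
theorem card_sep_le {ℓ : ℕ} (hℓ : 0 < ℓ) (a b : E) :
    ((univ.filter (fun τ : Fin 3 → Fin ℓ =>
      cell ℓ (a + WithLp.toLp 2 (fun k => ((τ k : ℕ) : ℝ))) ≠
      cell ℓ (b + WithLp.toLp 2 (fun k => ((τ k : ℕ) : ℝ))))).card : ℝ)
      ≤ 3 * (dist a b + 1) * (ℓ : ℝ) ^ 2 := by
  classical
  have h1 : (univ.filter (fun τ : Fin 3 → Fin ℓ =>
      cell ℓ (a + WithLp.toLp 2 (fun k => ((τ k : ℕ) : ℝ))) ≠
      cell ℓ (b + WithLp.toLp 2 (fun k => ((τ k : ℕ) : ℝ))))) ⊆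
      (univ : Finset (Fin 3)).biUnion (fun k => univ.filter (fun τ : Fin 3 → Fin ℓ =>
        ⌊(a k + ((τ k : ℕ) : ℝ)) / ℓ⌋ ≠ ⌊(b k + ((τ k : ℕ) : ℝ)) / ℓ⌋)) := by
    intro τ hτ
    rw [Finset.mem_filter] at hτ
    have h2 := Function.ne_iff.mp hτ.2
    obtain ⟨k, hk⟩ := h2
    rw [Finset.mem_biUnion]
    refine ⟨k, Finset.mem_univ k, ?_⟩
    rw [Finset.mem_filter]
    refine ⟨Finset.mem_univ _, ?_⟩
    simpa [cell] using hk
  have h2 : ∀ k : Fin 3, ((univ.filter (fun τ : Fin 3 → Fin ℓ =>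
        ⌊(a k + ((τ k : ℕ) : ℝ)) / ℓ⌋ ≠ ⌊(b k + ((τ k : ℕ) : ℝ)) / ℓ⌋)).card : ℝ)
        ≤ (dist a b + 1) * (ℓ : ℝ) ^ 2 := by
    intro k
    rw [card_coord k (fun t : Fin ℓ =>
        ⌊(a k + ((t : ℕ) : ℝ)) / ℓ⌋ ≠ ⌊(b k + ((t : ℕ) : ℝ)) / ℓ⌋)]
    push_cast
    have h3 := card_floor_ne hℓ (a k) (b k)
    have h4 : |a k - b k| ≤ dist a b := by
      rw [dist_eq_norm]
      exact PiLp.norm_apply_le (a - b) k
    have h5 : (0:ℝ) ≤ (ℓ:ℝ) ^ 2 := by positivity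
    rw [mul_comm]
    exact mul_le_mul_of_nonneg_right (by linarith) h5
  calc _ ≤ (((univ : Finset (Fin 3)).biUnion (fun k => univ.filter (fun τ : Fin 3 → Fin ℓ =>
        ⌊(a k + ((τ k : ℕ) : ℝ)) / ℓ⌋ ≠ ⌊(b k + ((τ k : ℕ) : ℝ)) / ℓ⌋))).card : ℝ) := by
        exact_mod_cast Finset.card_le_card h1
    _ ≤ ((∑ k : Fin 3, (univ.filter (fun τ : Fin 3 → Fin ℓ =>
        ⌊(a k + ((τ k : ℕ) : ℝ)) / ℓ⌋ ≠ ⌊(b k + ((τ k : ℕ) : ℝ)) / ℓ⌋)).card : ℕ) : ℝ) := by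
        exact_mod_cast Finset.card_biUnion_le
    _ ≤ ∑ k : Fin 3, (dist a b + 1) * (ℓ : ℝ) ^ 2 := by
        push_cast
        exact Finset.sum_le_sum fun k _ => h2 k
    _ = 3 * (dist a b + 1) * (ℓ : ℝ) ^ 2 := by
        simp
        ring

end Vale.Agent.P171
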