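import Mathlib
import Vale.Agent.P171.Defs

namespace Vale.Agent.P171

open MeasureTheory Finset Filter Topology
open scoped ENNReal BigOperators

/-- sum over ordered pairs of distinct indices of a finite type -/
noncomputable def offG (f : E → E → ℝ) {ι : Type*} [Fintype ι] [DecidableEq ι] (x : ι → E) : ℝ :=
  ∑ i, ∑ j, if i = j then 0 else f (x i) (x j)

/-- weight of a finite type of points in `Λ` -/
noncomputable def W (f : E → E → ℝ) (μ : ℝ) (Λ : Set E) (ι : Type*) [Fintype ι] [DecidableEq ι] :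
    ℝ≥0∞ :=
  ∫⁻ x in Set.pi Set.univ (fun _ : ι => Λ),
    ENNReal.ofReal (Real.exp (μ * Fintype.card ι - offG f x / 2))

theorem cpf_eq_W (f : E → E → ℝ) (μ : ℝ) (Λ : Set E) (n : ℕ) :
    cpf f μ Λ n = ((n.factorial : ℝ≥0∞))⁻¹ * W f μ Λ (Fin n) := by
  unfold cpf W offG offSum
  simp only [Fintype.card_fin]

theorem cpf_mono {f : E → E → ℝ} {μ : ℝ} {A B : Set E} (h : A ⊆ B) (n : ℕ) :
    cpf f μ A n ≤ cpf f μ B n := by
  unfold cpf
  gcongr

theorem pf_mono {f : E → E → ℝ} {μ : ℝ} {A B : Set E} (h : A ⊆ B) : pf f μ A ≤ pf f μ B :=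
  ENNReal.tsum_le_tsum fun n => cpf_mono h n

theorem cpf_translate {f : E → E → ℝ} {μ : ℝ} (v : E) (hf : ∀ a b, f (a + v) (b + v) = f a b)
    (A : Set E) (n : ℕ) : cpf f μ ((fun a => a + v) '' A) n = cpf f μ A n := by
  unfold cpf
  congr 1
  have hT : MeasurePreserving (fun x : Fin n → E => x + fun _ => v) volume volume :=
    measurePreserving_add_right volume (fun _ => v)
  have hemb : MeasurableEmbedding (fun x : Fin n → E => x + fun _ => v) :=
    (MeasurableEquiv.addRight (fun _ : Fin n => v)).measurableEmbedding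
  rw [← hT.setLIntegral_comp_preimage_emb hemb]
  have hpre : (fun x : Fin n → E => x + fun _ => v) ⁻¹'
      (Set.pi Set.univ fun _ : Fin n => (fun a => a + v) '' A) = Set.pi Set.univ fun _ => A := by
    ext x
    simp only [Set.mem_preimage, Set.mem_pi, Set.mem_univ, forall_true_left, Pi.add_apply,
      Set.mem_image]
    constructor
    · intro h i
      obtain ⟨a, ha, hav⟩ := h i
      have : a = x i := add_right_cancel hav
      rwa [← this]
    · intro h i
      exact ⟨x i, h i, rfl⟩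
  rw [hpre]
  congr 1
  funext x
  congr 3
  unfold offSum
  simp only [Pi.add_apply, hf]

theorem pf_translate {f : E → E → ℝ} {μ : ℝ} (v : E) (hf : ∀ a b, f (a + v) (b + v) = f a b)
    (A : Set E) : pf f μ ((fun a => a + v) '' A) = pf f μ A := by
  unfold pf
  exact tsum_congr fun n => cpf_translate v hf A n

theorem measurable_offG {f : E → E → ℝ} (hf : IsPair f) {ι : Type*} [Fintype ι] [DecidableEq ι] :
    Measurable (fun x : ι → E => offG f x) := by
  unfold offG
  refine Finset.measurable_sum _ fun i _ => Finset.measurable_sum _ fun j _ => ?_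
  by_cases h : i = j
  · simp only [h, if_true]; exact measurable_const
  · simp only [h, if_false]
    have h2 : Measurable (fun x : ι → E => (x i, x j)) :=
      (measurable_pi_apply i).prodMk (measurable_pi_apply j)
    exact hf.meas.comp h2

theorem measurable_weight {f : E → E → ℝ} (hf : IsPair f) {ι : Type*} [Fintype ι] [DecidableEq ι]
    (c : ℝ) : Measurable (fun x : ι → E => ENNReal.ofReal (Real.exp (c - offG f x / 2))) :=
  ENNReal.measurable_ofReal.comp
    (Real.measurable_exp.comp (measurable_const.sub ((measurable_offG hf).div_const 2)))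

theorem W_congr (f : E → E → ℝ) (μ : ℝ) (Λ : Set E) {ι κ : Type*} [Fintype ι] [DecidableEq ι]
    [Fintype κ] [DecidableEq κ] (e : ι ≃ κ) : W f μ Λ ι = W f μ Λ κ := by
  unfold W
  have hT := volume_measurePreserving_piCongrLeft (fun _ : κ => E) e
  rw [← hT.setLIntegral_comp_preimage_emb (MeasurableEquiv.measurableEmbedding _)]
  have hap : ∀ (x : ι → E) (k : κ), (MeasurableEquiv.piCongrLeft (fun _ : κ => E) e) x k
      = x (e.symm k) := by
    intro x k
    have := Equiv.piCongrLeft_apply_apply (P := fun _ : κ => E) e x (e.symm k)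
    rw [e.apply_symm_apply] at this
    exact this
  have hpre : (MeasurableEquiv.piCongrLeft (fun _ : κ => E) e) ⁻¹'
      (Set.pi Set.univ fun _ : κ => Λ) = Set.pi Set.univ fun _ : ι => Λ := by
    ext x
    simp only [Set.mem_preimage, Set.mem_pi, Set.mem_univ, forall_true_left, hap]
    constructor
    · intro h i
      simpa using h (e i)
    · intro h k
      exact h _
  rw [hpre]
  congr 1
  funext x
  have h1 : offG f ((MeasurableEquiv.piCongrLeft (fun _ : κ => E) e) x) = offG f x := by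
    unfold offG
    simp only [hap]
    rw [← e.sum_comp]
    refine Finset.sum_congr rfl fun i _ => ?_
    rw [← e.sum_comp]
    refine Finset.sum_congr rfl fun j _ => ?_
    simp only [e.symm_apply_apply, EmbeddingLike.apply_eq_iff_eq]
  rw [h1, Fintype.card_congr e]

/-- splitting of the energy -/
theorem offG_split (f : E → E → ℝ) {ι : Type*} [Fintype ι] [DecidableEq ι] (p : ι → Prop)
    [DecidablePred p] (x : ι → E) :
    offG f x = offG f (fun i : {i // p i} => x i) + offG f (fun i : {i // ¬ p i} => x i)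
      + (∑ i : {i // p i}, ∑ j : {j // ¬ p j}, f (x i) (x j)
        + ∑ i : {i // ¬ p i}, ∑ j : {j // p j}, f (x i) (x j)) := by
  unfold offG
  rw [← Fintype.sum_subtype_add_sum_subtype p]
  have h1 : ∀ i : {i // p i}, (∑ j, if (i : ι) = j then (0:ℝ) else f (x i) (x j))
      = (∑ j : {j // p j}, if i = j then (0:ℝ) else f (x i) (x j))
        + ∑ j : {j // ¬ p j}, f (x i) (x j) := by
    intro i
    rw [← Fintype.sum_subtype_add_sum_subtype p]
    congr 1
    · refine Finset.sum_congr rfl fun j _ => ?_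
      simp only [Subtype.ext_iff]
    · refine Finset.sum_congr rfl fun j _ => ?_
      rw [if_neg]
      intro hij
      exact j.2 (hij ▸ i.2)
  have h2 : ∀ i : {i // ¬ p i}, (∑ j, if (i : ι) = j then (0:ℝ) else f (x i) (x j))
      = (∑ j : {j // ¬ p j}, if i = j then (0:ℝ) else f (x i) (x j))
        + ∑ j : {j // p j}, f (x i) (x j) := by
    intro i
    rw [← Fintype.sum_subtype_add_sum_subtype p]
    rw [add_comm]
    congr 1
    · refine Finset.sum_congr rfl fun j _ => ?_
      simp only [Subtype.ext_iff]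
    · refine Finset.sum_congr rfl fun j _ => ?_
      rw [if_neg]
      intro hij
      exact i.2 (hij ▸ j.2)
  rw [Finset.sum_congr rfl fun i _ => h1 i, Finset.sum_congr rfl fun i _ => h2 i,
    Finset.sum_add_distrib, Finset.sum_add_distrib]
  ring

/-- the region where the points with `p` are in `A` and the others are in `B` -/
def Reg (A B : Set E) {ι : Type*} (p : ι → Prop) : Set (ι → E) :=
  {x | (∀ i, p i → x i ∈ A) ∧ ∀ i, ¬ p i → x i ∈ B}

theorem measurableSet_Reg {A B : Set E} (hA : MeasurableSet A) (hB : MeasurableSet B) {ι : Type*}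
    [Fintype ι] (p : ι → Prop) : MeasurableSet (Reg A B p) := by
  have : Reg A B p = (⋂ i, ⋂ (_ : p i), (fun x : ι → E => x i) ⁻¹' A) ∩
      ⋂ i, ⋂ (_ : ¬ p i), (fun x : ι → E => x i) ⁻¹' B := by
    ext x; simp [Reg]
  rw [this]
  refine MeasurableSet.inter ?_ ?_
  · exact MeasurableSet.iInter fun i => MeasurableSet.iInter fun _ => measurable_pi_apply i hA
  · exact MeasurableSet.iInter fun i => MeasurableSet.iInter fun _ => measurable_pi_apply i hB

theorem lintegral_Reg {A B : Set E} {ι : Type*}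
    [Fintype ι] (p : ι → Prop) [DecidablePred p] {g : ({i // p i} → E) → ℝ≥0∞}
    {h : ({i // ¬ p i} → E) → ℝ≥0∞} (hg : Measurable g) (hh : Measurable h) :
    ∫⁻ x in Reg A B p, g (fun i => x i) * h (fun i => x i)
      = (∫⁻ y in Set.pi Set.univ (fun _ : {i // p i} => A), g y)
        * ∫⁻ z in Set.pi Set.univ (fun _ : {i // ¬ p i} => B), h z := by
  have hT := volume_preserving_piEquivPiSubtypeProd (fun _ : ι => E) p
  have hpre : (MeasurableEquiv.piEquivPiSubtypeProd (fun _ : ι => E) p) ⁻¹'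
      ((Set.pi Set.univ (fun _ : {i // p i} => A)) ×ˢ
        (Set.pi Set.univ (fun _ : {i // ¬ p i} => B))) = Reg A B p := by
    ext x
    simp [Reg, MeasurableEquiv.piEquivPiSubtypeProd, Equiv.piEquivPiSubtypeProd]
  have key := hT.setLIntegral_comp_preimage_emb (MeasurableEquiv.measurableEmbedding _)
    (fun y => g y.1 * h y.2) ((Set.pi Set.univ (fun _ : {i // p i} => A)) ×ˢ
        (Set.pi Set.univ (fun _ : {i // ¬ p i} => B)))
  rw [hpre] at key
  have e1 : (∫⁻ x in Reg A B p, g (fun i => x i) * h (fun i => x i))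
      = ∫⁻ x in Reg A B p, g ((MeasurableEquiv.piEquivPiSubtypeProd (fun _ : ι => E) p) x).1 *
        h ((MeasurableEquiv.piEquivPiSubtypeProd (fun _ : ι => E) p) x).2 := rfl
  rw [e1]
  refine key.trans ?_
  have e2 : (volume : Measure (({i // p i} → E) × ({i // ¬ p i} → E))).restrict
      ((Set.pi Set.univ (fun _ : {i // p i} => A)) ×ˢ
        (Set.pi Set.univ (fun _ : {i // ¬ p i} => B)))
      = (volume.restrict (Set.pi Set.univ (fun _ : {i // p i} => A))).prod
        (volume.restrict (Set.pi Set.univ (fun _ : {i // ¬ p i} => B))) := by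
    rw [Measure.volume_eq_prod, Measure.prod_restrict]
  rw [e2]
  exact lintegral_prod_mul hg.aemeasurable hh.aemeasurable

theorem W_union_eq (f : E → E → ℝ) (μ : ℝ) {A B : Set E} (hA : MeasurableSet A)
    (hB : MeasurableSet B) (hAB : Disjoint A B) {ι : Type*} [Fintype ι] [DecidableEq ι] :
    W f μ (A ∪ B) ι = ∑ S : Finset ι, ∫⁻ x in Reg A B (fun i => i ∈ S),
      ENNReal.ofReal (Real.exp (μ * Fintype.card ι - offG f x / 2)) := by
  classical
  unfold W
  have hU : (Set.pi Set.univ (fun _ : ι => A ∪ B)) = ⋃ S ∈ (Finset.univ : Finset (Finset ι)),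
      Reg A B (fun i => i ∈ S) := by
    ext x
    simp only [Set.mem_pi, Set.mem_univ, forall_true_left, Set.mem_union, Finset.mem_univ,
      Set.iUnion_true, Set.mem_iUnion]
    constructor
    · intro h
      refine ⟨Finset.univ.filter fun i => x i ∈ A, ?_, ?_⟩
      · intro i hi
        exact (Finset.mem_filter.1 hi).2
      · intro i hi
        rcases h i with h' | h'
        · exact absurd (Finset.mem_filter.2 ⟨Finset.mem_univ i, h'⟩) hi
        · exact h'
    · rintro ⟨S, h1, h2⟩ i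
      by_cases hi : i ∈ S
      · exact Or.inl (h1 i hi)
      · exact Or.inr (h2 i hi)
  rw [hU, lintegral_biUnion_finset]
  · intro S _ T _ hST
    rw [Function.onFun, Set.disjoint_left]
    intro x hS hT
    apply hST
    ext i
    constructor
    · intro hi
      by_contra hi'
      exact Set.disjoint_left.1 hAB (hS.1 i hi) (hT.2 i hi')
    · intro hi
      by_contra hi'
      exact Set.disjoint_left.1 hAB (hT.1 i hi) (hS.2 i hi')
  · intro S _
    exact measurableSet_Reg hA hB _

/-- `W` for the subtype of a decidable predicate -/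
noncomputable def Wp (f : E → E → ℝ) (μ : ℝ) (A : Set E) {ι : Type*} [Fintype ι] [DecidableEq ι]
    (p : ι → Prop) [DecidablePred p] : ℝ≥0∞ := W f μ A {i // p i}

theorem lintegral_Reg_weight {f : E → E → ℝ} (hf : IsPair f) (μ : ℝ) (A B : Set E) {ι : Type*}
    [Fintype ι] [DecidableEq ι] (p : ι → Prop) [DecidablePred p] :
    (∫⁻ x in Reg A B p,
      ENNReal.ofReal (Real.exp (μ * Fintype.card {i // p i}
          - offG f (fun i : {i // p i} => x i) / 2)) *
      ENNReal.ofReal (Real.exp (μ * Fintype.card {i // ¬ p i}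
          - offG f (fun i : {i // ¬ p i} => x i) / 2)))
      = Wp f μ A p * Wp f μ B (fun i => ¬ p i) :=
  lintegral_Reg p (measurable_weight hf _) (measurable_weight hf _)

theorem card_cast_split {ι : Type*} [Fintype ι] (p : ι → Prop) [DecidablePred p] :
    (Fintype.card ι : ℝ) = (Fintype.card {i // p i} : ℝ) + (Fintype.card {i // ¬ p i} : ℝ) := by
  rw [← Nat.cast_add, Fintype.card_subtype_compl]
  have : Fintype.card {i // p i} ≤ Fintype.card ι := Fintype.card_subtype_le _
  congr 1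
  omega

theorem Reg_weight_ge {f : E → E → ℝ} (hf : IsPair f) (μ : ℝ) {A B : Set E} (hA : MeasurableSet A)
    (hB : MeasurableSet B) (hneg : ∀ a ∈ A, ∀ b ∈ B, f a b ≤ 0)
    {ι : Type*} [Fintype ι] [DecidableEq ι] (p : ι → Prop) [DecidablePred p] :
    Wp f μ A p * Wp f μ B (fun i => ¬ p i) ≤ ∫⁻ x in Reg A B p,
      ENNReal.ofReal (Real.exp (μ * Fintype.card ι - offG f x / 2)) := by
  rw [← lintegral_Reg_weight hf]
  refine setLIntegral_mono' (measurableSet_Reg hA hB p) fun x hx => ?_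
  rw [← ENNReal.ofReal_mul (Real.exp_pos _).le, ← Real.exp_add]
  apply ENNReal.ofReal_le_ofReal
  apply Real.exp_le_exp.2
  rw [offG_split f p x, card_cast_split p]
  have h1 : ∑ i : {i // p i}, ∑ j : {j // ¬ p j}, f (x i) (x j) ≤ 0 :=
    Finset.sum_nonpos fun i _ => Finset.sum_nonpos fun j _ =>
      hneg _ (hx.1 i i.2) _ (hx.2 j j.2)
  have h2 : ∑ i : {i // ¬ p i}, ∑ j : {j // p j}, f (x i) (x j) ≤ 0 :=
    Finset.sum_nonpos fun i _ => Finset.sum_nonpos fun j _ => by
      rw [hf.symm]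
      exact hneg _ (hx.1 j j.2) _ (hx.2 i i.2)
  rw [mul_add]
  linarith

theorem Reg_weight_le {f : E → E → ℝ} (hf : IsPair f) (μ : ℝ) {A B : Set E} (hA : MeasurableSet A)
    (hB : MeasurableSet B) (hpos : ∀ a ∈ A, ∀ b ∈ B, 0 ≤ f a b)
    {ι : Type*} [Fintype ι] [DecidableEq ι] (p : ι → Prop) [DecidablePred p] :
    ∫⁻ x in Reg A B p, ENNReal.ofReal (Real.exp (μ * Fintype.card ι - offG f x / 2))
      ≤ Wp f μ A p * Wp f μ B (fun i => ¬ p i) := by
  rw [← lintegral_Reg_weight hf]
  refine setLIntegral_mono' (measurableSet_Reg hA hB p) fun x hx => ?_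
  rw [← ENNReal.ofReal_mul (Real.exp_pos _).le, ← Real.exp_add]
  apply ENNReal.ofReal_le_ofReal
  apply Real.exp_le_exp.2
  rw [offG_split f p x, card_cast_split p]
  have h1 : 0 ≤ ∑ i : {i // p i}, ∑ j : {j // ¬ p j}, f (x i) (x j) :=
    Finset.sum_nonneg fun i _ => Finset.sum_nonneg fun j _ =>
      hpos _ (hx.1 i i.2) _ (hx.2 j j.2)
  have h2 : 0 ≤ ∑ i : {i // ¬ p i}, ∑ j : {j // p j}, f (x i) (x j) :=
    Finset.sum_nonneg fun i _ => Finset.sum_nonneg fun j _ => by
      rw [hf.symm]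
      exact hpos _ (hx.1 j j.2) _ (hx.2 i i.2)
  rw [mul_add]
  linarith

theorem W_union_ge {f : E → E → ℝ} (hf : IsPair f) (μ : ℝ) {A B : Set E} (hA : MeasurableSet A)
    (hB : MeasurableSet B) (hAB : Disjoint A B) (hneg : ∀ a ∈ A, ∀ b ∈ B, f a b ≤ 0)
    {ι : Type*} [Fintype ι] [DecidableEq ι] :
    ∑ S : Finset ι, Wp f μ A (fun i => i ∈ S) * Wp f μ B (fun i => ¬ i ∈ S)
      ≤ W f μ (A ∪ B) ι := by
  rw [W_union_eq f μ hA hB hAB]
  exact Finset.sum_le_sum fun S _ => Reg_weight_ge hf μ hA hB hneg _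

theorem W_union_le {f : E → E → ℝ} (hf : IsPair f) (μ : ℝ) {A B : Set E} (hA : MeasurableSet A)
    (hB : MeasurableSet B) (hAB : Disjoint A B) (hpos : ∀ a ∈ A, ∀ b ∈ B, 0 ≤ f a b)
    {ι : Type*} [Fintype ι] [DecidableEq ι] :
    W f μ (A ∪ B) ι
      ≤ ∑ S : Finset ι, Wp f μ A (fun i => i ∈ S) * Wp f μ B (fun i => ¬ i ∈ S) := by
  rw [W_union_eq f μ hA hB hAB]
  exact Finset.sum_le_sum fun S _ => Reg_weight_le hf μ hA hB hpos _

theorem card_sub {ι : Type*} [Fintype ι] (p : ι → Prop) [DecidablePred p] :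
    Fintype.card {i // p i} = (Finset.univ.filter p).card := Fintype.card_subtype p

theorem Wp_eq_fin (f : E → E → ℝ) (μ : ℝ) (A : Set E) {ι : Type*} [Fintype ι] [DecidableEq ι]
    (p : ι → Prop) [DecidablePred p] : Wp f μ A p = W f μ A (Fin (Finset.univ.filter p).card) :=
  W_congr f μ A (Fintype.equivFinOfCardEq (card_sub p))

theorem W_fin_congr (f : E → E → ℝ) (μ : ℝ) (A : Set E) {m n : ℕ} (h : m = n) :
    W f μ A (Fin m) = W f μ A (Fin n) := by subst h; rfl

/-- combinatorial rearrangement -/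
theorem sum_W_eq (f : E → E → ℝ) (μ : ℝ) (A B : Set E) (n : ℕ) :
    ((n.factorial : ℝ≥0∞))⁻¹ * ∑ S : Finset (Fin n),
        Wp f μ A (fun i => i ∈ S) * Wp f μ B (fun i => ¬ i ∈ S)
      = ∑ p ∈ HasAntidiagonal.antidiagonal n, cpf f μ A p.1 * cpf f μ B p.2 := by
  classical
  have h1 : ∀ S : Finset (Fin n), Wp f μ A (fun i => i ∈ S) * Wp f μ B (fun i => ¬ i ∈ S)
      = W f μ A (Fin S.card) * W f μ B (Fin (n - S.card)) := by
    intro S
    rw [Wp_eq_fin, Wp_eq_fin]
    congr 1
    · exact W_fin_congr f μ A (by simp)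
    · refine W_fin_congr f μ B ?_
      rw [Finset.filter_not]
      simp [Finset.card_sdiff]
  rw [Finset.sum_congr rfl fun S _ => h1 S]
  have h2 : (∑ S : Finset (Fin n), W f μ A (Fin S.card) * W f μ B (Fin (n - S.card)))
      = ∑ k ∈ Finset.range (n + 1), (n.choose k : ℝ≥0∞) *
        (W f μ A (Fin k) * W f μ B (Fin (n - k))) := by
    have := Finset.sum_powerset_apply_card (x := (Finset.univ : Finset (Fin n)))
      (fun k => W f μ A (Fin k) * W f μ B (Fin (n - k)))
    rw [Finset.powerset_univ] at this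
    rw [this]
    simp only [Finset.card_univ, Fintype.card_fin, nsmul_eq_mul]
  rw [h2, Finset.Nat.sum_antidiagonal_eq_sum_range_succ_mk, Finset.mul_sum]
  refine Finset.sum_congr rfl fun k hk => ?_
  have hk' : k ≤ n := Nat.lt_succ_iff.1 (Finset.mem_range.1 hk)
  simp only [cpf_eq_W]
  have hfac : ((n.factorial : ℝ≥0∞))⁻¹ * (n.choose k : ℝ≥0∞)
      = ((k.factorial : ℝ≥0∞))⁻¹ * (((n - k).factorial : ℝ≥0∞))⁻¹ := by
    have hne : ∀ m : ℕ, ((m.factorial : ℕ) : ℝ≥0∞) ≠ 0 := fun m => by
      exact_mod_cast m.factorial_ne_zero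
    have hnt : ∀ m : ℕ, ((m.factorial : ℕ) : ℝ≥0∞) ≠ ⊤ := fun m => ENNReal.natCast_ne_top _
    have hmul : ((n.factorial : ℕ) : ℝ≥0∞)
        = (n.choose k : ℝ≥0∞) * (k.factorial : ℝ≥0∞) * ((n - k).factorial : ℝ≥0∞) := by
      rw [← Nat.choose_mul_factorial_mul_factorial hk']
      push_cast
      rfl
    rw [← ENNReal.mul_inv (Or.inl (hne _)) (Or.inl (hnt _))]
    rw [hmul]
    have hc : (n.choose k : ℝ≥0∞) ≠ 0 := by
      exact_mod_cast (Nat.choose_pos hk').ne'
    have hct : (n.choose k : ℝ≥0∞) ≠ ⊤ := ENNReal.natCast_ne_top _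
    rw [mul_assoc, ENNReal.mul_inv (Or.inl hc) (Or.inl hct), mul_comm, ← mul_assoc,
      ENNReal.mul_inv_cancel hc hct, one_mul]
  calc ((n.factorial : ℝ≥0∞))⁻¹ * ((n.choose k : ℝ≥0∞) * (W f μ A (Fin k) * W f μ B (Fin (n - k))))
      = (((n.factorial : ℝ≥0∞))⁻¹ * (n.choose k : ℝ≥0∞)) *
        (W f μ A (Fin k) * W f μ B (Fin (n - k))) := by ring
    _ = _ := by rw [hfac]; ring

theorem tsum_antidiagonal (a b : ℕ → ℝ≥0∞) :
    ∑' n, ∑ p ∈ HasAntidiagonal.antidiagonal n, a p.1 * b p.2 = (∑' n, a n) * ∑' n, b n := by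
  have h1 : (∑' n, a n) * ∑' n, b n = ∑' p : ℕ × ℕ, a p.1 * b p.2 := by
    have := ENNReal.tsum_prod (f := fun (p q : ℕ) => a p * b q)
    rw [this]
    simp only [ENNReal.tsum_mul_left, ENNReal.tsum_mul_right]
  rw [h1, ← (Finset.HasAntidiagonal.sigmaAntidiagonalEquivProd (A := ℕ)).tsum_eq
    (fun p : ℕ × ℕ => a p.1 * b p.2), ENNReal.tsum_sigma']
  refine tsum_congr fun n => ?_
  rw [tsum_fintype]
  simp only [Finset.HasAntidiagonal.sigmaAntidiagonalEquivProd_apply]
  exact (Finset.sum_coe_sort (HasAntidiagonal.antidiagonal n) (fun p => a p.1 * b p.2)).symm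

theorem pf_union_ge {f : E → E → ℝ} (hf : IsPair f) (μ : ℝ) {A B : Set E} (hA : MeasurableSet A)
    (hB : MeasurableSet B) (hAB : Disjoint A B) (hneg : ∀ a ∈ A, ∀ b ∈ B, f a b ≤ 0) :
    pf f μ A * pf f μ B ≤ pf f μ (A ∪ B) := by
  unfold pf
  rw [← tsum_antidiagonal]
  refine ENNReal.tsum_le_tsum fun n => ?_
  rw [← sum_W_eq, cpf_eq_W]
  gcongr
  exact W_union_ge hf μ hA hB hAB hneg

theorem pf_union_le {f : E → E → ℝ} (hf : IsPair f) (μ : ℝ) {A B : Set E} (hA : MeasurableSet A)
    (hB : MeasurableSet B) (hAB : Disjoint A B) (hpos : ∀ a ∈ A, ∀ b ∈ B, 0 ≤ f a b) :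
    pf f μ (A ∪ B) ≤ pf f μ A * pf f μ B := by
  unfold pf
  rw [← tsum_antidiagonal]
  refine ENNReal.tsum_le_tsum fun n => ?_
  rw [← sum_W_eq, cpf_eq_W]
  gcongr
  exact W_union_le hf μ hA hB hAB hpos

theorem pf_empty (f : E → E → ℝ) (μ : ℝ) : pf f μ ∅ = 1 := by
  unfold pf
  rw [tsum_eq_single 0]
  · unfold cpf offSum
    simp only [Nat.factorial_zero, Nat.cast_one, inv_one, one_mul, Finset.univ_eq_empty,
      Finset.sum_empty, CharP.cast_eq_zero, mul_zero, zero_div, sub_zero, Real.exp_zero,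
      ENNReal.ofReal_one, lintegral_const, Measure.restrict_apply, MeasurableSet.univ,
      Set.univ_inter]
    have : (Set.pi Set.univ fun _ : Fin 0 => (∅ : Set E)) = Set.univ := by
      ext x; simp
    rw [this, volume_pi, Measure.pi_of_empty]
    simp
  · intro n hn
    unfold cpf
    have : (Set.pi Set.univ fun _ : Fin n => (∅ : Set E)) = ∅ := by
      have : Nonempty (Fin n) := ⟨⟨0, Nat.pos_of_ne_zero hn⟩⟩
      exact Set.univ_pi_empty
    rw [this]
    simp

/-- superadditivity: attractive across different regions -/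
theorem prod_pf_le {f : E → E → ℝ} (hf : IsPair f) {μ : ℝ} {ι : Type*} (s : Finset ι)
    (A : ι → Set E) (hA : ∀ i ∈ s, MeasurableSet (A i))
    (hd : ∀ i ∈ s, ∀ j ∈ s, i ≠ j → Disjoint (A i) (A j))
    (hneg : ∀ i ∈ s, ∀ j ∈ s, i ≠ j → ∀ a ∈ A i, ∀ b ∈ A j, f a b ≤ 0) :
    ∏ i ∈ s, pf f μ (A i) ≤ pf f μ (⋃ i ∈ s, A i) := by
  classical
  induction s using Finset.induction_on with
  | empty => simp [pf_empty]
  | insert i s hi ih =>
    rw [Finset.prod_insert hi, Finset.set_biUnion_insert]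
    have ih' := ih (fun j hj => hA j (Finset.mem_insert_of_mem hj))
      (fun j hj k hk => hd j (Finset.mem_insert_of_mem hj) k (Finset.mem_insert_of_mem hk))
      (fun j hj k hk => hneg j (Finset.mem_insert_of_mem hj) k (Finset.mem_insert_of_mem hk))
    refine le_trans ?_ (pf_union_ge hf μ (hA i (Finset.mem_insert_self _ _))
      (Finset.measurableSet_biUnion _ fun j hj => hA j (Finset.mem_insert_of_mem hj)) ?_ ?_)
    · gcongr
    · rw [Set.disjoint_iUnion₂_right]
      intro j hj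
      exact hd i (Finset.mem_insert_self _ _) j (Finset.mem_insert_of_mem hj)
        (fun h => hi (h ▸ hj))
    · intro a ha b hb
      obtain ⟨j, hj, hbj⟩ := Set.mem_iUnion₂.1 hb
      exact hneg i (Finset.mem_insert_self _ _) j (Finset.mem_insert_of_mem hj)
        (fun h => hi (h ▸ hj)) a ha b hbj

/-- subadditivity: nonnegative across different regions -/
theorem pf_iUnion_le {f : E → E → ℝ} (hf : IsPair f) {μ : ℝ} {ι : Type*} (s : Finset ι)
    (A : ι → Set E) (hA : ∀ i ∈ s, MeasurableSet (A i))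
    (hd : ∀ i ∈ s, ∀ j ∈ s, i ≠ j → Disjoint (A i) (A j))
    (hpos : ∀ i ∈ s, ∀ j ∈ s, i ≠ j → ∀ a ∈ A i, ∀ b ∈ A j, 0 ≤ f a b) :
    pf f μ (⋃ i ∈ s, A i) ≤ ∏ i ∈ s, pf f μ (A i) := by
  classical
  induction s using Finset.induction_on with
  | empty => simp [pf_empty]
  | insert i s hi ih =>
    rw [Finset.prod_insert hi, Finset.set_biUnion_insert]
    have ih' := ih (fun j hj => hA j (Finset.mem_insert_of_mem hj))
      (fun j hj k hk => hd j (Finset.mem_insert_of_mem hj) k (Finset.mem_insert_of_mem hk))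
      (fun j hj k hk => hpos j (Finset.mem_insert_of_mem hj) k (Finset.mem_insert_of_mem hk))
    refine (pf_union_le hf μ (hA i (Finset.mem_insert_self _ _))
      (Finset.measurableSet_biUnion _ fun j hj => hA j (Finset.mem_insert_of_mem hj)) ?_ ?_).trans ?_
    · rw [Set.disjoint_iUnion₂_right]
      intro j hj
      exact hd i (Finset.mem_insert_self _ _) j (Finset.mem_insert_of_mem hj)
        (fun h => hi (h ▸ hj))
    · intro a ha b hb
      obtain ⟨j, hj, hbj⟩ := Set.mem_iUnion₂.1 hb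
      exact hpos i (Finset.mem_insert_self _ _) j (Finset.mem_insert_of_mem hj)
        (fun h => hi (h ▸ hj)) a ha b hbj
    · gcongr

end Vale.Agent.P171
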