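import Mathlib
import Vale.Agent.P171.Defs
import Vale.Agent.P171.Split

namespace Vale.Agent.P171

open MeasureTheory Finset Filter Topology
open scoped ENNReal BigOperators

/-- hypotheses for the thermodynamic limit -/
structure IsStab (f : E → E → ℝ) (B : ℝ) : Prop extends IsPair f where
  trans : ∀ v a b, f (a + v) (b + v) = f a b
  neg : ∀ a b, 2 ≤ dist a b → f a b ≤ 0
  stab : ∀ (n : ℕ) (x : Fin n → E), -(B * n) ≤ offSum f x / 2

theorem volume_box {L : ℝ} (hL : 0 ≤ L) : volume (box L) = ENNReal.ofReal (L ^ 3) := by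
  have h1 : box L = (@WithLp.ofLp 2 (Fin 3 → ℝ)) ⁻¹' (Set.pi Set.univ fun _ => Set.Icc (0:ℝ) L) := by
    ext a
    simp only [box, Set.mem_preimage, Set.mem_pi, Set.mem_univ, true_imp_iff, Set.mem_ofPred_eq]
  rw [h1, (PiLp.volume_preserving_ofLp (Fin 3)).measure_preimage, volume_pi_pi]
  · simp [ENNReal.ofReal_pow hL]
  · exact (MeasurableSet.univ_pi fun _ => measurableSet_Icc).nullMeasurableSet

theorem measurableSet_box_aux (L : ℝ) : MeasurableSet (box L) := by
  unfold box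
  rw [Set.ofPred_forall]
  refine MeasurableSet.iInter fun k => ?_
  have : Measurable fun a : E => a k := by fun_prop
  exact this measurableSet_Icc

theorem cpf_box_le {f : E → E → ℝ} {B : ℝ} (hf : IsStab f B) {μ L : ℝ} (hL : 0 ≤ L) (n : ℕ) :
    cpf f μ (box L) n ≤ ENNReal.ofReal ((L ^ 3 * Real.exp (μ + B)) ^ n / n.factorial) := by
  unfold cpf
  calc _ ≤ ((n.factorial : ℝ≥0∞))⁻¹ * ∫⁻ _x in Set.pi Set.univ (fun _ : Fin n => box L),
        ENNReal.ofReal (Real.exp ((μ + B) * n)) := by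
        refine mul_le_mul_right (lintegral_mono fun x => ?_) _
        apply ENNReal.ofReal_le_ofReal
        apply Real.exp_le_exp.mpr
        have := hf.stab n x
        linarith
    _ = _ := by
      rw [setLIntegral_const, volume_pi_pi, Finset.prod_const, volume_box hL, Finset.card_univ,
        Fintype.card_fin, ← ENNReal.ofReal_pow (by positivity), ← ENNReal.ofReal_mul (by positivity),
        ← ENNReal.ofReal_natCast, ← ENNReal.ofReal_inv_of_pos (by positivity),
        ← ENNReal.ofReal_mul (by positivity)]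
      congr 1
      rw [mul_pow, ← Real.exp_nat_mul, mul_comm (n:ℝ) (μ + B)]
      field_simp

theorem pf_box_le {f : E → E → ℝ} {B : ℝ} (hf : IsStab f B) {μ L : ℝ} (hL : 0 ≤ L) :
    pf f μ (box L) ≤ ENNReal.ofReal (Real.exp (L ^ 3 * Real.exp (μ + B))) := by
  unfold pf
  refine (ENNReal.tsum_le_tsum fun n => cpf_box_le hf hL n).trans ?_
  rw [← ENNReal.ofReal_tsum_of_nonneg (fun n => by positivity) (Real.summable_pow_div_factorial _)]
  apply ENNReal.ofReal_le_ofReal
  rw [Real.exp_eq_exp_ℝ, NormedSpace.exp_eq_tsum_div]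

theorem one_le_pf {f : E → E → ℝ} {μ : ℝ} (A : Set E) : 1 ≤ pf f μ A := by
  have h : cpf f μ A 0 = 1 := by
    unfold cpf
    have hu : (Set.pi Set.univ (fun _ : Fin 0 => A)) = Set.univ := by
      ext x; simp
    have hv : (volume : Measure (Fin 0 → E)) Set.univ = 1 := by
      rw [← Set.pi_univ Set.univ, volume_pi_pi]; simp
    rw [hu, setLIntegral_univ]
    have : ∀ x : Fin 0 → E, ENNReal.ofReal (Real.exp (μ * ((0:ℕ):ℝ) - offSum f x / 2)) = 1 := by
      intro x; unfold offSum; simp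
    simp only [this, lintegral_const, hv]
    simp
  rw [← h]
  exact ENNReal.le_tsum 0

theorem one_le_toReal {f : E → E → ℝ} {B : ℝ} (hf : IsStab f B) (μ : ℝ) {L : ℝ} (hL : 0 ≤ L) :
    1 ≤ (pf f μ (box L)).toReal := by
  rw [← ENNReal.toReal_one]
  exact (ENNReal.toReal_le_toReal (by simp)
    (ne_top_of_le_ne_top ENNReal.ofReal_ne_top (pf_box_le hf hL))).mpr (one_le_pf _)

theorem Pr_nonneg {f : E → E → ℝ} {B : ℝ} (hf : IsStab f B) (μ : ℝ) : 0 ≤ Pr f μ := by
  unfold Pr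
  refine Real.iSup_nonneg fun L => ?_
  have hL : (0:ℝ) < L := L.2
  exact div_nonneg (Real.log_nonneg (one_le_toReal hf μ hL.le)) (by positivity)

theorem prTerm_le {f : E → E → ℝ} {B : ℝ} (hf : IsStab f B) (μ : ℝ) {L : ℝ} (hL : 0 < L) :
    Real.log (pf f μ (box L)).toReal / (L + 2) ^ 3 ≤ Real.exp (μ + B) := by
  have h1 := one_le_toReal hf μ hL.le
  have h2 := ENNReal.toReal_le_of_le_ofReal (Real.exp_pos _).le (pf_box_le hf (μ := μ) hL.le)
  have h3 := Real.log_le_log (by linarith) h2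
  rw [Real.log_exp] at h3
  rw [div_le_iff₀ (by positivity)]
  refine h3.trans ?_
  rw [mul_comm]
  refine mul_le_mul_of_nonneg_left ?_ (Real.exp_pos _).le
  exact pow_le_pow_left₀ hL.le (by linarith) 3

theorem bddAbove_Pr {f : E → E → ℝ} {B : ℝ} (hf : IsStab f B) (μ : ℝ) :
    BddAbove (Set.range fun L : Set.Ioi (0:ℝ) => Real.log (pf f μ (box L)).toReal / ((L:ℝ) + 2) ^ 3) := by
  refine ⟨Real.exp (μ + B), ?_⟩
  rintro _ ⟨L, rfl⟩
  exact prTerm_le hf μ L.2

theorem Pr_le {f : E → E → ℝ} {B : ℝ} (hf : IsStab f B) (μ : ℝ) : Pr f μ ≤ Real.exp (μ + B) := by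
  unfold Pr
  have : Nonempty (Set.Ioi (0:ℝ)) := ⟨⟨1, by simp⟩⟩
  exact ciSup_le fun L => prTerm_le hf μ L.2

theorem pf_le_exp_Pr {f : E → E → ℝ} {B : ℝ} (hf : IsStab f B) (μ : ℝ) {L : ℝ} (hL : 0 < L) :
    pf f μ (box L) ≤ ENNReal.ofReal (Real.exp ((L + 2) ^ 3 * Pr f μ)) := by
  have h1 := one_le_toReal hf μ hL.le
  have hfin : pf f μ (box L) ≠ ⊤ := ne_top_of_le_ne_top ENNReal.ofReal_ne_top (pf_box_le hf (μ := μ) hL.le)
  rw [← ENNReal.ofReal_toReal hfin]
  apply ENNReal.ofReal_le_ofReal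
  rw [← Real.log_le_iff_le_exp (by linarith)]
  have h2 : Real.log (pf f μ (box L)).toReal / (L + 2) ^ 3 ≤ Pr f μ :=
    le_ciSup (bddAbove_Pr hf μ) ⟨L, hL⟩
  rw [div_le_iff₀ (by positivity)] at h2
  linarith

/-- translation vector of the block with index `z` -/
noncomputable def bv (s : ℝ) (z : Fin 3 → ℕ) : E := WithLp.toLp 2 (fun k => s * (z k : ℝ))

theorem bv_apply (s : ℝ) (z : Fin 3 → ℕ) (k : Fin 3) : bv s z k = s * (z k : ℝ) := rfl

theorem mem_block {L s : ℝ} {z : Fin 3 → ℕ} {a : E} (ha : a ∈ (fun a => a + bv s z) '' box L) (k : Fin 3) :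
    s * (z k : ℝ) ≤ a k ∧ a k ≤ s * (z k : ℝ) + L := by
  obtain ⟨b, hb, rfl⟩ := ha
  have h := hb k
  have : (b + bv s z) k = b k + s * (z k : ℝ) := rfl
  simp only [this]
  constructor <;> linarith [h.1, h.2]

theorem abs_coord_sub_le_dist (a b : E) (k : Fin 3) : |a k - b k| ≤ dist a b := by
  rw [dist_eq_norm]
  have := PiLp.norm_apply_le (a - b) k
  simpa [Real.norm_eq_abs] using this

theorem dist_block {L : ℝ} (hL : 0 < L) {z w : Fin 3 → ℕ} (hzw : z ≠ w) {a b : E}
    (ha : a ∈ (fun a => a + bv (L + 2) z) '' box L) (hb : b ∈ (fun a => a + bv (L + 2) w) '' box L) :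
    2 ≤ dist a b := by
  obtain ⟨k, hk⟩ := Function.ne_iff.mp hzw
  refine le_trans ?_ (abs_coord_sub_le_dist a b k)
  have h1 := mem_block ha k
  have h2 := mem_block hb k
  rcases Nat.lt_or_gt_of_ne hk with h | h
  · have h3 : (z k : ℝ) + 1 ≤ w k := by exact_mod_cast h
    have : (L + 2) * ((z k : ℝ) + 1) ≤ (L + 2) * w k := mul_le_mul_of_nonneg_left h3 (by linarith)
    rw [abs_sub_comm]
    refine le_trans ?_ (le_abs_self _)
    linarith [h1.2, h2.1]
  · have h3 : (w k : ℝ) + 1 ≤ z k := by exact_mod_cast h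
    have : (L + 2) * ((w k : ℝ) + 1) ≤ (L + 2) * z k := mul_le_mul_of_nonneg_left h3 (by linarith)
    refine le_trans ?_ (le_abs_self _)
    linarith [h1.1, h2.2]

theorem pow_pf_le {f : E → E → ℝ} {B : ℝ} (hf : IsStab f B) (μ : ℝ) {L L' : ℝ} (hL : 0 < L) (M : ℕ)
    (hM : (M:ℝ) * (L + 2) ≤ L') : (pf f μ (box L)) ^ (M ^ 3) ≤ pf f μ (box L') := by
  set s : Finset (Fin 3 → ℕ) := Fintype.piFinset (fun _ : Fin 3 => Finset.range M) with hs
  have hcard : s.card = M ^ 3 := by rw [hs, Fintype.card_piFinset]; simp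
  set A : (Fin 3 → ℕ) → Set E := fun z => (fun a => a + bv (L + 2) z) '' box L with hA
  have hmeas : ∀ z ∈ s, MeasurableSet (A z) := by
    intro z _
    exact (MeasurableEquiv.addRight (bv (L + 2) z)).measurableSet_image.mpr (measurableSet_box_aux L)
  have hdist : ∀ z ∈ s, ∀ w ∈ s, z ≠ w → ∀ a ∈ A z, ∀ b ∈ A w, 2 ≤ dist a b :=
    fun z _ w _ hzw a ha b hb => dist_block hL hzw ha hb
  have h1 := prod_pf_le hf.toIsPair (μ := μ) s A hmeas
    (fun z hz w hw hzw => by
      rw [Set.disjoint_left]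
      intro a ha hb
      have := hdist z hz w hw hzw a ha a hb
      rw [dist_self] at this
      linarith)
    (fun z hz w hw hzw a ha b hb => hf.neg a b (hdist z hz w hw hzw a ha b hb))
  have h2 : ∏ z ∈ s, pf f μ (A z) = (pf f μ (box L)) ^ (M ^ 3) := by
    rw [← hcard, ← Finset.prod_const]
    refine Finset.prod_congr rfl fun z _ => ?_
    exact pf_translate _ (fun a b => hf.trans _ a b) _
  rw [h2] at h1
  refine h1.trans (pf_mono ?_)
  intro a ha
  simp only [Set.mem_iUnion, exists_prop] at ha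
  obtain ⟨z, hz, ha⟩ := ha
  intro k
  have h3 := mem_block ha k
  have hzk : z k < M := by
    have := (Fintype.mem_piFinset.mp hz) k
    exact Finset.mem_range.mp this
  have h4 : (z k : ℝ) + 1 ≤ M := by exact_mod_cast hzk
  have h5 : (L + 2) * ((z k : ℝ) + 1) ≤ (L + 2) * M := mul_le_mul_of_nonneg_left h4 (by linarith)
  have h6 : 0 ≤ (L + 2) * (z k : ℝ) := by positivity
  constructor
  · linarith [h3.1]
  · have h7 : a k ≤ (L + 2) * (z k : ℝ) + L := h3.2
    nlinarith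

theorem tendsto_Pr {f : E → E → ℝ} {B : ℝ} (hf : IsStab f B) (μ : ℝ) :
    Tendsto (fun L : ℝ => Real.log (pf f μ (box L)).toReal / L ^ 3) atTop (𝓝 (Pr f μ)) := by
  have hPr := Pr_nonneg hf μ
  set P := Pr f μ with hP
  have hinv : Tendsto (fun L : ℝ => 1 / L) atTop (𝓝 0) := by
    simpa using tendsto_inv_atTop_zero (𝕜 := ℝ)
  -- upper bound
  have hup : Tendsto (fun L : ℝ => (1 + 2 * (1 / L)) ^ 3 * P) atTop (𝓝 P) := by
    have := ((tendsto_const_nhds (x := (1:ℝ))).add (hinv.const_mul 2)).pow 3 |>.mul_const P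
    simpa using this
  have hupper : ∀ᶠ L : ℝ in atTop, Real.log (pf f μ (box L)).toReal / L ^ 3 ≤ (1 + 2 * (1 / L)) ^ 3 * P := by
    filter_upwards [eventually_gt_atTop 0] with L hL
    have h2 : Real.log (pf f μ (box L)).toReal / (L + 2) ^ 3 ≤ P := le_ciSup (bddAbove_Pr hf μ) ⟨L, hL⟩
    rw [div_le_iff₀ (by positivity)] at h2
    rw [div_le_iff₀ (by positivity)]
    have e : (1 + 2 * (1 / L)) ^ 3 * P * L ^ 3 = P * (L + 2) ^ 3 := by
      have : (1 + 2 * (1 / L)) * L = L + 2 := by field_simp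
      calc (1 + 2 * (1 / L)) ^ 3 * P * L ^ 3 = P * ((1 + 2 * (1 / L)) * L) ^ 3 := by ring
        _ = _ := by rw [this]
    rw [e]; exact h2
  -- lower bound
  rw [tendsto_order]
  constructor
  · intro y hy
    by_cases hy0 : y < 0
    · filter_upwards [eventually_gt_atTop 0] with L hL
      refine lt_of_lt_of_le hy0 (div_nonneg (Real.log_nonneg (one_le_toReal hf μ hL.le)) (by positivity))
    push Not at hy0
    have : Nonempty (Set.Ioi (0:ℝ)) := ⟨⟨1, by simp⟩⟩
    have hy' : y < ⨆ L : Set.Ioi (0:ℝ), Real.log (pf f μ (box L)).toReal / ((L:ℝ) + 2) ^ 3 := hy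
    obtain ⟨⟨L₀, hL₀⟩, hyL⟩ := exists_lt_of_lt_ciSup hy'
    have hL₀' : (0:ℝ) < L₀ := hL₀
    simp only at hyL
    set q := Real.log (pf f μ (box L₀)).toReal / (L₀ + 2) ^ 3 with hq
    have hq0 : 0 < q := lt_of_le_of_lt hy0 hyL
    have hlow : Tendsto (fun L : ℝ => (1 - (L₀ + 2) * (1 / L)) ^ 3 * q) atTop (𝓝 q) := by
      have := ((tendsto_const_nhds (x := (1:ℝ))).sub (hinv.const_mul (L₀ + 2))).pow 3 |>.mul_const q
      simpa using this
    filter_upwards [hlow.eventually_const_lt hyL, eventually_gt_atTop (L₀ + 2)] with L h1 h2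
    refine lt_of_lt_of_le h1 ?_
    have hLpos : 0 < L := by linarith
    set M : ℕ := ⌊L / (L₀ + 2)⌋₊ with hM
    have hM1 : (M:ℝ) * (L₀ + 2) ≤ L := by
      have := Nat.floor_le (show 0 ≤ L / (L₀ + 2) by positivity)
      rw [← hM, le_div_iff₀ (by linarith)] at this
      exact this
    have hM2 : L - (L₀ + 2) ≤ (M:ℝ) * (L₀ + 2) := by
      have := Nat.lt_floor_add_one (L / (L₀ + 2))
      rw [← hM, div_lt_iff₀ (by linarith)] at this
      linarith
    have h3 := pow_pf_le hf μ hL₀' M hM1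
    have hfin : pf f μ (box L) ≠ ⊤ := ne_top_of_le_ne_top ENNReal.ofReal_ne_top (pf_box_le hf (μ := μ) hLpos.le)
    have h4 := ENNReal.toReal_mono hfin h3
    rw [ENNReal.toReal_pow] at h4
    have h5 := one_le_toReal hf μ hL₀'.le
    have h6 := Real.log_le_log (by positivity) h4
    rw [Real.log_pow] at h6
    rw [le_div_iff₀ (by positivity)]
    refine le_trans ?_ h6
    have hqq : Real.log (pf f μ (box L₀)).toReal = q * (L₀ + 2) ^ 3 := by
      rw [hq]; field_simp
    rw [hqq]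
    have h7 : (1 - (L₀ + 2) * (1 / L)) * L = L - (L₀ + 2) := by field_simp
    calc (1 - (L₀ + 2) * (1 / L)) ^ 3 * q * L ^ 3 = ((1 - (L₀ + 2) * (1 / L)) * L) ^ 3 * q := by ring
      _ = (L - (L₀ + 2)) ^ 3 * q := by rw [h7]
      _ ≤ ((M:ℝ) * (L₀ + 2)) ^ 3 * q := by
        apply mul_le_mul_of_nonneg_right _ hq0.le
        exact pow_le_pow_left₀ (by linarith) hM2 3
      _ = ((M ^ 3 : ℕ) : ℝ) * (q * (L₀ + 2) ^ 3) := by push_cast; ring
  · intro y hy
    filter_upwards [hup.eventually_lt_const hy, hupper] with L h1 h2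
    linarith

end Vale.Agent.P171
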