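import Mathlib
import Vale.Agent.P171.Defs
import Vale.Agent.P171.Split
import Vale.Agent.P171.Count
import Vale.Agent.P171.Thermo

namespace Vale.Agent.P171

open MeasureTheory Finset Filter Topology
open scoped ENNReal BigOperators

/-! Elementary facts about the potential. -/

theorem term_le {c : ℕ → ℝ} (hc : ∀ m, 0 ≤ c m) (r : ℝ) (m : ℕ) :
    (if r ≤ (m : ℝ) + 1 then c m / ((m : ℝ) + 1) ^ 3 else 0) ≤ c m := by
  split_ifs
  · apply div_le_self (hc m)
    have : (0:ℝ) ≤ m := Nat.cast_nonneg m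
    nlinarith [sq_nonneg ((m:ℝ)), pow_pos (show (0:ℝ) < (m:ℝ)+1 by positivity) 3,
      mul_nonneg this this, mul_nonneg (mul_nonneg this this) this]
  · exact hc m

theorem term_nonneg {c : ℕ → ℝ} (hc : ∀ m, 0 ≤ c m) (r : ℝ) (m : ℕ) :
    0 ≤ (if r ≤ (m : ℝ) + 1 then c m / ((m : ℝ) + 1) ^ 3 else 0) := by
  split_ifs
  · exact div_nonneg (hc m) (by positivity)
  · exact le_rfl

theorem summable_term {c : ℕ → ℝ} (hc : ∀ m, 0 ≤ c m) (hs : Summable c) (r : ℝ) :
    Summable (fun m : ℕ => if r ≤ (m : ℝ) + 1 then c m / ((m : ℝ) + 1) ^ 3 else 0) :=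
  Summable.of_nonneg_of_le (term_nonneg hc r) (term_le hc r) hs

theorem att_nonneg {c : ℕ → ℝ} (hc : ∀ m, 0 ≤ c m) (r : ℝ) : 0 ≤ att c r :=
  tsum_nonneg (term_nonneg hc r)

theorem att_le {c : ℕ → ℝ} (hc : ∀ m, 0 ≤ c m) (hs : Summable c) (r : ℝ) :
    att c r ≤ ∑' m, c m :=
  (summable_term hc hs r).tsum_le_tsum (term_le hc r) hs

theorem measurable_att (c : ℕ → ℝ) : Measurable (att c) := by
  unfold att
  refine Measurable.tsum fun m => ?_
  exact Measurable.ite measurableSet_Iic measurable_const measurable_const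

theorem measurable_pot (K : ℝ) (c : ℕ → ℝ) : Measurable (pot K c) := by
  unfold pot
  exact (Measurable.ite measurableSet_Iio measurable_const measurable_const).sub (measurable_att c)

theorem fc_symm (K : ℝ) (c : ℕ → ℝ) (a b : E) : fc K c a b = fc K c b a := by
  unfold fc; rw [dist_comm]

theorem measurable_fc (K : ℝ) (c : ℕ → ℝ) : Measurable (Function.uncurry (fc K c)) := by
  have : Function.uncurry (fc K c) = fun p : E × E => pot K c (dist p.1 p.2) := by
    ext p; rfl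
  rw [this]
  exact (measurable_pot K c).comp measurable_dist

theorem isPair_fc (K : ℝ) (c : ℕ → ℝ) : IsPair (fc K c) := ⟨fc_symm K c, measurable_fc K c⟩

theorem fc_trans (K : ℝ) (c : ℕ → ℝ) (v a b : E) : fc K c (a + v) (b + v) = fc K c a b := by
  unfold fc; rw [dist_add_right]

theorem fc_neg {K : ℝ} {c : ℕ → ℝ} (hc : ∀ m, 0 ≤ c m) (a b : E) (h : 2 ≤ dist a b) :
    fc K c a b ≤ 0 := by
  unfold fc pot
  rw [if_neg (not_lt.mpr h)]
  linarith [att_nonneg hc (dist a b)]

theorem offSum_eq (f : E → E → ℝ) {n : ℕ} (x : Fin n → E) :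
    offSum f x = (∑ i, ∑ j, f (x i) (x j)) - ∑ i, f (x i) (x i) := by
  unfold offSum
  rw [← Finset.sum_sub_distrib]
  refine Finset.sum_congr rfl fun i _ => ?_
  rw [eq_sub_iff_add_eq]
  have : f (x i) (x i) = ∑ j, if i = j then f (x i) (x j) else 0 := by
    rw [Finset.sum_ite_eq]; simp
  rw [this, ← Finset.sum_add_distrib]
  refine Finset.sum_congr rfl fun j _ => ?_
  split_ifs <;> simp

theorem S_nonneg (ℓ : ℕ) {n : ℕ} (x : Fin n → E) : 0 ≤ S ℓ x := by
  unfold S; positivity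

/-- pair counting at scale one -/
theorem pairs_le_S {m : ℕ} {n : ℕ} (x : Fin n → E) :
    (∑ i, ∑ j, if dist (x i) (x j) ≤ (m:ℝ) + 1 then (1:ℝ) else 0)
      ≤ 343 * ((m:ℝ) + 1) ^ 3 * S 1 x := by
  have hm : (0:ℝ) ≤ m := Nat.cast_nonneg m
  have h1 := card_pairs_le (ℓ := 1) Nat.one_pos (R := (m:ℝ) + 1) (by positivity) x
  have h2 := G_le (r := ((m:ℝ) + 1) / ((1:ℕ):ℝ) + 2) (by positivity)
  have h3 : (2 * (((m:ℝ) + 1) / ((1:ℕ):ℝ) + 2) + 1) ^ 3 ≤ 343 * ((m:ℝ) + 1) ^ 3 := by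
    have : 2 * (((m:ℝ) + 1) / ((1:ℕ):ℝ) + 2) + 1 ≤ 7 * ((m:ℝ) + 1) := by
      push_cast; linarith
    calc (2 * (((m:ℝ) + 1) / ((1:ℕ):ℝ) + 2) + 1) ^ 3 ≤ (7 * ((m:ℝ) + 1)) ^ 3 :=
          pow_le_pow_left₀ (by positivity) this 3
      _ = 343 * ((m:ℝ) + 1) ^ 3 := by ring
  exact h1.trans (mul_le_mul_of_nonneg_right (h2.trans h3) (S_nonneg 1 x))

/-- total weighted attraction over all ordered pairs -/
theorem sum_att_weight_le {c w : ℕ → ℝ} (hc : ∀ m, 0 ≤ c m) (hs : Summable c)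
    (hw : ∀ m, 0 ≤ w m) (hw1 : ∀ m, w m ≤ 1) {n : ℕ} (x : Fin n → E) :
    (∑ i, ∑ j, ∑' m : ℕ, (if dist (x i) (x j) ≤ (m : ℝ) + 1 then c m / ((m : ℝ) + 1) ^ 3 else 0) * w m)
      ≤ (343 * ∑' m, c m * w m) * S 1 x := by
  have hsm : ∀ r : ℝ, Summable (fun m : ℕ =>
      (if r ≤ (m : ℝ) + 1 then c m / ((m : ℝ) + 1) ^ 3 else 0) * w m) := by
    intro r
    refine Summable.of_nonneg_of_le (fun m => mul_nonneg (term_nonneg hc r m) (hw m)) (fun m => ?_) hs
    calc _ ≤ c m * 1 := mul_le_mul (term_le hc r m) (hw1 m) (hw m) (hc m)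
      _ = c m := mul_one _
  have hcw : Summable (fun m => c m * w m) :=
    Summable.of_nonneg_of_le (fun m => mul_nonneg (hc m) (hw m))
      (fun m => by calc _ ≤ c m * 1 := mul_le_mul_of_nonneg_left (hw1 m) (hc m)
        _ = c m := mul_one _) hs
  have e1 : (∑ i, ∑ j, ∑' m : ℕ, (if dist (x i) (x j) ≤ (m : ℝ) + 1 then c m / ((m : ℝ) + 1) ^ 3 else 0) * w m)
      = ∑' m : ℕ, ∑ i, ∑ j, (if dist (x i) (x j) ≤ (m : ℝ) + 1 then c m / ((m : ℝ) + 1) ^ 3 else 0) * w m := by
    rw [Summable.tsum_finsetSum]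
    · refine Finset.sum_congr rfl fun i _ => ?_
      rw [Summable.tsum_finsetSum]
      intro j _
      exact hsm _
    · intro i _
      exact summable_sum fun j _ => hsm _
  rw [e1]
  have hsum2 : Summable (fun m : ℕ => ∑ i, ∑ j, (if dist (x i) (x j) ≤ (m : ℝ) + 1 then c m / ((m : ℝ) + 1) ^ 3 else 0) * w m) :=
    summable_sum fun i _ => summable_sum fun j _ => hsm _
  have e2 : (343 * ∑' m, c m * w m) * S 1 x = ∑' m, 343 * (c m * w m) * S 1 x := by
    rw [tsum_mul_right, tsum_mul_left]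
  rw [e2]
  refine hsum2.tsum_le_tsum (fun m => ?_) ((hcw.mul_left 343).mul_right _)
  have h1 : (∑ i, ∑ j, (if dist (x i) (x j) ≤ (m : ℝ) + 1 then c m / ((m : ℝ) + 1) ^ 3 else 0) * w m)
      = c m / ((m : ℝ) + 1) ^ 3 * w m * (∑ i, ∑ j, if dist (x i) (x j) ≤ (m:ℝ) + 1 then (1:ℝ) else 0) := by
    rw [Finset.mul_sum]
    refine Finset.sum_congr rfl fun i _ => ?_
    rw [Finset.mul_sum]
    refine Finset.sum_congr rfl fun j _ => ?_
    split_ifs <;> ring
  rw [h1]
  have hpos : (0:ℝ) < ((m:ℝ)+1)^3 := by positivity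
  calc _ ≤ c m / ((m : ℝ) + 1) ^ 3 * w m * (343 * ((m:ℝ) + 1) ^ 3 * S 1 x) :=
        mul_le_mul_of_nonneg_left (pairs_le_S x)
          (mul_nonneg (div_nonneg (hc m) hpos.le) (hw m))
    _ = 343 * (c m * w m) * S 1 x := by field_simp

theorem sum_att_le {c : ℕ → ℝ} (hc : ∀ m, 0 ≤ c m) (hs : Summable c) {n : ℕ} (x : Fin n → E) :
    (∑ i, ∑ j, att c (dist (x i) (x j))) ≤ (343 * ∑' m, c m) * S 1 x := by
  have := sum_att_weight_le (w := fun _ => 1) hc hs (fun _ => zero_le_one) (fun _ => le_rfl) x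
  simpa [att] using this

/-- points in the same unit cell have distance `< 2` -/
theorem dist_lt_two_of_cell {a b : E} (h : cell 1 a = cell 1 b) : dist a b < 2 := by
  have hk : ∀ k : Fin 3, (a k - b k) ^ 2 ≤ 1 := by
    intro k
    have := congrFun h k
    unfold cell at this
    simp only [Nat.cast_one, div_one] at this
    have h1 := Int.floor_le (a k)
    have h2 := Int.lt_floor_add_one (a k)
    have h3 := Int.floor_le (b k)
    have h4 := Int.lt_floor_add_one (b k)
    rw [this] at h1 h2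
    have : |a k - b k| ≤ 1 := by rw [abs_le]; constructor <;> linarith
    calc (a k - b k)^2 = |a k - b k|^2 := (sq_abs _).symm
      _ ≤ 1 ^ 2 := pow_le_pow_left₀ (abs_nonneg _) this 2
      _ = 1 := one_pow 2
  rw [EuclideanSpace.dist_eq]
  rw [show (2:ℝ) = Real.sqrt 4 by rw [show (4:ℝ) = 2^2 by norm_num]; rw [Real.sqrt_sq]; norm_num]
  apply Real.sqrt_lt_sqrt (by positivity)
  rw [Fin.sum_univ_three]
  have h0 := hk 0; have h1 := hk 1; have h2 := hk 2
  simp only [Real.dist_eq, sq_abs]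
  linarith

/-- superstability -/
theorem offSum_fc_ge {K : ℝ} (hK : 0 ≤ K) {c : ℕ → ℝ} (hc : ∀ m, 0 ≤ c m) (hs : Summable c)
    {n : ℕ} (x : Fin n → E) :
    (K - 343 * ∑' m, c m) * S 1 x - K * n ≤ offSum (fc K c) x := by
  have h1 : offSum (fc K c) x = (offSum (fun a b => if dist a b < 2 then K else 0) x)
      - offSum (fun a b => att c (dist a b)) x := by
    unfold offSum fc pot
    rw [← Finset.sum_sub_distrib]
    refine Finset.sum_congr rfl fun i _ => ?_
    rw [← Finset.sum_sub_distrib]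
    refine Finset.sum_congr rfl fun j _ => ?_
    by_cases hij : i = j <;> simp [hij]
  have h2 : offSum (fun a b => att c (dist a b)) x ≤ (343 * ∑' m, c m) * S 1 x := by
    rw [offSum_eq]
    have := sum_att_le hc hs x
    have h3 : 0 ≤ ∑ i, att c (dist (x i) (x i)) := Finset.sum_nonneg fun i _ => att_nonneg hc _
    linarith
  have h3 : K * S 1 x - K * n ≤ offSum (fun a b => if dist a b < 2 then K else 0) x := by
    have e : K * S 1 x - K * n = offSum (fun a b => if cell 1 a = cell 1 b then K else 0) x := by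
      rw [offSum_eq]
      simp only [if_true, Finset.sum_const, Finset.card_univ, Fintype.card_fin, nsmul_eq_mul]
      unfold S
      rw [Finset.mul_sum]
      congr 1
      · refine Finset.sum_congr rfl fun i _ => ?_
        rw [Finset.mul_sum]
        refine Finset.sum_congr rfl fun j _ => ?_
        split_ifs <;> ring
      · ring
    rw [e]
    unfold offSum
    refine Finset.sum_le_sum fun i _ => Finset.sum_le_sum fun j _ => ?_
    by_cases hij : i = j
    · simp [hij]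
    · simp only [hij, if_false]
      by_cases h : cell 1 (x i) = cell 1 (x j)
      · rw [if_pos h, if_pos (dist_lt_two_of_cell h)]
      · rw [if_neg h]; split_ifs <;> first | exact hK | exact le_rfl
  rw [h1]
  linarith [h2, h3]

theorem isStab_fc {K : ℝ} {c : ℕ → ℝ} (hc : ∀ m, 0 ≤ c m) (hs : Summable c)
    (hK : 343 * ∑' m, c m ≤ K) : IsStab (fc K c) (K / 2) where
  toIsPair := isPair_fc K c
  trans := fc_trans K c
  neg := fun a b h => fc_neg hc a b h
  stab := by
    intro n x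
    have h0 : 0 ≤ ∑' m, c m := tsum_nonneg hc
    have hK0 : 0 ≤ K := by linarith
    have := offSum_fc_ge hK0 hc hs x
    have h2 : 0 ≤ (K - 343 * ∑' m, c m) * S 1 x := mul_nonneg (by linarith) (S_nonneg 1 x)
    linarith

end Vale.Agent.P171
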