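import Mathlib
import Vale.Agent.P171.Defs
import Vale.Agent.P171.Split
import Vale.Agent.P171.Count
import Vale.Agent.P171.Thermo
import Vale.Agent.P171.Pot

namespace Vale.Agent.P171

open MeasureTheory Finset Filter Topology
open scoped ENNReal BigOperators

/-! Pointwise decoupling of the Boltzmann factor by averaging over integer shifts of the grid. -/

/-- integer shift vector -/
noncomputable def sh {ℓ : ℕ} (τ : Fin 3 → Fin ℓ) : E := WithLp.toLp 2 (fun k => ((τ k : ℕ) : ℝ))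

theorem sh_apply {ℓ : ℕ} (τ : Fin 3 → Fin ℓ) (k : Fin 3) : sh τ k = ((τ k : ℕ) : ℝ) := rfl

theorem cell_one_add_sh {ℓ : ℕ} (τ : Fin 3 → Fin ℓ) (a : E) :
    cell 1 (a + sh τ) = fun k => cell 1 a k + ((τ k : ℕ) : ℤ) := by
  ext k
  unfold cell
  have : (a + sh τ) k = a k + ((τ k : ℕ) : ℝ) := rfl
  rw [this]
  simp only [Nat.cast_one, div_one]
  rw [show (((τ k : ℕ)) : ℝ) = (((τ k : ℕ) : ℤ) : ℝ) by push_cast; rfl, Int.floor_add_intCast]

theorem cell_one_add_sh_iff {ℓ : ℕ} (τ : Fin 3 → Fin ℓ) (a b : E) :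
    cell 1 (a + sh τ) = cell 1 (b + sh τ) ↔ cell 1 a = cell 1 b := by
  rw [cell_one_add_sh, cell_one_add_sh]
  constructor
  · intro h; ext k; have := congrFun h k; simpa using this
  · intro h; rw [h]

theorem cell_eq_of_cell_one {ℓ : ℕ} {a b : E} (h : cell 1 a = cell 1 b) : cell ℓ a = cell ℓ b := by
  ext k
  have := congrFun h k
  unfold cell at this ⊢
  simp only [Nat.cast_one, div_one] at this
  rw [Int.floor_div_natCast, Int.floor_div_natCast, this]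

theorem S_one_shift {ℓ : ℕ} (τ : Fin 3 → Fin ℓ) {n : ℕ} (x : Fin n → E) :
    S 1 (fun i => x i + sh τ) = S 1 x := by
  unfold S
  refine Finset.sum_congr rfl fun i _ => Finset.sum_congr rfl fun j _ => ?_
  simp only [cell_one_add_sh_iff]

/-- decoupling error coefficient -/
noncomputable def eps (ℓ : ℕ) (c : ℕ → ℝ) : ℝ :=
  343 * ∑' m : ℕ, c m * min 1 (3 * ((m : ℝ) + 2) / ℓ)

/-- per pair strength of the new attraction after coarse graining -/
noncomputable def qq (ℓ : ℕ) (lam : ℝ) (m : ℕ) : ℝ :=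
  lam / ((m : ℝ) + 1) ^ 3 * G (((m : ℝ) + 1) / ℓ + 2)

/-- the decoupled pair interaction -/
noncomputable def fflat (K : ℝ) (c : ℕ → ℝ) (ℓ : ℕ) (ε q : ℝ) (a b : E) : ℝ :=
  if cell ℓ a = cell ℓ b then fc K c a b - ε * (if cell 1 a = cell 1 b then 1 else 0) - q else 0

theorem min_nonneg' (ℓ m : ℕ) : 0 ≤ min (1:ℝ) (3 * ((m : ℝ) + 2) / ℓ) :=
  le_min zero_le_one (by positivity)

theorem eps_nonneg {ℓ : ℕ} {c : ℕ → ℝ} (hc : ∀ m, 0 ≤ c m) : 0 ≤ eps ℓ c :=
  mul_nonneg (by norm_num) (tsum_nonneg fun m => mul_nonneg (hc m) (min_nonneg' ℓ m))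

/-- number of shifts separating `a` and `b`, weighted by the attraction -/
theorem att_mul_sep_le {c : ℕ → ℝ} (hc : ∀ m, 0 ≤ c m) (hs : Summable c) {ℓ : ℕ} (hℓ : 0 < ℓ)
    (a b : E) :
    (∑ τ : Fin 3 → Fin ℓ, if cell ℓ (a + sh τ) ≠ cell ℓ (b + sh τ) then att c (dist a b) else 0)
      ≤ (ℓ:ℝ) ^ 3 * ∑' m : ℕ, (if dist a b ≤ (m : ℝ) + 1 then c m / ((m : ℝ) + 1) ^ 3 else 0)
          * min 1 (3 * ((m : ℝ) + 2) / ℓ) := by
  have hl : (0:ℝ) < ℓ := Nat.cast_pos.mpr hℓ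
  have h1 : (∑ τ : Fin 3 → Fin ℓ, if cell ℓ (a + sh τ) ≠ cell ℓ (b + sh τ) then att c (dist a b) else 0)
      = ((univ.filter (fun τ : Fin 3 → Fin ℓ => cell ℓ (a + sh τ) ≠ cell ℓ (b + sh τ))).card : ℝ)
        * att c (dist a b) := by
    rw [← Finset.sum_filter, Finset.sum_const, nsmul_eq_mul]
  rw [h1]
  set N : ℝ := ((univ.filter (fun τ : Fin 3 → Fin ℓ => cell ℓ (a + sh τ) ≠ cell ℓ (b + sh τ))).card : ℝ)
    with hN
  have hN0 : 0 ≤ N := Nat.cast_nonneg _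
  have hN1 : N ≤ (ℓ:ℝ) ^ 3 := by
    rw [hN]
    have : (univ.filter (fun τ : Fin 3 → Fin ℓ => cell ℓ (a + sh τ) ≠ cell ℓ (b + sh τ))).card ≤ ℓ ^ 3 := by
      refine (Finset.card_filter_le _ _).trans ?_
      rw [Finset.card_univ, Fintype.card_pi]; simp
    exact_mod_cast this
  have hN2 : N ≤ 3 * (dist a b + 1) * (ℓ : ℝ) ^ 2 := card_sep_le hℓ a b
  unfold att
  rw [← tsum_mul_left, ← tsum_mul_left]
  have hsm := summable_term hc hs (dist a b)
  have hsm2 : Summable (fun m : ℕ => (if dist a b ≤ (m : ℝ) + 1 then c m / ((m : ℝ) + 1) ^ 3 else 0)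
          * min 1 (3 * ((m : ℝ) + 2) / ℓ)) := by
    refine Summable.of_nonneg_of_le (fun m => mul_nonneg (term_nonneg hc _ m) (min_nonneg' ℓ m))
      (fun m => ?_) hsm
    exact mul_le_of_le_one_right (term_nonneg hc _ m) (min_le_left _ _)
  refine (hsm.mul_left N).tsum_le_tsum (fun m => ?_) (hsm2.mul_left _)
  by_cases hr : dist a b ≤ (m:ℝ) + 1
  · simp only [if_pos hr]
    have hcm : 0 ≤ c m / ((m : ℝ) + 1) ^ 3 := div_nonneg (hc m) (by positivity)
    have hNm : N ≤ (ℓ:ℝ) ^ 3 * min 1 (3 * ((m : ℝ) + 2) / ℓ) := by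
      rcases min_choice (1:ℝ) (3 * ((m : ℝ) + 2) / ℓ) with h | h
      · rw [h, mul_one]; exact hN1
      · rw [h]
        refine hN2.trans ?_
        have : (ℓ:ℝ) ^ 3 * (3 * ((m : ℝ) + 2) / ℓ) = 3 * ((m:ℝ) + 2) * (ℓ:ℝ)^2 := by
          field_simp
        rw [this]
        have : 3 * (dist a b + 1) ≤ 3 * ((m:ℝ) + 2) := by linarith
        exact mul_le_mul_of_nonneg_right this (by positivity)
    calc N * (c m / ((m : ℝ) + 1) ^ 3) ≤ ((ℓ:ℝ) ^ 3 * min 1 (3 * ((m : ℝ) + 2) / ℓ)) * (c m / ((m : ℝ) + 1) ^ 3) :=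
          mul_le_mul_of_nonneg_right hNm hcm
      _ = _ := by ring
  · simp only [if_neg hr]; simp

/-- there is a good shift -/
theorem exists_shift {c : ℕ → ℝ} (hc : ∀ m, 0 ≤ c m) (hs : Summable c) {ℓ : ℕ} (hℓ : 0 < ℓ)
    {n : ℕ} (x : Fin n → E) :
    ∃ τ : Fin 3 → Fin ℓ,
      (∑ i, ∑ j, if cell ℓ (x i + sh τ) ≠ cell ℓ (x j + sh τ) then att c (dist (x i) (x j)) else 0)
        ≤ eps ℓ c * S 1 x := by
  have hl : (0:ℝ) < ℓ := Nat.cast_pos.mpr hℓ
  by_contra hcon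
  push Not at hcon
  have : Nonempty (Fin ℓ) := ⟨⟨0, hℓ⟩⟩
  have h1 : ∑ τ : Fin 3 → Fin ℓ, eps ℓ c * S 1 x < ∑ τ : Fin 3 → Fin ℓ,
      ∑ i, ∑ j, if cell ℓ (x i + sh τ) ≠ cell ℓ (x j + sh τ) then att c (dist (x i) (x j)) else 0 :=
    Finset.sum_lt_sum_of_nonempty Finset.univ_nonempty fun τ _ => hcon τ
  have h2 : ∑ τ : Fin 3 → Fin ℓ,
      ∑ i, ∑ j, (if cell ℓ (x i + sh τ) ≠ cell ℓ (x j + sh τ) then att c (dist (x i) (x j)) else 0)
      = ∑ i, ∑ j, ∑ τ : Fin 3 → Fin ℓ,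
        (if cell ℓ (x i + sh τ) ≠ cell ℓ (x j + sh τ) then att c (dist (x i) (x j)) else 0) := by
    rw [Finset.sum_comm]
    refine Finset.sum_congr rfl fun i _ => ?_
    rw [Finset.sum_comm]
  rw [h2] at h1
  have h3 : ∑ i, ∑ j, ∑ τ : Fin 3 → Fin ℓ,
        (if cell ℓ (x i + sh τ) ≠ cell ℓ (x j + sh τ) then att c (dist (x i) (x j)) else 0)
      ≤ ∑ i, ∑ j, (ℓ:ℝ) ^ 3 * ∑' m : ℕ, (if dist (x i) (x j) ≤ (m : ℝ) + 1 then c m / ((m : ℝ) + 1) ^ 3 else 0)
          * min 1 (3 * ((m : ℝ) + 2) / ℓ) :=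
    Finset.sum_le_sum fun i _ => Finset.sum_le_sum fun j _ => att_mul_sep_le hc hs hℓ _ _
  have h4 : ∑ i, ∑ j, (ℓ:ℝ) ^ 3 * ∑' m : ℕ, (if dist (x i) (x j) ≤ (m : ℝ) + 1 then c m / ((m : ℝ) + 1) ^ 3 else 0)
          * min 1 (3 * ((m : ℝ) + 2) / ℓ) ≤ (ℓ:ℝ)^3 * (eps ℓ c * S 1 x) := by
    simp only [← Finset.mul_sum]
    refine mul_le_mul_of_nonneg_left ?_ (by positivity)
    exact sum_att_weight_le (w := fun m => min 1 (3 * ((m : ℝ) + 2) / ℓ)) hc hs
      (min_nonneg' ℓ) (fun m => min_le_left _ _) x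
  have h5 : ∑ τ : Fin 3 → Fin ℓ, eps ℓ c * S 1 x = (ℓ:ℝ)^3 * (eps ℓ c * S 1 x) := by
    rw [Finset.sum_const, nsmul_eq_mul, Finset.card_univ, Fintype.card_pi]
    simp
  rw [h5] at h1
  exact absurd (h3.trans h4) (not_le.mpr h1)

theorem att_add_single {c : ℕ → ℝ} (hc : ∀ m, 0 ≤ c m) (hs : Summable c) (m₀ : ℕ) (lam : ℝ) (r : ℝ) :
    att (c + Pi.single m₀ lam) r
      = att c r + (if r ≤ (m₀ : ℝ) + 1 then lam / ((m₀ : ℝ) + 1) ^ 3 else 0) := by
  unfold att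
  have h1 : (fun m : ℕ => if r ≤ (m : ℝ) + 1 then (c + Pi.single m₀ lam : ℕ → ℝ) m / ((m : ℝ) + 1) ^ 3 else 0)
      = (fun m : ℕ => (if r ≤ (m : ℝ) + 1 then c m / ((m : ℝ) + 1) ^ 3 else 0)
        + (if m = m₀ then (if r ≤ (m₀ : ℝ) + 1 then lam / ((m₀ : ℝ) + 1) ^ 3 else 0) else 0)) := by
    ext m
    by_cases hm : m = m₀
    · subst hm
      simp only [Pi.add_apply, Pi.single_eq_same, if_true]
      split_ifs <;> ring
    · simp only [Pi.add_apply, Pi.single_eq_of_ne hm, add_zero, hm, if_false]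
  rw [h1, Summable.tsum_add (summable_term hc hs r)]
  · rw [tsum_ite_eq]
  · exact (hasSum_ite_eq m₀ _).summable

theorem dist_add_sh {ℓ : ℕ} (τ : Fin 3 → Fin ℓ) (a b : E) : dist (a + sh τ) (b + sh τ) = dist a b :=
  dist_add_right _ _ _

/-- pointwise decoupling -/
theorem exists_shift_offSum {K : ℝ} (hK : 0 ≤ K) {c : ℕ → ℝ} (hc : ∀ m, 0 ≤ c m) (hs : Summable c)
    {ℓ : ℕ} (hℓ : 0 < ℓ) {lam : ℝ} (hlam : 0 ≤ lam) (m₀ : ℕ) {n : ℕ} (x : Fin n → E) :
    ∃ τ : Fin 3 → Fin ℓ,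
      offSum (fflat K c ℓ (eps ℓ c) (qq ℓ lam m₀)) (fun i => x i + sh τ)
        - (eps ℓ c + qq ℓ lam m₀) * n ≤ offSum (fc K (c + Pi.single m₀ lam)) x := by
  obtain ⟨τ, hτ⟩ := exists_shift hc hs hℓ x
  refine ⟨τ, ?_⟩
  set ε := eps ℓ c with hε
  set q := qq ℓ lam m₀ with hq
  set y : Fin n → E := fun i => x i + sh τ with hy
  have hydist : ∀ i j, dist (y i) (y j) = dist (x i) (x j) := fun i j => dist_add_sh τ _ _
  -- bound for the new attraction
  have hnew : (∑ i, ∑ j, if dist (x i) (x j) ≤ (m₀ : ℝ) + 1 then lam / ((m₀ : ℝ) + 1) ^ 3 else 0)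
      ≤ q * S ℓ y := by
    have h1 := card_pairs_le hℓ (R := (m₀:ℝ) + 1) (by positivity) y
    have h2 : (∑ i, ∑ j, if dist (x i) (x j) ≤ (m₀ : ℝ) + 1 then lam / ((m₀ : ℝ) + 1) ^ 3 else 0)
        = lam / ((m₀ : ℝ) + 1) ^ 3 * ∑ i, ∑ j, if dist (y i) (y j) ≤ (m₀ : ℝ) + 1 then (1:ℝ) else 0 := by
      rw [Finset.mul_sum]
      refine Finset.sum_congr rfl fun i _ => ?_
      rw [Finset.mul_sum]
      refine Finset.sum_congr rfl fun j _ => ?_
      rw [hydist]; split_ifs <;> ring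
    rw [h2, hq]
    unfold qq
    calc _ ≤ lam / ((m₀ : ℝ) + 1) ^ 3 * ((G (((m₀:ℝ) + 1) / ℓ + 2) : ℝ) * S ℓ y) :=
          mul_le_mul_of_nonneg_left h1 (by positivity)
      _ = _ := by ring
  -- S as sums of pair indicators
  have hS1 : S 1 x = ∑ i, ∑ j, if cell 1 (y i) = cell 1 (y j) then (1:ℝ) else 0 := by
    rw [← S_one_shift τ x]; rfl
  have hSl : S ℓ y = ∑ i, ∑ j, if cell ℓ (y i) = cell ℓ (y j) then (1:ℝ) else 0 := rfl
  -- write everything as double sums over i ≠ j plus diagonal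
  have hdiag1 : offSum (fun a b => if cell 1 a = cell 1 b then (1:ℝ) else 0) y = S 1 x - n := by
    rw [offSum_eq, hS1]; simp
  have hdiag2 : offSum (fun a b => if cell ℓ a = cell ℓ b then (1:ℝ) else 0) y = S ℓ y - n := by
    rw [offSum_eq, hSl]; simp
  have hsep : offSum (fun a b => if cell ℓ a ≠ cell ℓ b then att c (dist a b) else 0) y ≤ ε * S 1 x := by
    refine le_trans ?_ hτ
    unfold offSum
    refine Finset.sum_le_sum fun i _ => Finset.sum_le_sum fun j _ => ?_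
    by_cases hij : i = j
    · simp [hij]
    · simp only [hij, if_false, hydist]; exact le_rfl
  have hnew' : offSum (fun a b => if dist a b ≤ (m₀ : ℝ) + 1 then lam / ((m₀ : ℝ) + 1) ^ 3 else 0) y
      ≤ q * S ℓ y := by
    refine le_trans ?_ hnew
    unfold offSum
    refine Finset.sum_le_sum fun i _ => Finset.sum_le_sum fun j _ => ?_
    by_cases hij : i = j
    · simp only [hij, if_true]; split_ifs <;> positivity
    · simp only [hij, if_false, hydist]; exact le_rfl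
  have hxy : offSum (fc K (c + Pi.single m₀ lam)) x = offSum (fc K (c + Pi.single m₀ lam)) y := by
    unfold offSum fc; simp only [hydist]
  rw [hxy]
  -- main comparison
  have hmain : offSum (fflat K c ℓ ε q) y
      - offSum (fun a b => if cell ℓ a ≠ cell ℓ b then att c (dist a b) else 0) y
      - offSum (fun a b => if dist a b ≤ (m₀ : ℝ) + 1 then lam / ((m₀ : ℝ) + 1) ^ 3 else 0) y
      + ε * offSum (fun a b => if cell 1 a = cell 1 b then (1:ℝ) else 0) y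
      + q * offSum (fun a b => if cell ℓ a = cell ℓ b then (1:ℝ) else 0) y
      ≤ offSum (fc K (c + Pi.single m₀ lam)) y := by
    unfold offSum
    rw [Finset.mul_sum, Finset.mul_sum, ← Finset.sum_sub_distrib, ← Finset.sum_sub_distrib,
      ← Finset.sum_add_distrib, ← Finset.sum_add_distrib]
    refine Finset.sum_le_sum fun i _ => ?_
    rw [Finset.mul_sum, Finset.mul_sum, ← Finset.sum_sub_distrib, ← Finset.sum_sub_distrib,
      ← Finset.sum_add_distrib, ← Finset.sum_add_distrib]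
    refine Finset.sum_le_sum fun j _ => ?_
    by_cases hij : i = j
    · simp [hij]
    · simp only [hij, if_false]
      have hfc : fc K (c + Pi.single m₀ lam) (y i) (y j) = fc K c (y i) (y j)
          - (if dist (y i) (y j) ≤ (m₀ : ℝ) + 1 then lam / ((m₀ : ℝ) + 1) ^ 3 else 0) := by
        unfold fc pot
        rw [att_add_single hc hs]; ring
      rw [hfc]
      unfold fflat
      by_cases h1 : cell ℓ (y i) = cell ℓ (y j)
      · simp only [h1, if_true, ne_eq, not_true_eq_false, if_false]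
        linarith
      · have h2 : ¬ cell 1 (y i) = cell 1 (y j) := fun h => h1 (cell_eq_of_cell_one h)
        simp only [h1, h2, if_false, ne_eq, not_false_eq_true, if_true]
        have : - att c (dist (y i) (y j)) ≤ fc K c (y i) (y j) := by
          unfold fc pot
          have : 0 ≤ (if dist (y i) (y j) < 2 then K else 0) := by split_ifs <;> simp [hK]
          linarith
        linarith
  rw [hdiag1, hdiag2] at hmain
  linarith

end Vale.Agent.P171
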