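import Mathlib
import Vale.Agent.P171.Defs
import Vale.Agent.P171.Split
import Vale.Agent.P171.Count
import Vale.Agent.P171.Thermo
import Vale.Agent.P171.Pot
import Vale.Agent.P171.Upper1

namespace Vale.Agent.P171

open MeasureTheory Finset Filter Topology
open scoped ENNReal BigOperators

/-- the cell with index `z` -/
def cellSet (ℓ : ℕ) (z : Fin 3 → ℤ) : Set E := {a | cell ℓ a = z}

theorem measurable_coord (k : Fin 3) : Measurable fun a : E => a k := by fun_prop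

theorem measurable_cell (ℓ : ℕ) : Measurable (cell ℓ) := by
  unfold cell
  refine measurable_pi_lambda _ fun k => ?_
  refine Int.measurable_floor.comp ?_
  exact (measurable_coord k).div_const _

theorem measurableSet_cellSet (ℓ : ℕ) (z : Fin 3 → ℤ) : MeasurableSet (cellSet ℓ z) :=
  measurable_cell ℓ (measurableSet_singleton z)

theorem measurableSet_eq_cell (ℓ : ℕ) : MeasurableSet {p : E × E | cell ℓ p.1 = cell ℓ p.2} :=
  measurableSet_eq_fun ((measurable_cell ℓ).comp measurable_fst) ((measurable_cell ℓ).comp measurable_snd)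

theorem isPair_fflat (K : ℝ) (c : ℕ → ℝ) (ℓ : ℕ) (ε q : ℝ) : IsPair (fflat K c ℓ ε q) where
  symm := by
    intro a b
    unfold fflat
    rw [fc_symm K c a b]
    simp only [eq_comm]
  meas := by
    have : Function.uncurry (fflat K c ℓ ε q) = fun p : E × E =>
      if cell ℓ p.1 = cell ℓ p.2 then Function.uncurry (fc K c) p
        - ε * (if cell 1 p.1 = cell 1 p.2 then 1 else 0) - q else 0 := by
      ext p; rfl
    rw [this]
    refine Measurable.ite (measurableSet_eq_cell ℓ) ?_ measurable_const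
    refine Measurable.sub (Measurable.sub (measurable_fc K c) ?_) measurable_const
    exact measurable_const.mul (Measurable.ite (measurableSet_eq_cell 1) measurable_const measurable_const)

/-- translation by `ℓ z` -/
noncomputable def lv (ℓ : ℕ) (z : Fin 3 → ℤ) : E := WithLp.toLp 2 (fun k => (ℓ : ℝ) * (z k : ℝ))

theorem cell_add_lv {ℓ : ℕ} (hℓ : 0 < ℓ) (z : Fin 3 → ℤ) (a : E) :
    cell ℓ (a + lv ℓ z) = cell ℓ a + z := by
  have hl : (ℓ:ℝ) ≠ 0 := by positivity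
  ext k
  unfold cell
  have : (a + lv ℓ z) k = a k + (ℓ:ℝ) * (z k : ℝ) := rfl
  rw [this, add_div, mul_div_cancel_left₀ _ hl, Int.floor_add_intCast]
  rfl

theorem cell_one_add_lv {ℓ : ℕ} (z : Fin 3 → ℤ) (a : E) :
    cell 1 (a + lv ℓ z) = cell 1 a + fun k => (ℓ:ℤ) * z k := by
  ext k
  unfold cell
  have : (a + lv ℓ z) k = a k + (((ℓ:ℤ) * z k : ℤ) : ℝ) := by push_cast; rfl
  rw [this, Nat.cast_one, div_one, Int.floor_add_intCast, Pi.add_apply]
  simp

theorem fflat_trans {K : ℝ} {c : ℕ → ℝ} {ℓ : ℕ} (hℓ : 0 < ℓ) {ε q : ℝ} (z : Fin 3 → ℤ) (a b : E) :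
    fflat K c ℓ ε q (a + lv ℓ z) (b + lv ℓ z) = fflat K c ℓ ε q a b := by
  unfold fflat
  simp only [cell_add_lv hℓ, cell_one_add_lv, fc_trans, add_left_inj]

theorem cellSet_eq_image {ℓ : ℕ} (hℓ : 0 < ℓ) (z : Fin 3 → ℤ) :
    cellSet ℓ z = (fun a => a + lv ℓ z) '' cellSet ℓ 0 := by
  ext a
  simp only [cellSet, Set.mem_ofPred_eq, Set.mem_image]
  constructor
  · intro h
    refine ⟨a - lv ℓ z, ?_, sub_add_cancel _ _⟩
    have := cell_add_lv hℓ z (a - lv ℓ z)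
    rw [sub_add_cancel, h] at this
    have h2 : z = cell ℓ (a - lv ℓ z) + z := this
    have : cell ℓ (a - lv ℓ z) + z = 0 + z := by rw [← h2, zero_add]
    exact add_right_cancel this
  · rintro ⟨b, hb, rfl⟩
    rw [cell_add_lv hℓ, hb, zero_add]

/-- the big box as a union of cells -/
noncomputable def bigIdx (M : ℕ) : Finset (Fin 3 → ℤ) := Fintype.piFinset (fun _ : Fin 3 => Finset.Ico (0:ℤ) (M + 1))

theorem card_bigIdx (M : ℕ) : (bigIdx M).card = (M + 1) ^ 3 := by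
  unfold bigIdx
  rw [Fintype.card_piFinset]
  simp

def bigBox (ℓ M : ℕ) : Set E := ⋃ z ∈ bigIdx M, cellSet ℓ z

theorem mem_bigBox {ℓ : ℕ} (hℓ : 0 < ℓ) {M : ℕ} {L : ℝ} (hL : L < M * ℓ) {a : E} (ha : a ∈ box L)
    (τ : Fin 3 → Fin ℓ) : a + sh τ ∈ bigBox ℓ M := by
  have hl : (0:ℝ) < ℓ := by positivity
  unfold bigBox
  simp only [Set.mem_iUnion, exists_prop]
  refine ⟨cell ℓ (a + sh τ), ?_, rfl⟩
  unfold bigIdx
  rw [Fintype.mem_piFinset]
  intro k
  have h1 : (a + sh τ) k = a k + ((τ k : ℕ) : ℝ) := rfl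
  have h2 := ha k
  have h3 : (((τ k : ℕ)) : ℝ) < ℓ := by exact_mod_cast (τ k).isLt
  have h4 : (0:ℝ) ≤ ((τ k : ℕ) : ℝ) := Nat.cast_nonneg _
  unfold cell
  rw [Finset.mem_Ico, h1]
  constructor
  · apply Int.floor_nonneg.mpr
    apply div_nonneg _ hl.le
    linarith [h2.1]
  · rw [Int.floor_lt]
    push_cast
    rw [div_lt_iff₀ hl]
    have := h2.2
    nlinarith

theorem pf_bigBox_le {K : ℝ} {c : ℕ → ℝ} {ℓ : ℕ} (hℓ : 0 < ℓ) (ε q μ : ℝ) (M : ℕ) :
    pf (fflat K c ℓ ε q) μ (bigBox ℓ M) ≤ (pf (fflat K c ℓ ε q) μ (cellSet ℓ 0)) ^ ((M + 1) ^ 3) := by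
  unfold bigBox
  refine (pf_iUnion_le (isPair_fflat K c ℓ ε q) (bigIdx M) (cellSet ℓ)
    (fun z _ => measurableSet_cellSet ℓ z) ?_ ?_).trans ?_
  · intro z _ w _ hzw
    rw [Set.disjoint_left]
    intro a ha hb
    exact hzw (ha.symm.trans hb)
  · intro z _ w _ hzw a ha b hb
    unfold fflat
    rw [if_neg]
    rw [show cell ℓ a = z from ha, show cell ℓ b = w from hb]
    exact hzw
  · rw [← card_bigIdx M, ← Finset.prod_const]
    refine le_of_eq (Finset.prod_congr rfl fun z _ => ?_)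
    rw [cellSet_eq_image hℓ z]
    exact pf_translate _ (fun a b => fflat_trans hℓ z a b) _

/-- change of variables for a shift -/
theorem setLIntegral_shift_le {n : ℕ} {A B : Set (Fin n → E)} (hA : MeasurableSet A)
    (hB : MeasurableSet B) (v : Fin n → E) (hAB : ∀ x ∈ A, x + v ∈ B)
    (g : (Fin n → E) → ℝ≥0∞) :
    ∫⁻ x in A, g (x + v) ≤ ∫⁻ y in B, g y := by
  rw [← lintegral_indicator hA, ← lintegral_indicator hB]
  rw [← lintegral_add_right_eq_self (fun y => B.indicator g y) v]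
  refine lintegral_mono fun x => ?_
  by_cases hx : x ∈ A
  · rw [Set.indicator_of_mem hx, Set.indicator_of_mem (hAB x hx)]
  · rw [Set.indicator_of_notMem hx]; exact zero_le

theorem measurableSet_box (L : ℝ) : MeasurableSet (box L) := by
  unfold box
  rw [Set.ofPred_forall]
  refine MeasurableSet.iInter fun k => ?_
  exact measurable_coord k measurableSet_Icc

theorem measurableSet_bigBox (ℓ M : ℕ) : MeasurableSet (bigBox ℓ M) :=
  Finset.measurableSet_biUnion _ fun z _ => measurableSet_cellSet ℓ z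

theorem cpf_box_shift_le {K : ℝ} (hK : 0 ≤ K) {c : ℕ → ℝ} (hc : ∀ m, 0 ≤ c m) (hs : Summable c)
    {ℓ : ℕ} (hℓ : 0 < ℓ) {lam : ℝ} (hlam : 0 ≤ lam) (m₀ : ℕ) (μ : ℝ) {M : ℕ} {L : ℝ}
    (hL : L < M * ℓ) (n : ℕ) :
    cpf (fc K (c + Pi.single m₀ lam)) μ (box L) n
      ≤ (ℓ:ℝ≥0∞) ^ 3 * cpf (fflat K c ℓ (eps ℓ c) (qq ℓ lam m₀)) (μ + (eps ℓ c + qq ℓ lam m₀) / 2)
        (bigBox ℓ M) n := by
  set ε := eps ℓ c
  set q := qq ℓ lam m₀
  set g : (Fin n → E) → ℝ≥0∞ := fun y =>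
    ENNReal.ofReal (Real.exp ((μ + (ε + q) / 2) * n - offSum (fflat K c ℓ ε q) y / 2)) with hg
  have hpt : ∀ x : Fin n → E, ENNReal.ofReal (Real.exp (μ * n - offSum (fc K (c + Pi.single m₀ lam)) x / 2))
      ≤ ∑ τ : Fin 3 → Fin ℓ, g (x + fun _ => sh τ) := by
    intro x
    obtain ⟨τ, hτ⟩ := exists_shift_offSum hK hc hs hℓ hlam m₀ x
    refine le_trans ?_ (Finset.single_le_sum (f := fun τ : Fin 3 → Fin ℓ => g (x + fun _ => sh τ))
      (fun _ _ => zero_le) (Finset.mem_univ τ))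
    simp only [hg]
    apply ENNReal.ofReal_le_ofReal
    apply Real.exp_le_exp.mpr
    have : (x + fun _ => sh τ) = fun i => x i + sh τ := rfl
    rw [this]
    linarith
  have hmA : MeasurableSet (Set.pi Set.univ (fun _ : Fin n => box L)) :=
    MeasurableSet.univ_pi fun _ => measurableSet_box L
  have hmB : MeasurableSet (Set.pi Set.univ (fun _ : Fin n => bigBox ℓ M)) :=
    MeasurableSet.univ_pi fun _ => measurableSet_bigBox ℓ M
  unfold cpf
  have h1 : ∫⁻ x in Set.pi Set.univ (fun _ : Fin n => box L),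
      ENNReal.ofReal (Real.exp (μ * n - offSum (fc K (c + Pi.single m₀ lam)) x / 2))
      ≤ (ℓ:ℝ≥0∞) ^ 3 * ∫⁻ y in Set.pi Set.univ (fun _ : Fin n => bigBox ℓ M), g y := by
    calc _ ≤ ∫⁻ x in Set.pi Set.univ (fun _ : Fin n => box L),
          ∑ τ : Fin 3 → Fin ℓ, g (x + fun _ => sh τ) := lintegral_mono hpt
      _ ≤ ∑ τ : Fin 3 → Fin ℓ, ∫⁻ x in Set.pi Set.univ (fun _ : Fin n => box L),
          g (x + fun _ => sh τ) := by
          rw [lintegral_finsetSum']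
          intro τ _
          refine Measurable.aemeasurable ?_
          have hgm : Measurable g := by
            refine ENNReal.measurable_ofReal.comp (Real.measurable_exp.comp ?_)
            refine measurable_const.sub (Measurable.div_const ?_ _)
            unfold offSum
            refine Finset.measurable_sum _ fun i _ => Finset.measurable_sum _ fun j _ => ?_
            by_cases hij : i = j
            · simp [hij]
            · simp only [hij, if_false]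
              have := (isPair_fflat K c ℓ ε q).meas
              have h2 : Measurable fun y : Fin n → E => (y i, y j) :=
                (measurable_pi_apply i).prodMk (measurable_pi_apply j)
              exact this.comp h2
          exact hgm.comp (measurable_id.add_const _)
      _ ≤ ∑ τ : Fin 3 → Fin ℓ, ∫⁻ y in Set.pi Set.univ (fun _ : Fin n => bigBox ℓ M), g y := by
          refine Finset.sum_le_sum fun τ _ => ?_
          refine setLIntegral_shift_le hmA hmB (fun _ => sh τ) ?_ g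
          intro x hx i _
          exact mem_bigBox hℓ hL (hx i (Set.mem_univ i)) τ
      _ = _ := by
          rw [Finset.sum_const, Finset.card_univ, Fintype.card_pi]
          simp
  calc _ ≤ ((n.factorial : ℝ≥0∞))⁻¹ * ((ℓ:ℝ≥0∞) ^ 3 * ∫⁻ y in Set.pi Set.univ (fun _ : Fin n => bigBox ℓ M), g y) :=
        mul_le_mul_right h1 _
    _ = _ := by rw [← mul_assoc, mul_comm ((n.factorial : ℝ≥0∞))⁻¹, mul_assoc]

theorem pf_box_le_cell {K : ℝ} (hK : 0 ≤ K) {c : ℕ → ℝ} (hc : ∀ m, 0 ≤ c m) (hs : Summable c)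
    {ℓ : ℕ} (hℓ : 0 < ℓ) {lam : ℝ} (hlam : 0 ≤ lam) (m₀ : ℕ) (μ : ℝ) {M : ℕ} {L : ℝ}
    (hL : L < M * ℓ) :
    pf (fc K (c + Pi.single m₀ lam)) μ (box L)
      ≤ (ℓ:ℝ≥0∞) ^ 3 * (pf (fflat K c ℓ (eps ℓ c) (qq ℓ lam m₀)) (μ + (eps ℓ c + qq ℓ lam m₀) / 2)
        (cellSet ℓ 0)) ^ ((M + 1) ^ 3) := by
  refine le_trans ?_ (mul_le_mul_right (pf_bigBox_le hℓ _ _ _ M) _)
  unfold pf
  rw [← ENNReal.tsum_mul_left]
  exact ENNReal.tsum_le_tsum fun n => cpf_box_shift_le hK hc hs hℓ hlam m₀ μ hL n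

theorem Pr_le_cell {K : ℝ} {c : ℕ → ℝ} (hc : ∀ m, 0 ≤ c m) (hs : Summable c)
    {ℓ : ℕ} (hℓ : 0 < ℓ) {lam : ℝ} (hlam : 0 ≤ lam) (m₀ : ℕ) (μ : ℝ)
    (hK : 343 * (∑' m, c m + lam) ≤ K)
    (hfin : pf (fflat K c ℓ (eps ℓ c) (qq ℓ lam m₀)) (μ + (eps ℓ c + qq ℓ lam m₀) / 2)
        (cellSet ℓ 0) ≠ ⊤) :
    Pr (fc K (c + Pi.single m₀ lam)) μ ≤
      Real.log (pf (fflat K c ℓ (eps ℓ c) (qq ℓ lam m₀)) (μ + (eps ℓ c + qq ℓ lam m₀) / 2)
        (cellSet ℓ 0)).toReal / (ℓ:ℝ) ^ 3 := by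
  have hl : (0:ℝ) < ℓ := by positivity
  have hl1 : (1:ℝ) ≤ ℓ := by exact_mod_cast hℓ
  set Q := pf (fflat K c ℓ (eps ℓ c) (qq ℓ lam m₀)) (μ + (eps ℓ c + qq ℓ lam m₀) / 2)
        (cellSet ℓ 0) with hQ
  have hc0 : 0 ≤ ∑' m, c m := tsum_nonneg hc
  have hK0 : 0 ≤ K := by linarith [mul_nonneg (show (0:ℝ) ≤ 343 by norm_num) (add_nonneg hc0 hlam)]
  have hQ1 : 1 ≤ Q := one_le_pf _
  have hQr : 1 ≤ Q.toReal := by
    rw [← ENNReal.toReal_one]
    exact (ENNReal.toReal_le_toReal (by simp) hfin).mpr hQ1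
  set c' : ℕ → ℝ := c + Pi.single m₀ lam with hc'
  have hc'0 : ∀ m, 0 ≤ c' m := by
    intro m
    simp only [hc', Pi.add_apply]
    refine add_nonneg (hc m) ?_
    by_cases h : m = m₀
    · subst h; simpa using hlam
    · simp [Pi.single_eq_of_ne h]
  have hss : Summable (Pi.single m₀ lam : ℕ → ℝ) := (hasSum_pi_single m₀ lam).summable
  have hc's : Summable c' := hs.add hss
  have hc't : ∑' m, c' m = ∑' m, c m + lam := by
    simp only [hc', Pi.add_apply]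
    rw [hs.tsum_add hss, tsum_pi_single]
  have hst : IsStab (fc K c') (K / 2) := isStab_fc hc'0 hc's (by rw [hc't]; exact hK)
  have hlim := tendsto_Pr hst μ
  have hLseq : Tendsto (fun M : ℕ => (M : ℝ) * ℓ - 1) atTop atTop := by
    refine tendsto_atTop_add_const_right _ _ ?_
    exact Tendsto.atTop_mul_const hl tendsto_natCast_atTop_atTop
  have hlim2 := hlim.comp hLseq
  have hup : Tendsto (fun M : ℕ => (3 * Real.log ℓ + ((M:ℝ) + 1) ^ 3 * Real.log Q.toReal) / ((M : ℝ) * ℓ - 1) ^ 3)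
      atTop (𝓝 (Real.log Q.toReal / (ℓ:ℝ) ^ 3)) := by
    have h1 : Tendsto (fun M : ℕ => (1:ℝ) / (M:ℝ)) atTop (𝓝 0) := tendsto_one_div_atTop_nhds_zero_nat
    have h2 : Tendsto (fun M : ℕ => (3 * Real.log ℓ * (1 / (M:ℝ)) ^ 3 + (1 + 1 / (M:ℝ)) ^ 3 * Real.log Q.toReal) / ((ℓ:ℝ) - 1 / (M:ℝ)) ^ 3)
        atTop (𝓝 ((3 * Real.log ℓ * 0 ^ 3 + (1 + 0) ^ 3 * Real.log Q.toReal) / ((ℓ:ℝ) - 0) ^ 3)) := by
      refine Tendsto.div ?_ ((tendsto_const_nhds.sub h1).pow 3) (by simp [hl.ne'])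
      exact ((h1.pow 3).const_mul _).add (((tendsto_const_nhds.add h1).pow 3).mul_const _)
    have h3 : ((3 * Real.log ℓ * 0 ^ 3 + (1 + 0) ^ 3 * Real.log Q.toReal) / ((ℓ:ℝ) - 0) ^ 3)
        = Real.log Q.toReal / (ℓ:ℝ) ^ 3 := by ring
    rw [h3] at h2
    refine h2.congr' ?_
    filter_upwards [eventually_gt_atTop 1] with M hM
    have hM0 : (M:ℝ) ≠ 0 := by positivity
    have hM1 : (1:ℝ) < M := by exact_mod_cast hM
    have hne : ((M:ℝ) * ℓ - 1) ≠ 0 := by nlinarith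
    have hne2 : ((ℓ:ℝ) - 1 / M) ≠ 0 := by
      intro h
      apply hne
      have : (ℓ:ℝ) = 1 / M := by linarith
      rw [this]; field_simp; ring
    have hne3 : ((M:ℝ) * ((ℓ:ℝ) - 1 / M)) = (M:ℝ) * ℓ - 1 := by field_simp
    rw [← hne3]
    field_simp
  refine le_of_tendsto_of_tendsto hlim2 hup ?_
  filter_upwards [eventually_gt_atTop 1] with M hM
  have hM1 : (1:ℝ) < M := by exact_mod_cast hM
  have hL0 : 0 < (M:ℝ) * ℓ - 1 := by nlinarith
  simp only [Function.comp]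
  have hb := pf_box_le_cell hK0 hc hs hℓ hlam m₀ μ (M := M) (L := (M:ℝ) * ℓ - 1) (by linarith)
  rw [← hQ] at hb
  have hfin2 : (ℓ:ℝ≥0∞) ^ 3 * Q ^ ((M + 1) ^ 3) ≠ ⊤ :=
    ENNReal.mul_ne_top (ENNReal.pow_ne_top (ENNReal.natCast_ne_top ℓ)) (ENNReal.pow_ne_top hfin)
  have hb2 : (pf (fc K c') μ (box ((M:ℝ) * ℓ - 1))).toReal ≤ (ℓ:ℝ) ^ 3 * Q.toReal ^ ((M + 1) ^ 3) := by
    have := ENNReal.toReal_mono hfin2 hb
    rwa [ENNReal.toReal_mul, ENNReal.toReal_pow, ENNReal.toReal_pow, ENNReal.toReal_natCast] at this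
  have hb1 : 1 ≤ (pf (fc K c') μ (box ((M:ℝ) * ℓ - 1))).toReal := by
    rw [← ENNReal.toReal_one]
    exact (ENNReal.toReal_le_toReal (by simp) (ne_top_of_le_ne_top hfin2 hb)).mpr (one_le_pf _)
  refine div_le_div_of_nonneg_right ?_ (by positivity)
  calc Real.log (pf (fc K c') μ (box ((M:ℝ) * ℓ - 1))).toReal
      ≤ Real.log ((ℓ:ℝ) ^ 3 * Q.toReal ^ ((M + 1) ^ 3)) := Real.log_le_log (by linarith) hb2
    _ = 3 * Real.log ℓ + ((M:ℝ) + 1) ^ 3 * Real.log Q.toReal := by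
        rw [Real.log_mul (by positivity) (by positivity), Real.log_pow, Real.log_pow]
        push_cast; ring

end Vale.Agent.P171
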