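import Mathlib
import Vale.Agent.P171.Defs
import Vale.Agent.P171.Split
import Vale.Agent.P171.Count
import Vale.Agent.P171.Thermo
import Vale.Agent.P171.Pot
import Vale.Agent.P171.Upper1
import Vale.Agent.P171.Upper2

namespace Vale.Agent.P171

open MeasureTheory Finset Filter Topology
open scoped ENNReal BigOperators

theorem mem_cellSet_zero {ℓ : ℕ} (hℓ : 0 < ℓ) (a : E) :
    a ∈ cellSet ℓ 0 ↔ ∀ k, 0 ≤ a k ∧ a k < ℓ := by
  have hl : (0:ℝ) < ℓ := by positivity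
  unfold cellSet cell
  rw [Set.mem_ofPred_eq, funext_iff]
  refine forall_congr' fun k => ?_
  rw [Pi.zero_apply, Int.floor_eq_zero_iff, Set.mem_Ico, div_lt_one hl, le_div_iff₀ hl, zero_mul]

theorem cellSet_subset_box {ℓ : ℕ} (hℓ : 0 < ℓ) : cellSet ℓ 0 ⊆ box ℓ := by
  intro a ha k
  have := (mem_cellSet_zero hℓ a).mp ha k
  exact ⟨this.1, this.2.le⟩

theorem volume_cellSet {ℓ : ℕ} (hℓ : 0 < ℓ) :
    volume (cellSet ℓ 0) = ENNReal.ofReal ((ℓ:ℝ) ^ 3) := by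
  have h1 : cellSet ℓ 0 = (@WithLp.ofLp 2 (Fin 3 → ℝ)) ⁻¹' (Set.pi Set.univ fun _ => Set.Ico (0:ℝ) ℓ) := by
    ext a
    rw [mem_cellSet_zero hℓ]
    simp [Set.mem_pi]
  rw [h1, (PiLp.volume_preserving_ofLp (Fin 3)).measure_preimage, volume_pi_pi]
  · simp [ENNReal.ofReal_pow]
  · exact (MeasurableSet.univ_pi fun _ => measurableSet_Ico).nullMeasurableSet

theorem volume_pi_cellSet {ℓ : ℕ} (hℓ : 0 < ℓ) (n : ℕ) :
    volume (Set.pi Set.univ (fun _ : Fin n => cellSet ℓ 0)) = ENNReal.ofReal (((ℓ:ℝ) ^ 3) ^ n) := by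
  rw [volume_pi_pi, Finset.prod_const, volume_cellSet hℓ, Finset.card_univ, Fintype.card_fin,
    ← ENNReal.ofReal_pow (by positivity)]

theorem cell_one_mem {ℓ : ℕ} (hℓ : 0 < ℓ) {a : E} (ha : a ∈ cellSet ℓ 0) :
    cell 1 a ∈ Fintype.piFinset (fun _ : Fin 3 => Finset.Ico (0:ℤ) ℓ) := by
  rw [Fintype.mem_piFinset]
  intro k
  have := (mem_cellSet_zero hℓ a).mp ha k
  unfold cell
  rw [Finset.mem_Ico, Nat.cast_one, div_one]
  refine ⟨Int.floor_nonneg.mpr this.1, ?_⟩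
  rw [Int.floor_lt]; exact_mod_cast this.2

theorem S_ge_cell {ℓ : ℕ} (hℓ : 0 < ℓ) {n : ℕ} (x : Fin n → E) (hx : ∀ i, x i ∈ cellSet ℓ 0) :
    (n : ℝ) ^ 2 ≤ (ℓ:ℝ) ^ 3 * S 1 x := by
  have := S_ge (ℓ := 1) Nat.one_pos x (Fintype.piFinset (fun _ : Fin 3 => Finset.Ico (0:ℤ) ℓ))
    (fun i => cell_one_mem hℓ (hx i))
  rw [Fintype.card_piFinset] at this
  simpa using this

theorem offSum_fflat_cell {K : ℝ} {c : ℕ → ℝ} {ℓ : ℕ} {ε q : ℝ} {n : ℕ} (x : Fin n → E)
    (hx : ∀ i, x i ∈ cellSet ℓ 0) :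
    offSum (fflat K c ℓ ε q) x = offSum (fc K c) x - ε * (S 1 x - n) - q * ((n:ℝ) ^ 2 - n) := by
  have h1 : ∀ i j, cell ℓ (x i) = cell ℓ (x j) := fun i j => (hx i).trans (hx j).symm
  have h2 : offSum (fun a b => if cell 1 a = cell 1 b then (1:ℝ) else 0) x = S 1 x - n := by
    rw [offSum_eq]; unfold S; simp
  have h3 : offSum (fun _ _ => (1:ℝ)) x = (n:ℝ) ^ 2 - n := by
    rw [offSum_eq]; simp; ring
  rw [← h2, ← h3]
  unfold offSum
  rw [Finset.mul_sum, Finset.mul_sum, ← Finset.sum_sub_distrib, ← Finset.sum_sub_distrib]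
  refine Finset.sum_congr rfl fun i _ => ?_
  rw [Finset.mul_sum, Finset.mul_sum, ← Finset.sum_sub_distrib, ← Finset.sum_sub_distrib]
  refine Finset.sum_congr rfl fun j _ => ?_
  by_cases hij : i = j
  · simp [hij]
  · simp only [hij, if_false]
    unfold fflat
    rw [if_pos (h1 i j)]; ring

theorem measurable_offSum {f : E → E → ℝ} (hf : IsPair f) (n : ℕ) :
    Measurable (fun x : Fin n → E => offSum f x) := by
  unfold offSum
  refine Finset.measurable_sum _ fun i _ => Finset.measurable_sum _ fun j _ => ?_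
  by_cases hij : i = j
  · simp [hij]
  · simp only [hij, if_false]
    have h2 : Measurable fun y : Fin n → E => (y i, y j) :=
      (measurable_pi_apply i).prodMk (measurable_pi_apply j)
    exact hf.meas.comp h2

theorem measurable_S (ℓ n : ℕ) : Measurable (fun x : Fin n → E => S ℓ x) := by
  unfold S
  refine Finset.measurable_sum _ fun i _ => Finset.measurable_sum _ fun j _ => ?_
  have h2 : Measurable fun y : Fin n → E => (y i, y j) :=
    (measurable_pi_apply i).prodMk (measurable_pi_apply j)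
  exact Measurable.ite (h2 (measurableSet_eq_cell ℓ)) measurable_const measurable_const

/-- crude bound of the energy -/
theorem energy_crude {K : ℝ} {c : ℕ → ℝ} (hc : ∀ m, 0 ≤ c m) (hs : Summable c) (hK : 0 ≤ K)
    (θ : ℝ) {n : ℕ} (x : Fin n → E) :
    -(offSum (fc K c) x) / 2 + θ * S 1 x / 2 ≤ K * n / 2 - (K - 343 * ∑' m, c m - θ) * S 1 x / 2 := by
  have := offSum_fc_ge hK hc hs x
  nlinarith

theorem pow_div_factorial_le_exp {V : ℝ} (hV : 0 ≤ V) (n : ℕ) : V ^ n / n.factorial ≤ Real.exp V :=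
  Real.pow_div_factorial_le_exp V hV n

/-- crude bound for the canonical weight -/
theorem cpf_fflat_crude {K : ℝ} {c : ℕ → ℝ} (hc : ∀ m, 0 ≤ c m) (hs : Summable c) (hK : 0 ≤ K)
    {ℓ : ℕ} (hℓ : 0 < ℓ) {ε q μ : ℝ} (hKJ : 343 * ∑' m, c m + ε ≤ K) (n : ℕ) :
    cpf (fflat K c ℓ ε q) (μ + (ε + q) / 2) (cellSet ℓ 0) n ≤
      ENNReal.ofReal (((ℓ:ℝ) ^ 3) ^ n / n.factorial * Real.exp (μ * n + q * (n:ℝ) ^ 2 / 2 + K * n / 2
        - (K - 343 * ∑' m, c m - ε) * ((n:ℝ) ^ 2 / (ℓ:ℝ) ^ 3) / 2)) := by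
  have hl : (0:ℝ) < (ℓ:ℝ) ^ 3 := by positivity
  unfold cpf
  have hbd : ∀ x ∈ Set.pi Set.univ (fun _ : Fin n => cellSet ℓ 0),
      ENNReal.ofReal (Real.exp ((μ + (ε + q) / 2) * n - offSum (fflat K c ℓ ε q) x / 2))
      ≤ ENNReal.ofReal (Real.exp (μ * n + q * (n:ℝ) ^ 2 / 2 + K * n / 2
        - (K - 343 * ∑' m, c m - ε) * ((n:ℝ) ^ 2 / (ℓ:ℝ) ^ 3) / 2)) := by
    intro x hx
    have hx' : ∀ i, x i ∈ cellSet ℓ 0 := fun i => hx i (Set.mem_univ i)
    apply ENNReal.ofReal_le_ofReal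
    apply Real.exp_le_exp.mpr
    rw [offSum_fflat_cell x hx']
    have h1 := energy_crude hc hs hK ε x
    have h2 : (n:ℝ) ^ 2 / (ℓ:ℝ) ^ 3 ≤ S 1 x := by
      rw [div_le_iff₀ hl, mul_comm]; exact S_ge_cell hℓ x hx'
    have h3 := mul_le_mul_of_nonneg_left h2 (show 0 ≤ K - 343 * ∑' m, c m - ε by linarith)
    linarith
  have hmeas : MeasurableSet (Set.pi Set.univ (fun _ : Fin n => cellSet ℓ 0)) :=
    MeasurableSet.univ_pi fun _ => measurableSet_cellSet ℓ 0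
  calc _ ≤ ((n.factorial : ℝ≥0∞))⁻¹ * ∫⁻ x in Set.pi Set.univ (fun _ : Fin n => cellSet ℓ 0),
        ENNReal.ofReal (Real.exp (μ * n + q * (n:ℝ) ^ 2 / 2 + K * n / 2
        - (K - 343 * ∑' m, c m - ε) * ((n:ℝ) ^ 2 / (ℓ:ℝ) ^ 3) / 2)) :=
        mul_le_mul_right (setLIntegral_mono' hmeas hbd) _
    _ = _ := by
        rw [setLIntegral_const, volume_pi_cellSet hℓ, ← ENNReal.ofReal_mul (by positivity)]
        rw [← ENNReal.ofReal_natCast, ← ENNReal.ofReal_inv_of_pos (by positivity),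
          ← ENNReal.ofReal_mul (by positivity)]
        congr 1
        field_simp

/-- Hölder bound for the canonical weight -/
theorem cpf_fflat_holder {K : ℝ} {c : ℕ → ℝ} (hc : ∀ m, 0 ≤ c m) (hs : Summable c)
    {ℓ : ℕ} (hℓ : 0 < ℓ) {ε q μ : ℝ} (hε0 : 0 ≤ ε) (hε1 : ε ≤ 1)
    (hKJ : 343 * ∑' m, c m + 1 ≤ K) (n : ℕ) :
    cpf (fflat K c ℓ ε q) (μ + (ε + q) / 2) (cellSet ℓ 0) n ≤
      ENNReal.ofReal (Real.exp (((ℓ:ℝ) + 2) ^ 3 * Pr (fc K c) (μ + q * n) - q * (n:ℝ) ^ 2 / 2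
        + ε * ((ℓ:ℝ) ^ 3 + (K / 2 + |μ + q * n|) * n))) := by
  have hl : (0:ℝ) < (ℓ:ℝ) ^ 3 := by positivity
  have hl' : (0:ℝ) < (ℓ:ℝ) := by positivity
  have hc0 : 0 ≤ ∑' m, c m := tsum_nonneg hc
  have hK : 0 ≤ K := by linarith
  have hst : IsStab (fc K c) (K / 2) := isStab_fc hc hs (by linarith)
  set t := μ + q * n with ht
  set P := Pr (fc K c) t with hP
  have hP0 : 0 ≤ P := Pr_nonneg hst t
  set A := Set.pi Set.univ (fun _ : Fin n => cellSet ℓ 0) with hA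
  have hmeas : MeasurableSet A := MeasurableSet.univ_pi fun _ => measurableSet_cellSet ℓ 0
  set f : (Fin n → E) → ℝ≥0∞ := fun x => ENNReal.ofReal (Real.exp (-(offSum (fc K c) x) / 2)) with hf
  set g : (Fin n → E) → ℝ≥0∞ := fun x =>
    ENNReal.ofReal (Real.exp (-(offSum (fc K c) x) / 2 + 1 * S 1 x / 2)) with hg
  have hfm : Measurable f :=
    ENNReal.measurable_ofReal.comp (Real.measurable_exp.comp ((measurable_offSum (isPair_fc K c) n).neg.div_const _))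
  have hgm : Measurable g :=
    ENNReal.measurable_ofReal.comp (Real.measurable_exp.comp
      (((measurable_offSum (isPair_fc K c) n).neg.div_const _).add
        (((measurable_S 1 n).const_mul 1).div_const 2)))
  -- integral of f
  have hIf : ∫⁻ x in A, f x ≤ ENNReal.ofReal ((n.factorial : ℝ) * Real.exp (((ℓ:ℝ) + 2) ^ 3 * P - t * n)) := by
    have h1 : cpf (fc K c) t (cellSet ℓ 0) n ≤ ENNReal.ofReal (Real.exp (((ℓ:ℝ) + 2) ^ 3 * P)) :=
      calc cpf (fc K c) t (cellSet ℓ 0) n ≤ pf (fc K c) t (cellSet ℓ 0) := ENNReal.le_tsum n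
        _ ≤ pf (fc K c) t (box ℓ) := pf_mono (cellSet_subset_box hℓ)
        _ ≤ _ := pf_le_exp_Pr hst t hl'
    have h2 : ∫⁻ x in A, f x = ENNReal.ofReal ((n.factorial : ℝ) * Real.exp (- (t * n))) *
        cpf (fc K c) t (cellSet ℓ 0) n := by
      unfold cpf
      have : ∀ x : Fin n → E, ENNReal.ofReal (Real.exp (t * n - offSum (fc K c) x / 2))
          = ENNReal.ofReal (Real.exp (t * n)) * f x := by
        intro x
        rw [hf, ← ENNReal.ofReal_mul (Real.exp_pos _).le, ← Real.exp_add]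
        congr 2; ring
      simp only [this]
      rw [lintegral_const_mul _ hfm, ← hA, ENNReal.ofReal_mul (by positivity), ENNReal.ofReal_natCast]
      have h3 : (n.factorial : ℝ≥0∞) * (n.factorial : ℝ≥0∞)⁻¹ = 1 :=
        ENNReal.mul_inv_cancel (by exact_mod_cast (Nat.factorial_pos n).ne') (ENNReal.natCast_ne_top _)
      have h4 : ENNReal.ofReal (Real.exp (-(t * n))) * ENNReal.ofReal (Real.exp (t * n)) = 1 := by
        rw [← ENNReal.ofReal_mul (Real.exp_pos _).le, ← Real.exp_add]; simp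
      calc ∫⁻ x in A, f x = 1 * 1 * ∫⁻ x in A, f x := by simp
        _ = ((n.factorial : ℝ≥0∞) * (n.factorial : ℝ≥0∞)⁻¹) *
            (ENNReal.ofReal (Real.exp (-(t * n))) * ENNReal.ofReal (Real.exp (t * n))) * ∫⁻ x in A, f x := by
            rw [h3, h4]
        _ = _ := by ring
    rw [h2]
    calc _ ≤ ENNReal.ofReal ((n.factorial : ℝ) * Real.exp (- (t * n))) *
          ENNReal.ofReal (Real.exp (((ℓ:ℝ) + 2) ^ 3 * P)) := mul_le_mul_right h1 _
      _ = _ := by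
        rw [← ENNReal.ofReal_mul (by positivity), mul_assoc, ← Real.exp_add]
        congr 3; ring
  have hIg : ∫⁻ x in A, g x ≤ ENNReal.ofReal (((ℓ:ℝ) ^ 3) ^ n * Real.exp (K * n / 2)) := by
    calc ∫⁻ x in A, g x ≤ ∫⁻ x in A, ENNReal.ofReal (Real.exp (K * n / 2)) := by
          refine lintegral_mono fun x => ?_
          apply ENNReal.ofReal_le_ofReal
          apply Real.exp_le_exp.mpr
          have h1 := energy_crude hc hs hK 1 x
          have h2 : 0 ≤ (K - 343 * ∑' m, c m - 1) * S 1 x :=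
            mul_nonneg (by linarith) (S_nonneg 1 x)
          linarith
      _ = _ := by
        rw [setLIntegral_const, hA, volume_pi_cellSet hℓ, ← ENNReal.ofReal_mul (by positivity), mul_comm]
  -- Hölder
  have hHold : ∫⁻ x in A, f x ^ (1 - ε) * g x ^ ε ≤ (∫⁻ x in A, f x) ^ (1 - ε) * (∫⁻ x in A, g x) ^ ε :=
    ENNReal.lintegral_mul_norm_pow_le hfm.aemeasurable hgm.aemeasurable (by linarith) hε0 (by ring)
  have hfg : ∀ x, f x ^ (1 - ε) * g x ^ ε
      = ENNReal.ofReal (Real.exp (-(offSum (fc K c) x) / 2 + ε * S 1 x / 2)) := by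
    intro x
    simp only [hf, hg]
    rw [ENNReal.ofReal_rpow_of_pos (Real.exp_pos _), ENNReal.ofReal_rpow_of_pos (Real.exp_pos _),
      ← Real.exp_mul, ← Real.exp_mul, ← ENNReal.ofReal_mul (Real.exp_pos _).le, ← Real.exp_add]
    congr 2; ring
  have hcpf : cpf (fflat K c ℓ ε q) (μ + (ε + q) / 2) (cellSet ℓ 0) n
      = ENNReal.ofReal ((n.factorial : ℝ)⁻¹ * Real.exp (μ * n + q * (n:ℝ)^2 / 2)) *
        ∫⁻ x in A, f x ^ (1 - ε) * g x ^ ε := by
    unfold cpf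
    have : ∫⁻ x in A, ENNReal.ofReal (Real.exp ((μ + (ε + q) / 2) * n - offSum (fflat K c ℓ ε q) x / 2))
        = ∫⁻ x in A, ENNReal.ofReal (Real.exp (μ * n + q * (n:ℝ)^2 / 2)) * (f x ^ (1 - ε) * g x ^ ε) := by
      refine setLIntegral_congr_fun hmeas fun x hx => ?_
      have hx' : ∀ i, x i ∈ cellSet ℓ 0 := fun i => hx i (Set.mem_univ i)
      rw [hfg, ← ENNReal.ofReal_mul (Real.exp_pos _).le, ← Real.exp_add, offSum_fflat_cell x hx']
      congr 2; ring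
    have hm : Measurable (fun x => f x ^ (1 - ε) * g x ^ ε) := (hfm.pow_const _).mul (hgm.pow_const _)
    rw [this, lintegral_const_mul _ hm, ENNReal.ofReal_mul (by positivity),
      ENNReal.ofReal_inv_of_pos (by positivity), ENNReal.ofReal_natCast, mul_assoc]
  rw [hcpf]
  have hstep : ∫⁻ x in A, f x ^ (1 - ε) * g x ^ ε ≤
      ENNReal.ofReal (((n.factorial : ℝ) * Real.exp (((ℓ:ℝ) + 2) ^ 3 * P - t * n)) ^ (1 - ε)
        * (((ℓ:ℝ) ^ 3) ^ n * Real.exp (K * n / 2)) ^ ε) := by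
    refine hHold.trans ?_
    rw [ENNReal.ofReal_mul (by positivity), ← ENNReal.ofReal_rpow_of_nonneg (by positivity) (by linarith),
      ← ENNReal.ofReal_rpow_of_nonneg (by positivity) hε0]
    exact mul_le_mul' (ENNReal.rpow_le_rpow hIf (by linarith)) (ENNReal.rpow_le_rpow hIg hε0)
  calc _ ≤ ENNReal.ofReal ((n.factorial : ℝ)⁻¹ * Real.exp (μ * n + q * (n:ℝ)^2 / 2)) *
        ENNReal.ofReal (((n.factorial : ℝ) * Real.exp (((ℓ:ℝ) + 2) ^ 3 * P - t * n)) ^ (1 - ε)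
        * (((ℓ:ℝ) ^ 3) ^ n * Real.exp (K * n / 2)) ^ ε) := mul_le_mul_right hstep _
    _ ≤ _ := by
      rw [← ENNReal.ofReal_mul (by positivity)]
      apply ENNReal.ofReal_le_ofReal
      -- write in terms of exponentials
      have hfac : (0:ℝ) < n.factorial := by positivity
      set F : ℝ := Real.log n.factorial with hF
      have hFe : (n.factorial : ℝ) = Real.exp F := (Real.exp_log hfac).symm
      have hVe : ((ℓ:ℝ) ^ 3) ^ n = Real.exp (n * Real.log ((ℓ:ℝ) ^ 3)) := by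
        rw [Real.exp_nat_mul, Real.exp_log hl]
      have hkey : n * Real.log ((ℓ:ℝ) ^ 3) - F ≤ (ℓ:ℝ) ^ 3 := by
        have h1 := pow_div_factorial_le_exp hl.le n
        rw [hVe, hFe, ← Real.exp_sub] at h1
        exact Real.exp_le_exp.mp h1
      rw [hFe, hVe, ← Real.exp_add, ← Real.exp_add, ← Real.exp_neg, ← Real.exp_add, ← Real.exp_mul,
        ← Real.exp_mul, ← Real.exp_add, ← Real.exp_add]
      apply Real.exp_le_exp.mpr
      have h5 : ε * (n * Real.log ((ℓ:ℝ) ^ 3) - F) ≤ ε * (ℓ:ℝ) ^ 3 := mul_le_mul_of_nonneg_left hkey hε0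
      have h6 : 0 ≤ ε * (((ℓ:ℝ) + 2) ^ 3 * P) := by positivity
      have h7 : ε * (t * n) ≤ ε * (|t| * n) :=
        mul_le_mul_of_nonneg_left (mul_le_mul_of_nonneg_right (le_abs_self t) (Nat.cast_nonneg n)) hε0
      have h8 : μ * n = t * n - q * (n:ℝ)^2 := by rw [ht]; ring
      nlinarith

end Vale.Agent.P171
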