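import Mathlib
import Vale.Agent.P171.Defs
import Vale.Agent.P171.Split
import Vale.Agent.P171.Count
import Vale.Agent.P171.Thermo
import Vale.Agent.P171.Pot
import Vale.Agent.P171.Upper1
import Vale.Agent.P171.Upper3

namespace Vale.Agent.P171

open MeasureTheory Finset Filter Topology
open scoped ENNReal BigOperators

/-! Lower semicontinuity of the pressure in the coupling constants and the chemical potential. -/

/-- the Banach space `ℓ¹(ℕ)` -/
abbrev L1 := lp (fun _ : ℕ => ℝ) 1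

theorem L1.summable (c : L1) : Summable (fun m => c m) := by
  have := lp.hasSum_norm (p := 1) (by simp) c
  simp only [ENNReal.toReal_one, Real.rpow_one] at this
  exact this.summable.of_norm

theorem L1.norm_eq (c : L1) : ‖c‖ = ∑' m, |c m| := by
  have := lp.norm_eq_tsum_rpow (p := 1) (by simp) c
  simpa using this

theorem L1.summable_abs (c : L1) : Summable (fun m => |c m|) := by
  have := lp.hasSum_norm (p := 1) (by simp) c
  simp only [ENNReal.toReal_one, Real.rpow_one] at this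
  exact this.summable

theorem L1.norm_eq_of_nonneg {c : L1} (hc : ∀ m, 0 ≤ c m) : ‖c‖ = ∑' m, c m := by
  rw [L1.norm_eq]
  exact tsum_congr fun m => abs_of_nonneg (hc m)

/-- Lipschitz dependence of the attraction on the couplings -/
theorem att_sub_le {c c' : L1} (hc : ∀ m, 0 ≤ c m) (hc' : ∀ m, 0 ≤ c' m) (r : ℝ) :
    att c r - att c' r ≤ ‖c - c'‖ := by
  unfold att
  rw [← Summable.tsum_sub (summable_term hc (L1.summable c) r) (summable_term hc' (L1.summable c') r),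
    L1.norm_eq]
  refine Summable.tsum_le_tsum (fun m => ?_)
    ((summable_term hc (L1.summable c) r).sub (summable_term hc' (L1.summable c') r))
    (L1.summable_abs _)
  have hm : (1:ℝ) ≤ ((m:ℝ) + 1) ^ 3 := one_le_pow₀ (by linarith [Nat.cast_nonneg (α := ℝ) m])
  have e : (c - c') m = c m - c' m := rfl
  rw [e]
  split_ifs
  · rw [← sub_div]
    calc (c m - c' m) / ((m:ℝ) + 1) ^ 3 ≤ |c m - c' m| / ((m:ℝ) + 1) ^ 3 := by
          gcongr; exact le_abs_self _
      _ ≤ |c m - c' m| := div_le_self (abs_nonneg _) hm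
  · simp

theorem offSum_le_add {K : ℝ} {c c' : L1} (hc : ∀ m, 0 ≤ c m) (hc' : ∀ m, 0 ≤ c' m) {n : ℕ}
    (x : Fin n → E) : offSum (fc K c') x ≤ offSum (fc K c) x + (n:ℝ) ^ 2 * ‖c - c'‖ := by
  have h : (n:ℝ) ^ 2 * ‖c - c'‖ = ∑ _i : Fin n, ∑ _j : Fin n, ‖c - c'‖ := by
    simp; ring
  rw [h]
  unfold offSum
  rw [← Finset.sum_add_distrib]
  refine Finset.sum_le_sum fun i _ => ?_
  rw [← Finset.sum_add_distrib]
  refine Finset.sum_le_sum fun j _ => ?_
  by_cases hij : i = j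
  · simp [hij]
  · simp only [hij, if_false]
    unfold fc pot
    have := att_sub_le hc hc' (dist (x i) (x j))
    linarith

theorem cpf_lower {K : ℝ} {c c' : L1} (hc : ∀ m, 0 ≤ c m) (hc' : ∀ m, 0 ≤ c' m) (μ μ' : ℝ)
    (Λ : Set E) (n : ℕ) :
    ENNReal.ofReal (Real.exp (-(n * |μ - μ'| + (n:ℝ) ^ 2 * ‖c - c'‖ / 2))) * cpf (fc K c) μ Λ n
      ≤ cpf (fc K c') μ' Λ n := by
  unfold cpf
  rw [← mul_assoc, mul_comm (ENNReal.ofReal _), mul_assoc]
  refine mul_le_mul_right ?_ _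
  rw [← lintegral_const_mul]
  · refine lintegral_mono fun x => ?_
    rw [← ENNReal.ofReal_mul (Real.exp_pos _).le, ← Real.exp_add]
    apply ENNReal.ofReal_le_ofReal
    apply Real.exp_le_exp.mpr
    have h1 := offSum_le_add (K := K) hc hc' x
    have h2 : (μ - μ') * n ≤ n * |μ - μ'| := by
      rw [mul_comm]; exact mul_le_mul_of_nonneg_left (le_abs_self _) (Nat.cast_nonneg n)
    linarith
  · exact ENNReal.measurable_ofReal.comp (Real.measurable_exp.comp
      (measurable_const.sub ((measurable_offSum (isPair_fc K c) n).div_const _)))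

/-- parameter space -/
def PS (B : ℝ) : Set (L1 × ℝ) := {p | (∀ m, 0 ≤ p.1 m) ∧ ‖p.1‖ ≤ B}

theorem continuous_coord (m : ℕ) : Continuous (fun c : L1 => c m) :=
  (lp.evalCLM ℝ (fun _ : ℕ => ℝ) 1 m).continuous

theorem isClosed_PS (B : ℝ) : IsClosed (PS B) := by
  unfold PS
  rw [Set.ofPred_and, Set.ofPred_forall]
  refine IsClosed.inter (isClosed_iInter fun m => ?_) ?_
  · exact isClosed_le continuous_const ((continuous_coord m).comp continuous_fst)
  · exact isClosed_le (continuous_norm.comp continuous_fst) continuous_const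

theorem lsc_cpf {B : ℝ} (K : ℝ) (Λ : Set E) (n : ℕ) :
    LowerSemicontinuous (fun p : PS B => cpf (fc K (p : L1 × ℝ).1) (p : L1 × ℝ).2 Λ n) := by
  intro p y hy
  have h1 : Tendsto (fun p' : PS B => ENNReal.ofReal (Real.exp (-(n * |(p : L1 × ℝ).2 - (p' : L1 × ℝ).2|
      + (n:ℝ) ^ 2 * ‖(p : L1 × ℝ).1 - (p' : L1 × ℝ).1‖ / 2))) * cpf (fc K (p : L1 × ℝ).1) (p : L1 × ℝ).2 Λ n)
      (𝓝 p) (𝓝 (1 * cpf (fc K (p : L1 × ℝ).1) (p : L1 × ℝ).2 Λ n)) := by
    refine ENNReal.Tendsto.mul_const ?_ (Or.inl one_ne_zero)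
    have hcont : Continuous (fun p' : PS B => ENNReal.ofReal (Real.exp (-(n * |(p : L1 × ℝ).2 - (p' : L1 × ℝ).2|
      + (n:ℝ) ^ 2 * ‖(p : L1 × ℝ).1 - (p' : L1 × ℝ).1‖ / 2)))) :=
      ENNReal.continuous_ofReal.comp (by fun_prop)
    have := hcont.tendsto p
    simpa using this
  rw [one_mul] at h1
  filter_upwards [h1.eventually_const_lt hy] with p' hp'
  exact hp'.trans_le (cpf_lower p.2.1 p'.2.1 _ _ Λ n)

theorem lsc_pf {B : ℝ} (K : ℝ) (Λ : Set E) :
    LowerSemicontinuous (fun p : PS B => pf (fc K (p : L1 × ℝ).1) (p : L1 × ℝ).2 Λ) :=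
  lowerSemicontinuous_tsum fun n => lsc_cpf K Λ n

theorem tsum_le_of_PS {B : ℝ} (p : PS B) : ∑' m, (p : L1 × ℝ).1 m ≤ B := by
  rw [← L1.norm_eq_of_nonneg p.2.1]; exact p.2.2

theorem isStab_PS {B K : ℝ} (hK : 343 * B ≤ K) (p : PS B) : IsStab (fc K (p : L1 × ℝ).1) (K / 2) :=
  isStab_fc p.2.1 (L1.summable _) (by linarith [tsum_le_of_PS p])

theorem log_pf_le_Pr {f : E → E → ℝ} {B : ℝ} (hf : IsStab f B) (μ : ℝ) {L : ℝ} (hL : 0 < L) :
    Real.log (pf f μ (box L)).toReal / (L + 2) ^ 3 ≤ Pr f μ := by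
  have h := pf_le_exp_Pr hf μ hL
  have h1 : 1 ≤ (pf f μ (box L)).toReal := by
    rw [← ENNReal.toReal_one]
    exact (ENNReal.toReal_le_toReal (by simp) (ne_top_of_le_ne_top ENNReal.ofReal_ne_top h)).mpr (one_le_pf _)
  have h2 := ENNReal.toReal_le_of_le_ofReal (Real.exp_pos _).le h
  rw [div_le_iff₀ (by positivity), mul_comm]
  have := Real.log_le_log (by linarith) h2
  rwa [Real.log_exp] at this

theorem lsc_Pr {B K : ℝ} (hK : 343 * B ≤ K) :
    LowerSemicontinuous (fun p : PS B => Pr (fc K (p : L1 × ℝ).1) (p : L1 × ℝ).2) := by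
  intro p y hy
  have hy' : y < ⨆ L : Set.Ioi (0:ℝ), Real.log (pf (fc K (p : L1 × ℝ).1) (p : L1 × ℝ).2 (box L)).toReal / ((L:ℝ) + 2) ^ 3 := hy
  have : Nonempty (Set.Ioi (0:ℝ)) := ⟨⟨1, by simp⟩⟩
  obtain ⟨⟨L, hL⟩, hyL⟩ := exists_lt_of_lt_ciSup hy'
  simp only [] at hyL
  have hL0 : (0:ℝ) < L := hL
  have hL3 : 0 < (L + 2) ^ 3 := by positivity
  rw [lt_div_iff₀ hL3] at hyL
  have hfin : ∀ p' : PS B, pf (fc K (p' : L1 × ℝ).1) (p' : L1 × ℝ).2 (box L) ≠ ⊤ := fun p' =>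
    ne_top_of_le_ne_top ENNReal.ofReal_ne_top (pf_le_exp_Pr (isStab_PS hK p') _ hL0)
  have hpos : ∀ p' : PS B, 1 ≤ (pf (fc K (p' : L1 × ℝ).1) (p' : L1 × ℝ).2 (box L)).toReal := by
    intro p'
    rw [← ENNReal.toReal_one]
    exact (ENNReal.toReal_le_toReal (by simp) (hfin p')).mpr (one_le_pf _)
  have h1 : ENNReal.ofReal (Real.exp (y * (L + 2) ^ 3)) < pf (fc K (p : L1 × ℝ).1) (p : L1 × ℝ).2 (box L) := by
    rw [← ENNReal.ofReal_toReal (hfin p)]
    rw [ENNReal.ofReal_lt_ofReal_iff (by linarith [hpos p])]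
    rw [← Real.lt_log_iff_exp_lt (by linarith [hpos p])]
    exact hyL
  filter_upwards [lsc_pf K (box L) p _ h1] with p' hp'
  refine lt_of_lt_of_le ?_ (log_pf_le_Pr (isStab_PS hK p') _ hL0)
  rw [lt_div_iff₀ hL3]
  have hp'' : ENNReal.ofReal (Real.exp (y * (L + 2) ^ 3)) <
      ENNReal.ofReal (pf (fc K (p' : L1 × ℝ).1) (p' : L1 × ℝ).2 (box L)).toReal := by
    rw [ENNReal.ofReal_toReal (hfin p')]; exact hp'
  rw [ENNReal.ofReal_lt_ofReal_iff (by linarith [hpos p']),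
    ← Real.lt_log_iff_exp_lt (by linarith [hpos p'])] at hp''
  exact hp''

end Vale.Agent.P171
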