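import Mathlib
import Vale.Agent.P171.Defs
import Vale.Agent.P171.Count

/-!
Trial configurations for P171: one particle in each unit cube at `3z`, `z ∈ {0,…,M-1}³`.
-/

namespace Vale.Agent.P171

open MeasureTheory Finset Filter Topology
open scoped ENNReal BigOperators

/-- unit cube at `3z` -/
def cubeAt {M : ℕ} (z : Fin 3 → Fin M) : Set E :=
  {x | ∀ k, x k ∈ Set.Icc (3 * ((z k : ℕ) : ℝ)) (3 * ((z k : ℕ) : ℝ) + 1)}

theorem cubeAt_eq {M : ℕ} (z : Fin 3 → Fin M) :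
    cubeAt z = (WithLp.ofLp : E → (Fin 3 → ℝ)) ⁻¹' (Set.pi Set.univ
      (fun k => Set.Icc (3 * ((z k : ℕ) : ℝ)) (3 * ((z k : ℕ) : ℝ) + 1))) := by
  ext x
  rw [Set.mem_preimage, Set.mem_univ_pi]
  rfl

theorem cubeAt_meas {M : ℕ} (z : Fin 3 → Fin M) : MeasurableSet (cubeAt z) := by
  rw [cubeAt_eq]
  exact (MeasurableSet.univ_pi fun k => measurableSet_Icc).preimage
    (PiLp.volume_preserving_ofLp (Fin 3)).measurable

theorem cubeAt_vol {M : ℕ} (z : Fin 3 → Fin M) : volume (cubeAt z) = 1 := by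
  rw [cubeAt_eq, (PiLp.volume_preserving_ofLp (Fin 3)).measure_preimage
    (MeasurableSet.univ_pi fun k => measurableSet_Icc).nullMeasurableSet, volume_pi_pi]
  simp

theorem cubeAt_subset {M : ℕ} (z : Fin 3 → Fin M) : cubeAt z ⊆ box (3 * (M:ℝ) - 2) := by
  intro x hx k
  have h1 := hx k
  rw [Set.mem_Icc] at h1 ⊢
  have h2 : (((z k : ℕ) + 1 : ℕ) : ℝ) ≤ M := by exact_mod_cast (z k).2
  push_cast at h2
  have h3 : (0:ℝ) ≤ ((z k : ℕ) : ℝ) := by positivity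
  constructor <;> linarith

theorem cubeAt_dist_ge {M : ℕ} {z z' : Fin 3 → Fin M} (h : z ≠ z') {a b : E}
    (ha : a ∈ cubeAt z) (hb : b ∈ cubeAt z') : 2 ≤ dist a b := by
  obtain ⟨k, hk⟩ := Function.ne_iff.mp h
  have h1 := ha k
  have h2 := hb k
  rw [Set.mem_Icc] at h1 h2
  have h3 : |a k - b k| ≤ dist a b := by
    rw [dist_eq_norm]
    exact PiLp.norm_apply_le (a - b) k
  refine le_trans ?_ h3
  rcases lt_or_gt_of_ne hk with h4 | h4
  · have h5 : (((z k : ℕ) + 1 : ℕ) : ℝ) ≤ ((z' k : ℕ) : ℝ) := by exact_mod_cast h4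
    push_cast at h5
    rw [abs_sub_comm]
    refine le_trans ?_ (le_abs_self _)
    linarith
  · have h5 : (((z' k : ℕ) + 1 : ℕ) : ℝ) ≤ ((z k : ℕ) : ℝ) := by exact_mod_cast h4
    push_cast at h5
    refine le_trans ?_ (le_abs_self _)
    linarith

/-- the integer displacement -/
def dsp {M : ℕ} (z z' : Fin 3 → Fin M) : Fin 3 → ℤ := fun k => ((z k : ℕ) : ℤ) - ((z' k : ℕ) : ℤ)

theorem cubeAt_dist_le {M : ℕ} {z z' : Fin 3 → Fin M} {a b : E}
    (ha : a ∈ cubeAt z) (hb : b ∈ cubeAt z') {r : ℝ} (hr : 0 ≤ r)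
    (h : ∑ k, ((dsp z z' k : ℝ)) ^ 2 ≤ r ^ 2) : dist a b ≤ 3 * (r + 1) := by
  set W : E := WithLp.toLp 2 (fun k => ((dsp z z' k : ℤ) : ℝ)) with hW
  set D : E := WithLp.toLp 2 (fun k => (a k - 3 * ((z k : ℕ) : ℝ)) - (b k - 3 * ((z' k : ℕ) : ℝ)))
    with hD
  have hWD : a - b = (3:ℝ) • W + D := by
    ext k
    simp only [hW, hD, PiLp.sub_apply, PiLp.add_apply, PiLp.smul_apply, smul_eq_mul, dsp]
    push_cast
    ring
  have hDn : ‖D‖ ≤ 3 := by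
    rw [EuclideanSpace.norm_eq]
    rw [show (3:ℝ) = √(3 ^ 2) by rw [Real.sqrt_sq (by norm_num)]]
    apply Real.sqrt_le_sqrt
    have h1 : ∀ k, ‖D k‖ ^ 2 ≤ 1 := by
      intro k
      have h2 := ha k
      have h3 := hb k
      rw [Set.mem_Icc] at h2 h3
      have h6 : |D k| ≤ 1 := by
        rw [abs_le]
        simp only [hD]
        constructor <;> linarith
      rw [Real.norm_eq_abs]
      have h7 := abs_nonneg (D k)
      nlinarith
    calc ∑ k, ‖D k‖ ^ 2 ≤ ∑ k : Fin 3, (1:ℝ) := Finset.sum_le_sum (fun k _ => h1 k)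
      _ ≤ 3 ^ 2 := by simp; norm_num
  have hWn : ‖W‖ ≤ r := by
    have h8 : ‖W‖ ^ 2 = ∑ k, ((dsp z z' k : ℝ)) ^ 2 := by
      rw [EuclideanSpace.norm_sq_eq]
      refine Finset.sum_congr rfl fun k _ => ?_
      rw [Real.norm_eq_abs, sq_abs]
    rw [← h8] at h
    exact (le_abs_self _).trans (abs_le_of_sq_le_sq h hr)
  rw [dist_eq_norm, hWD]
  calc ‖(3:ℝ) • W + D‖ ≤ ‖(3:ℝ) • W‖ + ‖D‖ := norm_add_le _ _
    _ = 3 * ‖W‖ + ‖D‖ := by rw [norm_smul]; norm_num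
    _ ≤ 3 * r + 3 := by gcongr
    _ = 3 * (r + 1) := by ring

theorem att_ge {c : ℕ → ℝ} (hc : ∀ m, 0 ≤ c m) (hs : Summable c) (r : ℝ) (m₀ : ℕ) :
    ∑ m ∈ range m₀, (if r ≤ (m:ℝ) + 1 then c m / ((m:ℝ) + 1) ^ 3 else 0) ≤ att c r := by
  unfold att
  have hnn : ∀ m : ℕ, 0 ≤ (if r ≤ (m:ℝ) + 1 then c m / ((m:ℝ) + 1) ^ 3 else 0) := by
    intro m
    have := hc m
    split_ifs
    · positivity
    · exact le_rfl
  refine Summable.sum_le_tsum _ (fun m _ => hnn m) ?_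
  refine Summable.of_nonneg_of_le hnn (fun m => ?_) hs
  have := hc m
  split_ifs
  · apply div_le_self this
    apply one_le_pow₀
    have : (0:ℝ) ≤ m := by positivity
    linarith
  · exact this

/-- lower bound for the attraction between two cubes -/
noncomputable def attLow (c : ℕ → ℝ) (m₀ : ℕ) {M : ℕ} (z z' : Fin 3 → Fin M) : ℝ :=
  ∑ m ∈ range m₀, (if 0 ≤ ((m:ℝ) + 1) / 3 - 1 ∧ ∑ k, ((dsp z z' k : ℝ)) ^ 2
    ≤ (((m:ℝ) + 1) / 3 - 1) ^ 2 then c m / ((m:ℝ) + 1) ^ 3 else 0)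

theorem fc_le_of_cubes {K : ℝ} {c : ℕ → ℝ} (hc : ∀ m, 0 ≤ c m) (hs : Summable c) (m₀ : ℕ) {M : ℕ}
    {z z' : Fin 3 → Fin M} (h : z ≠ z') {a b : E} (ha : a ∈ cubeAt z) (hb : b ∈ cubeAt z') :
    fc K c a b ≤ - attLow c m₀ z z' := by
  have h1 := cubeAt_dist_ge h ha hb
  have h2 := att_ge hc hs (dist a b) m₀
  have h3 : attLow c m₀ z z' ≤
      ∑ m ∈ range m₀, (if dist a b ≤ (m:ℝ) + 1 then c m / ((m:ℝ) + 1) ^ 3 else 0) := by
    refine Finset.sum_le_sum fun m _ => ?_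
    have h4 := hc m
    by_cases h5 : 0 ≤ ((m:ℝ) + 1) / 3 - 1 ∧ ∑ k, ((dsp z z' k : ℝ)) ^ 2
      ≤ (((m:ℝ) + 1) / 3 - 1) ^ 2
    · have h6 := cubeAt_dist_le ha hb h5.1 h5.2
      rw [if_pos h5, if_pos (by linarith)]
    · rw [if_neg h5]
      split_ifs
      · positivity
      · exact le_rfl
  unfold fc pot
  rw [if_neg (by linarith)]
  linarith

/-- sum over all ordered pairs of different cubes -/
noncomputable def attSum (c : ℕ → ℝ) (m₀ M : ℕ) : ℝ :=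
  ∑ z : Fin 3 → Fin M, ∑ z' : Fin 3 → Fin M, if z = z' then 0 else attLow c m₀ z z'

theorem offSum_le {K : ℝ} {c : ℕ → ℝ} (hc : ∀ m, 0 ≤ c m) (hs : Summable c) (m₀ : ℕ) {M n : ℕ}
    (e : Fin n ≃ (Fin 3 → Fin M)) {x : Fin n → E} (hx : ∀ i, x i ∈ cubeAt (e i)) :
    offSum (fc K c) x ≤ - attSum c m₀ M := by
  have h1 : attSum c m₀ M = ∑ i, ∑ j, if e i = e j then 0 else attLow c m₀ (e i) (e j) := by
    unfold attSum
    rw [← Equiv.sum_comp e]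
    refine Finset.sum_congr rfl fun i _ => ?_
    rw [← Equiv.sum_comp e]
  rw [h1, offSum, ← Finset.sum_neg_distrib]
  refine Finset.sum_le_sum fun i _ => ?_
  rw [← Finset.sum_neg_distrib]
  refine Finset.sum_le_sum fun j _ => ?_
  by_cases hij : i = j
  · subst hij
    simp
  · have hij' : e i ≠ e j := fun h => hij (e.injective h)
    rw [if_neg hij, if_neg hij']
    exact fc_le_of_cubes hc hs m₀ hij' (hx i) (hx j)

theorem pf_trial_ge {K : ℝ} {c : ℕ → ℝ} (hc : ∀ m, 0 ≤ c m) (hs : Summable c) (μ : ℝ)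
    (m₀ M : ℕ) :
    ENNReal.ofReal (Real.exp (μ * (M:ℝ) ^ 3 + attSum c m₀ M / 2)) ≤
      pf (fc K c) μ (box (3 * (M:ℝ) - 2)) := by
  classical
  set n : ℕ := M ^ 3 with hn
  have hcard : Fintype.card (Fin 3 → Fin M) = n := by simp [hn]
  obtain ⟨e₀⟩ : Nonempty (Fin n ≃ (Fin 3 → Fin M)) := by
    rw [← Fintype.card_eq]
    simp [hn]
  set T : (Fin n ≃ (Fin 3 → Fin M)) → Set (Fin n → E) :=
    fun e => Set.pi Set.univ (fun i => cubeAt (e i)) with hT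
  have hTm : ∀ e, MeasurableSet (T e) := fun e =>
    MeasurableSet.univ_pi fun i => cubeAt_meas (e i)
  have hTd : Pairwise (Function.onFun Disjoint T) := by
    intro e e' hee
    rw [Function.onFun, Set.disjoint_left]
    intro x hx hx'
    apply hee
    ext1 i
    by_contra h
    have h1 := cubeAt_dist_ge h (hx i (Set.mem_univ i)) (hx' i (Set.mem_univ i))
    rw [dist_self] at h1
    linarith
  have hTv : ∀ e, volume (T e) = 1 := by
    intro e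
    rw [hT, volume_pi_pi]
    simp [cubeAt_vol]
  have hsub : (⋃ e, T e) ⊆ Set.pi Set.univ (fun _ : Fin n => box (3 * (M:ℝ) - 2)) := by
    intro x hx
    rw [Set.mem_iUnion] at hx
    obtain ⟨e, he⟩ := hx
    intro i _
    exact cubeAt_subset _ (he i (Set.mem_univ i))
  set C : ℝ≥0∞ := ENNReal.ofReal (Real.exp (μ * (M:ℝ) ^ 3 + attSum c m₀ M / 2)) with hC
  have hint : (n.factorial : ℝ≥0∞) * C ≤
      ∫⁻ x in Set.pi Set.univ (fun _ : Fin n => box (3 * (M:ℝ) - 2)),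
        ENNReal.ofReal (Real.exp (μ * n - offSum (fc K c) x / 2)) := by
    calc (n.factorial : ℝ≥0∞) * C = ∑' e : (Fin n ≃ (Fin 3 → Fin M)), C := by
          rw [tsum_fintype, Finset.sum_const, Finset.card_univ, Fintype.card_equiv e₀,
            Fintype.card_fin, nsmul_eq_mul]
      _ = ∑' e : (Fin n ≃ (Fin 3 → Fin M)), ∫⁻ _ in T e, C := by
          refine tsum_congr fun e => ?_
          rw [setLIntegral_const, hTv, mul_one]
      _ ≤ ∑' e : (Fin n ≃ (Fin 3 → Fin M)), ∫⁻ x in T e,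
            ENNReal.ofReal (Real.exp (μ * n - offSum (fc K c) x / 2)) := by
          refine ENNReal.tsum_le_tsum fun e => ?_
          refine setLIntegral_mono' (hTm e) fun x hx => ?_
          rw [hC]
          apply ENNReal.ofReal_le_ofReal
          apply Real.exp_le_exp.mpr
          have h1 := offSum_le (K := K) hc hs m₀ e (fun i => hx i (Set.mem_univ i))
          have h2 : ((n : ℕ) : ℝ) = (M:ℝ) ^ 3 := by rw [hn]; push_cast; ring
          rw [h2]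
          linarith
      _ = ∫⁻ x in ⋃ e, T e,
            ENNReal.ofReal (Real.exp (μ * n - offSum (fc K c) x / 2)) :=
          (lintegral_iUnion hTm hTd _).symm
      _ ≤ _ := lintegral_mono_set hsub
  have hfac0 : (n.factorial : ℝ≥0∞) ≠ 0 := by
    exact_mod_cast n.factorial_ne_zero
  have hfact : (n.factorial : ℝ≥0∞) ≠ ⊤ := ENNReal.natCast_ne_top _
  have hcpf : C ≤ cpf (fc K c) μ (box (3 * (M:ℝ) - 2)) n := by
    unfold cpf
    calc C = ((n.factorial : ℝ≥0∞))⁻¹ * ((n.factorial : ℝ≥0∞) * C) := by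
          rw [← mul_assoc, ENNReal.inv_mul_cancel hfac0 hfact, one_mul]
      _ ≤ _ := by gcongr
  exact hcpf.trans (ENNReal.le_tsum n)

theorem card_mid {M ρ : ℕ} :
    (M - 2 * ρ) ^ 3 ≤ (univ.filter (fun z : Fin 3 → Fin M =>
      ∀ k, ρ ≤ (z k : ℕ) ∧ (z k : ℕ) + ρ < M)).card := by
  classical
  have h1 : univ.filter (fun z : Fin 3 → Fin M => ∀ k, ρ ≤ (z k : ℕ) ∧ (z k : ℕ) + ρ < M) =
      Fintype.piFinset (fun _ : Fin 3 => univ.filter
        (fun i : Fin M => ρ ≤ (i : ℕ) ∧ (i : ℕ) + ρ < M)) := by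
    ext z
    simp [Fintype.mem_piFinset]
  rw [h1, Fintype.card_piFinset_const]
  apply Nat.pow_le_pow_left
  have h2 : (Finset.Ico ρ (M - ρ)).card ≤
      (univ.filter (fun i : Fin M => ρ ≤ (i : ℕ) ∧ (i : ℕ) + ρ < M)).card := by
    apply Finset.card_le_card_of_surjOn (fun i : Fin M => (i : ℕ))
    intro j hj
    rw [Finset.mem_coe, Finset.mem_Ico] at hj
    refine ⟨⟨j, by omega⟩, ?_, rfl⟩
    rw [Finset.mem_coe, Finset.mem_filter]
    refine ⟨Finset.mem_univ _, ?_⟩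
    simp only
    omega
  rw [Nat.card_Ico] at h2
  omega

theorem card_disp_ge {M ρ : ℕ} {r : ℝ} (hr : r ≤ ρ) :
    ((G_finite r).toFinset.erase 0).card * (M - 2 * ρ) ^ 3 ≤
      (univ.filter (fun p : (Fin 3 → Fin M) × (Fin 3 → Fin M) =>
        p.1 ≠ p.2 ∧ (0 ≤ r ∧ ∑ k, ((dsp p.1 p.2 k : ℝ)) ^ 2 ≤ r ^ 2))).card := by
  classical
  refine le_trans (Nat.mul_le_mul_left _ (card_mid (M := M) (ρ := ρ))) ?_
  rw [← Finset.card_product]
  apply Finset.card_le_card_of_surjOn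
    (fun p : (Fin 3 → Fin M) × (Fin 3 → Fin M) => (dsp p.1 p.2, p.2))
  rintro ⟨w, z'⟩ h
  rw [Finset.mem_coe, Finset.mem_product, Finset.mem_erase, Set.Finite.mem_toFinset,
    Finset.mem_filter] at h
  obtain ⟨⟨hw0, hr0, hw⟩, -, hz'⟩ := h
  simp only at hw0 hw hz'
  have hwk : ∀ k, |w k| ≤ (ρ : ℤ) := by
    intro k
    have h1 : ((w k : ℝ)) ^ 2 ≤ ∑ k, ((w k : ℝ)) ^ 2 :=
      Finset.single_le_sum (f := fun k => ((w k : ℝ)) ^ 2) (fun i _ => sq_nonneg _)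
        (Finset.mem_univ k)
    have h2 : |(w k : ℝ)| ≤ r := abs_le_of_sq_le_sq (h1.trans hw) hr0
    have h3 : ((|w k| : ℤ) : ℝ) ≤ ((ρ : ℤ) : ℝ) := by
      push_cast
      exact h2.trans hr
    exact_mod_cast h3
  have hb : ∀ k, 0 ≤ ((z' k : ℕ) : ℤ) + w k ∧ ((z' k : ℕ) : ℤ) + w k < M := by
    intro k
    have h1 := abs_le.mp (hwk k)
    have h2 := hz' k
    omega
  have hd : dsp (fun k => (⟨(((z' k : ℕ) : ℤ) + w k).toNat, by
      have := hb k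
      omega⟩ : Fin M)) z' = w := by
    funext k
    have := hb k
    simp only [dsp]
    omega
  refine ⟨(fun k => ⟨(((z' k : ℕ) : ℤ) + w k).toNat, by
      have := hb k
      omega⟩, z'), ?_, ?_⟩
  · rw [Finset.mem_coe, Finset.mem_filter]
    refine ⟨Finset.mem_univ _, ?_, hr0, ?_⟩
    · simp only
      intro h
      apply hw0
      rw [← hd, h]
      funext k
      simp [dsp]
    · simp only
      rw [hd]
      exact hw
  · simp only
    rw [hd]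

theorem max_g_le (r : ℝ) :
    max 0 ((G r : ℝ) - 1) ≤ (((G_finite r).toFinset.erase 0).card : ℝ) := by
  apply max_le (by positivity)
  have h1 : (G_finite r).toFinset.card - 1 ≤ ((G_finite r).toFinset.erase 0).card :=
    Finset.pred_card_le_card_erase
  have h2 : (G_finite r).toFinset.card = G r := by
    rw [G, Set.ncard_eq_toFinset_card _ (G_finite _)]
  rw [h2] at h1
  have h3 : G r ≤ ((G_finite r).toFinset.erase 0).card + 1 := by omega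
  have h4 : ((G r : ℕ) : ℝ) ≤ ((((G_finite r).toFinset.erase 0).card + 1 : ℕ) : ℝ) := by
    exact_mod_cast h3
  push_cast at h4
  linarith

theorem attSum_eq (c : ℕ → ℝ) (m₀ M : ℕ) :
    attSum c m₀ M = ∑ m ∈ range m₀, c m / ((m:ℝ) + 1) ^ 3 *
      ((univ.filter (fun p : (Fin 3 → Fin M) × (Fin 3 → Fin M) =>
        p.1 ≠ p.2 ∧ (0 ≤ ((m:ℝ) + 1) / 3 - 1 ∧ ∑ k, ((dsp p.1 p.2 k : ℝ)) ^ 2
          ≤ (((m:ℝ) + 1) / 3 - 1) ^ 2))).card : ℝ) := by
  classical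
  have h1 : attSum c m₀ M = ∑ p : (Fin 3 → Fin M) × (Fin 3 → Fin M), ∑ m ∈ range m₀,
      if (p.1 ≠ p.2 ∧ (0 ≤ ((m:ℝ) + 1) / 3 - 1 ∧ ∑ k, ((dsp p.1 p.2 k : ℝ)) ^ 2
          ≤ (((m:ℝ) + 1) / 3 - 1) ^ 2)) then c m / ((m:ℝ) + 1) ^ 3 else 0 := by
    rw [attSum, Fintype.sum_prod_type]
    refine Finset.sum_congr rfl fun z _ => Finset.sum_congr rfl fun z' _ => ?_
    by_cases h : z = z'
    · rw [if_pos h]
      symm
      refine Finset.sum_eq_zero fun m _ => ?_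
      rw [if_neg (fun h' => h'.1 h)]
    · rw [if_neg h, attLow]
      refine Finset.sum_congr rfl fun m _ => ?_
      simp only [ne_eq, h, not_false_eq_true, true_and]
  rw [h1, Finset.sum_comm]
  refine Finset.sum_congr rfl fun m _ => ?_
  rw [← Finset.sum_filter, Finset.sum_const, nsmul_eq_mul, mul_comm]

/-- number of nonzero `z ∈ ℤ³` with `3(|z|+1) ≤ R` -/
noncomputable def g (R : ℝ) : ℝ := (G (R / 3 - 1) : ℝ) - 1

theorem attSum_ge {c : ℕ → ℝ} (hc : ∀ m, 0 ≤ c m) (m₀ M : ℕ) :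
    ((M - 2 * m₀ : ℕ) : ℝ) ^ 3 *
      ∑ m ∈ range m₀, c m / ((m:ℝ) + 1) ^ 3 * max 0 (g ((m:ℝ) + 1)) ≤ attSum c m₀ M := by
  rw [attSum_eq, Finset.mul_sum]
  refine Finset.sum_le_sum fun m hm => ?_
  rw [Finset.mem_range] at hm
  have h1 : ((m:ℝ) + 1) / 3 - 1 ≤ (m₀ : ℝ) := by
    have h2 : (m:ℝ) + 1 ≤ m₀ := by exact_mod_cast hm
    have h3 : (0:ℝ) ≤ m := by positivity
    linarith
  have h2 := card_disp_ge (M := M) h1
  have h3 := max_g_le (((m:ℝ) + 1) / 3 - 1)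
  have h4 : (0:ℝ) ≤ c m / ((m:ℝ) + 1) ^ 3 := div_nonneg (hc m) (by positivity)
  have h5 : ((((G_finite (((m:ℝ) + 1) / 3 - 1)).toFinset.erase 0).card * (M - 2 * m₀) ^ 3 : ℕ) : ℝ)
      ≤ ((univ.filter (fun p : (Fin 3 → Fin M) × (Fin 3 → Fin M) =>
        p.1 ≠ p.2 ∧ (0 ≤ ((m:ℝ) + 1) / 3 - 1 ∧ ∑ k, ((dsp p.1 p.2 k : ℝ)) ^ 2
          ≤ (((m:ℝ) + 1) / 3 - 1) ^ 2))).card : ℝ) := by exact_mod_cast h2
  rw [Nat.cast_mul, Nat.cast_pow] at h5
  calc ((M - 2 * m₀ : ℕ) : ℝ) ^ 3 * (c m / ((m:ℝ) + 1) ^ 3 * max 0 (g ((m:ℝ) + 1)))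
      = c m / ((m:ℝ) + 1) ^ 3 * (max 0 (g ((m:ℝ) + 1)) * ((M - 2 * m₀ : ℕ) : ℝ) ^ 3) := by ring
    _ ≤ _ := by
        apply mul_le_mul_of_nonneg_left _ h4
        refine le_trans ?_ h5
        apply mul_le_mul_of_nonneg_right h3
        positivity

theorem trial_core {K : ℝ} {c : ℕ → ℝ} (hc : ∀ m, 0 ≤ c m) (hs : Summable c) (μ P : ℝ)
    (hP : ∀ L : ℝ, 0 < L → pf (fc K c) μ (box L) ≤
      ENNReal.ofReal (Real.exp ((L + 2) ^ 3 * P))) :
    (1 / 27) * (μ + (1 / 2) * ∑' m : ℕ, c m / ((m:ℝ) + 1) ^ 3 * max 0 (g ((m:ℝ) + 1))) ≤ P := by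
  have hmain : ∀ m₀ : ℕ, ∑ m ∈ range m₀, c m / ((m:ℝ) + 1) ^ 3 * max 0 (g ((m:ℝ) + 1))
      ≤ 2 * (27 * P - μ) := by
    intro m₀
    set A : ℝ := ∑ m ∈ range m₀, c m / ((m:ℝ) + 1) ^ 3 * max 0 (g ((m:ℝ) + 1)) with hA
    have h1 : ∀ M : ℕ, 1 ≤ M → μ * (M:ℝ) ^ 3 + ((M - 2 * m₀ : ℕ) : ℝ) ^ 3 * A / 2
        ≤ 27 * (M:ℝ) ^ 3 * P := by
      intro M hM
      have hM' : (1:ℝ) ≤ M := by exact_mod_cast hM
      have h2 := pf_trial_ge (K := K) hc hs μ m₀ M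
      have h3 := hP (3 * (M:ℝ) - 2) (by linarith)
      have h4 := h2.trans h3
      rw [ENNReal.ofReal_le_ofReal_iff (Real.exp_pos _).le, Real.exp_le_exp] at h4
      have h5 := attSum_ge hc m₀ M
      rw [← hA] at h5
      have h6 : (3 * (M:ℝ) - 2 + 2) ^ 3 * P = 27 * (M:ℝ) ^ 3 * P := by ring
      rw [h6] at h4
      linarith
    have h2 : ∀ᶠ M : ℕ in atTop, μ + (1 - 2 * (m₀:ℝ) / M) ^ 3 * A / 2 ≤ 27 * P := by
      filter_upwards [eventually_ge_atTop (max 1 (2 * m₀))] with M hM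
      have hM1 : 1 ≤ M := le_of_max_le_left hM
      have hM2 : 2 * m₀ ≤ M := le_of_max_le_right hM
      have h3 := h1 M hM1
      have hMpos : (0:ℝ) < M := by exact_mod_cast hM1
      have h4 : ((M - 2 * m₀ : ℕ) : ℝ) = M * (1 - 2 * (m₀:ℝ) / M) := by
        rw [Nat.cast_sub hM2]
        push_cast
        field_simp
      rw [h4] at h3
      have h5 : (M:ℝ) ^ 3 * (μ + (1 - 2 * (m₀:ℝ) / M) ^ 3 * A / 2) ≤ (M:ℝ) ^ 3 * (27 * P) := by
        calc (M:ℝ) ^ 3 * (μ + (1 - 2 * (m₀:ℝ) / M) ^ 3 * A / 2)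
            = μ * (M:ℝ) ^ 3 + (M * (1 - 2 * (m₀:ℝ) / M)) ^ 3 * A / 2 := by ring
          _ ≤ 27 * (M:ℝ) ^ 3 * P := h3
          _ = (M:ℝ) ^ 3 * (27 * P) := by ring
      exact le_of_mul_le_mul_left h5 (by positivity)
    have h3 : Tendsto (fun M : ℕ => μ + (1 - 2 * (m₀:ℝ) / M) ^ 3 * A / 2) atTop
        (𝓝 (μ + (1 - 0) ^ 3 * A / 2)) := by
      have h4 : Tendsto (fun M : ℕ => 2 * (m₀:ℝ) / M) atTop (𝓝 0) :=
        tendsto_const_div_atTop_nhds_zero_nat _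
      exact ((((h4.const_sub 1).pow 3).mul_const A).div_const 2).const_add μ
    have h4 := le_of_tendsto h3 h2
    linarith
  have hnn : ∀ m : ℕ, 0 ≤ c m / ((m:ℝ) + 1) ^ 3 * max 0 (g ((m:ℝ) + 1)) := fun m =>
    mul_nonneg (div_nonneg (hc m) (by positivity)) (le_max_left _ _)
  have h5 := Real.tsum_le_of_sum_range_le hnn hmain
  linarith

end Vale.Agent.P171
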