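import Mathlib
import Vale.Agent.P171.Defs
import Vale.Agent.P171.Split
import Vale.Agent.P171.Thermo
import Vale.Agent.P171.TrialCore

/-!
Lower bound for the pressure functional by trial configurations.
-/

namespace Vale.Agent.P171

open MeasureTheory Finset Filter Topology
open scoped ENNReal BigOperators

theorem trial {K : ℝ} {c : ℕ → ℝ} (hc : ∀ m, 0 ≤ c m) (hs : Summable c) {B : ℝ}
    (hf : IsStab (fc K c) B) (μ : ℝ) :
    (1 / 27) * (μ + (1 / 2) * ∑' m : ℕ, c m / ((m:ℝ) + 1) ^ 3 * max 0 (g ((m:ℝ) + 1)))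
      ≤ Pr (fc K c) μ :=
  trial_core hc hs μ _ (fun _ hL => pf_le_exp_Pr hf μ hL)

end Vale.Agent.P171
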