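import Mathlib
import Vale.Agent.P171.Defs
import Vale.Agent.P171.Split
import Vale.Agent.P171.Count
import Vale.Agent.P171.Thermo
import Vale.Agent.P171.Pot
import Vale.Agent.P171.Upper1
import Vale.Agent.P171.Upper2
import Vale.Agent.P171.Upper3

namespace Vale.Agent.P171

open MeasureTheory Finset Filter Topology
open scoped ENNReal BigOperators

/-- the exponent bound for `n ≤ ρ ℓ³` -/
theorem exponent_le {V s P p₁ η μ K ε a ρ q Pt : ℝ} {n : ℕ} (hV : 0 < V) (hs : 1 ≤ s)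
    (hp : 0 ≤ p₁) (hε : 0 ≤ ε) (hK : 0 ≤ K)
    (ha : 0 ≤ a) (hq : q = a / V) (haρ : a * ρ ≤ η) (hn : (n:ℝ) ≤ ρ * V)
    (hPt : Pt ≤ P + p₁ * (q * n)) :
    s * V * Pt - q * (n:ℝ) ^ 2 / 2 + ε * (V + (K / 2 + |μ + q * n|) * n)
      ≤ V * (P + a * p₁ ^ 2 / 2 + (s - 1) * (P + p₁ * η) + ε * (1 + (K / 2 + |μ| + η) * ρ)) := by
  set r : ℝ := n / V with hr
  have hn0 : (0:ℝ) ≤ n := Nat.cast_nonneg n
  have hr0 : 0 ≤ r := div_nonneg hn0 hV.le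
  have hrρ : r ≤ ρ := by rw [hr, div_le_iff₀ hV]; exact hn
  have hnr : (n:ℝ) = r * V := by rw [hr]; field_simp
  have hqn : q * n = a * r := by rw [hq, hnr]; field_simp
  have hqn2 : q * (n:ℝ) ^ 2 = a * r ^ 2 * V := by rw [hq, hnr]; field_simp
  have har : a * r ≤ η := (mul_le_mul_of_nonneg_left hrρ ha).trans haρ
  have har0 : 0 ≤ a * r := mul_nonneg ha hr0
  have hη : 0 ≤ η := har0.trans har
  rw [hqn] at hPt
  rw [hqn, hqn2]
  have h1 : s * V * Pt ≤ s * V * (P + p₁ * (a * r)) :=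
    mul_le_mul_of_nonneg_left hPt (by positivity)
  have h2 : |μ + a * r| ≤ |μ| + η := (abs_add_le _ _).trans (by rw [abs_of_nonneg har0]; linarith)
  have h3 : (K / 2 + |μ + a * r|) * n ≤ V * ((K / 2 + |μ| + η) * ρ) := by
    rw [hnr]
    have : (K / 2 + |μ + a * r|) * r ≤ (K / 2 + |μ| + η) * ρ :=
      mul_le_mul (by linarith) hrρ hr0 (by positivity)
    calc (K / 2 + |μ + a * r|) * (r * V) = V * ((K / 2 + |μ + a * r|) * r) := by ring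
      _ ≤ _ := mul_le_mul_of_nonneg_left this hV.le
  have h4 : ε * (V + (K / 2 + |μ + a * r|) * n) ≤ ε * (V + V * ((K / 2 + |μ| + η) * ρ)) :=
    mul_le_mul_of_nonneg_left (by linarith) hε
  have h5 : (s - 1) * (p₁ * (a * r)) ≤ (s - 1) * (p₁ * η) :=
    mul_le_mul_of_nonneg_left (mul_le_mul_of_nonneg_left har hp) (by linarith)
  have h6 : p₁ * (a * r) - a * r ^ 2 / 2 ≤ a * p₁ ^ 2 / 2 := by
    nlinarith [mul_nonneg ha (sq_nonneg (p₁ - r))]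
  have h7 : s * (P + p₁ * (a * r)) - a * r ^ 2 / 2 ≤ P + a * p₁ ^ 2 / 2 + (s - 1) * (P + p₁ * η) := by
    nlinarith
  have h8 := mul_le_mul_of_nonneg_left h7 hV.le
  nlinarith

/-- bound on the decoupled single cell partition function -/
theorem pf_fflat_le {K : ℝ} {c : ℕ → ℝ} (hc : ∀ m, 0 ≤ c m) (hs : Summable c)
    {ℓ : ℕ} (hℓ : 0 < ℓ) {ε q μ ρ η p₁ : ℝ} (hε0 : 0 ≤ ε) (hε1 : ε ≤ 1)
    (hKJ : 343 * ∑' m, c m + 3 ≤ K) (hq : 0 ≤ q) (ha : q * (ℓ:ℝ) ^ 3 ≤ 1)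
    (hρ1 : 1 ≤ ρ) (hρ2 : 2 * (μ + K / 2 + 1) ≤ ρ) (haρ : q * (ℓ:ℝ) ^ 3 * ρ ≤ η) (hp : 0 ≤ p₁)
    (hlin : ∀ t ∈ Set.Icc μ (μ + η), Pr (fc K c) t ≤ Pr (fc K c) μ + p₁ * (t - μ)) :
    pf (fflat K c ℓ ε q) (μ + (ε + q) / 2) (cellSet ℓ 0) ≤
      ENNReal.ofReal ((ρ * (ℓ:ℝ) ^ 3 + 2) * Real.exp ((ℓ:ℝ) ^ 3 *
        (Pr (fc K c) μ + q * (ℓ:ℝ) ^ 3 * p₁ ^ 2 / 2
          + ((1 + 2 / (ℓ:ℝ)) ^ 3 - 1) * (Pr (fc K c) μ + p₁ * η)
          + ε * (1 + (K / 2 + |μ| + η) * ρ)))) := by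
  have hl' : (0:ℝ) < (ℓ:ℝ) := by positivity
  set V : ℝ := (ℓ:ℝ) ^ 3 with hVdef
  have hV : 0 < V := by positivity
  have hc0 : 0 ≤ ∑' m, c m := tsum_nonneg hc
  have hK : 0 ≤ K := by linarith
  have hst : IsStab (fc K c) (K / 2) := isStab_fc hc hs (by linarith)
  set P := Pr (fc K c) μ with hP
  have hP0 : 0 ≤ P := Pr_nonneg hst μ
  have hρ0 : 0 ≤ ρ := by linarith
  set s : ℝ := (1 + 2 / (ℓ:ℝ)) ^ 3 with hsdef
  have hs1 : 1 ≤ s := by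
    rw [hsdef]
    have : (0:ℝ) ≤ 2 / (ℓ:ℝ) := by positivity
    exact one_le_pow₀ (by linarith)
  have hsV : s * V = ((ℓ:ℝ) + 2) ^ 3 := by
    rw [hsdef, hVdef, ← mul_pow]; congr 1; field_simp
  set a := q * V with hadef
  have ha0 : 0 ≤ a := mul_nonneg hq hV.le
  have hqa : q = a / V := by rw [hadef]; field_simp
  have hη : 0 ≤ η := (mul_nonneg ha0 hρ0).trans haρ
  set Φ : ℝ := P + a * p₁ ^ 2 / 2 + (s - 1) * (P + p₁ * η) + ε * (1 + (K / 2 + |μ| + η) * ρ) with hΦ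
  have hΦ0 : 0 ≤ Φ := by
    have : 0 ≤ s - 1 := by linarith
    have h2 : 0 ≤ a * p₁ ^ 2 / 2 := by positivity
    have h3 : 0 ≤ (s - 1) * (P + p₁ * η) := mul_nonneg this (by positivity)
    have h4 : 0 ≤ ε * (1 + (K / 2 + |μ| + η) * ρ) := by positivity
    linarith
  set w : ℕ → ℝ≥0∞ := fun n => cpf (fflat K c ℓ ε q) (μ + (ε + q) / 2) (cellSet ℓ 0) n with hw
  -- small n
  have hsmall : ∀ n : ℕ, (n:ℝ) ≤ ρ * V → w n ≤ ENNReal.ofReal (Real.exp (V * Φ)) := by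
    intro n hn
    refine (cpf_fflat_holder hc hs hℓ hε0 hε1 (by linarith) n).trans ?_
    apply ENNReal.ofReal_le_ofReal
    apply Real.exp_le_exp.mpr
    rw [← hVdef, ← hsV]
    have hqn0 : 0 ≤ q * n := mul_nonneg hq (Nat.cast_nonneg n)
    have hqn : q * n ≤ η := by
      calc q * n ≤ q * (ρ * V) := mul_le_mul_of_nonneg_left hn hq
        _ = a * ρ := by rw [hadef]; ring
        _ ≤ η := haρ
    have hPt := hlin (μ + q * n) ⟨by linarith, by linarith⟩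
    rw [add_sub_cancel_left] at hPt
    exact exponent_le hV hs1 hp hε0 hK ha0 hqa haρ hn hPt
  -- large n
  have hlarge : ∀ n : ℕ, ρ * V < (n:ℝ) → w n ≤ ENNReal.ofReal (V ^ n / n.factorial * Real.exp (-V)) := by
    intro n hn
    refine (cpf_fflat_crude hc hs hK hℓ (by linarith) n).trans ?_
    apply ENNReal.ofReal_le_ofReal
    rw [← hVdef]
    apply mul_le_mul_of_nonneg_left _ (by positivity)
    apply Real.exp_le_exp.mpr
    have hn0 : (0:ℝ) ≤ n := Nat.cast_nonneg n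
    have h1 : q * (n:ℝ)^2 = a * ((n:ℝ)^2 / V) := by rw [hadef]; field_simp
    have h2 : 0 ≤ (n:ℝ)^2 / V := by positivity
    have h3 : ρ * n ≤ (n:ℝ)^2 / V := by
      rw [le_div_iff₀ hV]
      calc ρ * n * V = n * (ρ * V) := by ring
        _ ≤ n * n := mul_le_mul_of_nonneg_left hn.le hn0
        _ = (n:ℝ)^2 := by ring
    have h4 : 1 ≤ K - 343 * ∑' m, c m - ε - a := by linarith
    have h5 : (n:ℝ)^2 / V ≤ (K - 343 * ∑' m, c m - ε - a) * ((n:ℝ)^2 / V) :=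
      le_mul_of_one_le_left h2 h4
    have h6 : 2 * (μ + K / 2 + 1) * n ≤ ρ * n := mul_le_mul_of_nonneg_right hρ2 hn0
    have h7 : V ≤ n := by nlinarith
    nlinarith
  -- summation
  have hsplit : pf (fflat K c ℓ ε q) (μ + (ε + q) / 2) (cellSet ℓ 0) ≤
      (∑ n ∈ Finset.range (⌊ρ * V⌋₊ + 1), ENNReal.ofReal (Real.exp (V * Φ)))
        + ∑' n : ℕ, ENNReal.ofReal (V ^ n / n.factorial * Real.exp (-V)) := by
    unfold pf
    have h1 : ∀ n, cpf (fflat K c ℓ ε q) (μ + (ε + q) / 2) (cellSet ℓ 0) n ≤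
        (if n ∈ Finset.range (⌊ρ * V⌋₊ + 1) then ENNReal.ofReal (Real.exp (V * Φ)) else 0)
          + ENNReal.ofReal (V ^ n / n.factorial * Real.exp (-V)) := by
      intro n
      by_cases hn : (n:ℝ) ≤ ρ * V
      · have : n ∈ Finset.range (⌊ρ * V⌋₊ + 1) := by
          rw [Finset.mem_range, Nat.lt_succ_iff]
          exact Nat.le_floor hn
        rw [if_pos this]
        exact (hsmall n hn).trans le_self_add
      · exact (hlarge n (not_le.mp hn)).trans le_add_self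
    refine (ENNReal.tsum_le_tsum h1).trans ?_
    rw [ENNReal.tsum_add]
    refine add_le_add_left (le_of_eq ?_) _
    rw [tsum_eq_sum (s := Finset.range (⌊ρ * V⌋₊ + 1))]
    · exact Finset.sum_congr rfl fun n hn => if_pos hn
    · intro n hn; exact if_neg hn
  refine hsplit.trans ?_
  have htail : ∑' n : ℕ, ENNReal.ofReal (V ^ n / n.factorial * Real.exp (-V)) = 1 := by
    rw [← ENNReal.ofReal_tsum_of_nonneg (fun n => by positivity)]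
    · rw [tsum_mul_right]
      have : ∑' n : ℕ, V ^ n / n.factorial = Real.exp V := by
        rw [Real.exp_eq_exp_ℝ, NormedSpace.exp_eq_tsum_div]
      rw [this, ← Real.exp_add]; simp
    · exact (Real.summable_pow_div_factorial V).mul_right _
  rw [htail, Finset.sum_const, Finset.card_range, nsmul_eq_mul]
  have hcast : ((⌊ρ * V⌋₊ + 1 : ℕ) : ℝ≥0∞) ≤ ENNReal.ofReal (ρ * V + 1) := by
    rw [← ENNReal.ofReal_natCast]
    apply ENNReal.ofReal_le_ofReal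
    push_cast
    have := Nat.floor_le (show 0 ≤ ρ * V by positivity)
    linarith
  calc ((⌊ρ * V⌋₊ + 1 : ℕ) : ℝ≥0∞) * ENNReal.ofReal (Real.exp (V * Φ)) + 1
      ≤ ENNReal.ofReal (ρ * V + 1) * ENNReal.ofReal (Real.exp (V * Φ)) + ENNReal.ofReal (Real.exp (V * Φ)) := by
        refine add_le_add (mul_le_mul_left hcast _) ?_
        rw [← ENNReal.ofReal_one]
        exact ENNReal.ofReal_le_ofReal (Real.one_le_exp (mul_nonneg hV.le hΦ0))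
    _ = ENNReal.ofReal ((ρ * V + 2) * Real.exp (V * Φ)) := by
        rw [← ENNReal.ofReal_mul (by positivity), ← ENNReal.ofReal_add (by positivity) (by positivity)]
        congr 1; ring

/-- explicit upper bound for the perturbed pressure -/
theorem Pr_upper {K : ℝ} {c : ℕ → ℝ} (hc : ∀ m, 0 ≤ c m) (hs : Summable c)
    {ℓ : ℕ} (hℓ : 0 < ℓ) {lam : ℝ} (hlam : 0 ≤ lam) (m₀ : ℕ) {μ ρ η p₁ : ℝ}
    (hε1 : eps ℓ c ≤ 1) (hKJ : 343 * ∑' m, c m + 3 ≤ K) (hKJ2 : 343 * (∑' m, c m + lam) ≤ K)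
    (ha : qq ℓ lam m₀ * (ℓ:ℝ) ^ 3 ≤ 1)
    (hρ1 : 1 ≤ ρ) (hρ2 : 2 * (μ + K / 2 + 1) ≤ ρ) (haρ : qq ℓ lam m₀ * (ℓ:ℝ) ^ 3 * ρ ≤ η) (hp : 0 ≤ p₁)
    (hlin : ∀ t ∈ Set.Icc μ (μ + η), Pr (fc K c) t ≤ Pr (fc K c) μ + p₁ * (t - μ)) :
    Pr (fc K (c + Pi.single m₀ lam)) μ ≤ Real.log (ρ * (ℓ:ℝ) ^ 3 + 2) / (ℓ:ℝ) ^ 3 +
        (Pr (fc K c) μ + qq ℓ lam m₀ * (ℓ:ℝ) ^ 3 * p₁ ^ 2 / 2
          + ((1 + 2 / (ℓ:ℝ)) ^ 3 - 1) * (Pr (fc K c) μ + p₁ * η)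
          + eps ℓ c * (1 + (K / 2 + |μ| + η) * ρ)) := by
  have hq : 0 ≤ qq ℓ lam m₀ := by unfold qq; positivity
  have hV : (0:ℝ) < (ℓ:ℝ) ^ 3 := by positivity
  have hb := pf_fflat_le hc hs hℓ (eps_nonneg hc) hε1 hKJ hq ha hρ1 hρ2 haρ hp hlin
  have hfin : pf (fflat K c ℓ (eps ℓ c) (qq ℓ lam m₀)) (μ + (eps ℓ c + qq ℓ lam m₀) / 2)
        (cellSet ℓ 0) ≠ ⊤ := ne_top_of_le_ne_top ENNReal.ofReal_ne_top hb
  refine (Pr_le_cell hc hs hℓ hlam m₀ μ hKJ2 hfin).trans ?_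
  have h1 : 1 ≤ (pf (fflat K c ℓ (eps ℓ c) (qq ℓ lam m₀)) (μ + (eps ℓ c + qq ℓ lam m₀) / 2)
        (cellSet ℓ 0)).toReal := by
    rw [← ENNReal.toReal_one]
    exact (ENNReal.toReal_le_toReal (by simp) hfin).mpr (one_le_pf _)
  have h2 := ENNReal.toReal_le_of_le_ofReal (by positivity) hb
  rw [div_le_iff₀ hV]
  refine (Real.log_le_log (by linarith) h2).trans ?_
  rw [Real.log_mul (by positivity) (Real.exp_pos _).ne', Real.log_exp]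
  have e : ∀ A B : ℝ, A + (ℓ:ℝ) ^ 3 * B ≤ (A / (ℓ:ℝ) ^ 3 + B) * (ℓ:ℝ) ^ 3 := by
    intro A B
    have : (A / (ℓ:ℝ) ^ 3 + B) * (ℓ:ℝ) ^ 3 = A + (ℓ:ℝ) ^ 3 * B := by field_simp
    rw [this]
  exact e _ _

end Vale.Agent.P171
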