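import Mathlib
import Vale.Agent.P171.Defs
import Vale.Agent.P171.Split
import Vale.Agent.P171.Count
import Vale.Agent.P171.Thermo
import Vale.Agent.P171.Pot
import Vale.Agent.P171.Upper1
import Vale.Agent.P171.Upper4

namespace Vale.Agent.P171

open MeasureTheory Finset Filter Topology
open scoped ENNReal BigOperators

theorem tendsto_eps {c : ℕ → ℝ} (hc : ∀ m, 0 ≤ c m) (hs : Summable c) :
    Tendsto (fun ℓ : ℕ => eps ℓ c) atTop (𝓝 0) := by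
  unfold eps
  have h : Tendsto (fun ℓ : ℕ => ∑' m : ℕ, c m * min 1 (3 * ((m : ℝ) + 2) / ℓ)) atTop
      (𝓝 (∑' m : ℕ, (0:ℝ))) := by
    refine tendsto_tsum_of_dominated_convergence (bound := c) hs ?_ ?_
    · intro m
      have h1 : Tendsto (fun ℓ : ℕ => 3 * ((m : ℝ) + 2) / ℓ) atTop (𝓝 0) :=
        tendsto_const_div_atTop_nhds_zero_nat _
      have h2 : Tendsto (fun ℓ : ℕ => min 1 (3 * ((m : ℝ) + 2) / ℓ)) atTop (𝓝 (min 1 0)) :=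
        tendsto_const_nhds.min h1
      have h3 := h2.const_mul (c m)
      simpa using h3
    · refine Eventually.of_forall fun ℓ m => ?_
      rw [Real.norm_eq_abs, abs_of_nonneg (mul_nonneg (hc m) (min_nonneg' ℓ m))]
      exact mul_le_of_le_one_right (hc m) (min_le_left _ _)
  simpa using h.const_mul 343

theorem tendsto_qq {κ : ℝ} (hκ : Tendsto (fun r : ℝ => (G r : ℝ) / r ^ 3) atTop (𝓝 κ))
    {ℓ : ℕ} (hℓ : 0 < ℓ) (lam : ℝ) :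
    Tendsto (fun m : ℕ => qq ℓ lam m * (ℓ:ℝ) ^ 3) atTop (𝓝 (lam * κ)) := by
  have hl : (0:ℝ) < ℓ := by positivity
  have hr : Tendsto (fun m : ℕ => ((m : ℝ) + 1) / ℓ + 2) atTop atTop := by
    refine tendsto_atTop_add_const_right _ _ ?_
    refine Tendsto.atTop_div_const hl ?_
    exact tendsto_atTop_add_const_right _ _ tendsto_natCast_atTop_atTop
  have h1 := hκ.comp hr
  have h2 : Tendsto (fun m : ℕ => (1 + 2 * (ℓ:ℝ) * (1 / ((m:ℝ) + 1))) ^ 3) atTop (𝓝 ((1 + 2 * (ℓ:ℝ) * 0) ^ 3)) :=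
    (tendsto_const_nhds.add (tendsto_one_div_add_atTop_nhds_zero_nat.const_mul _)).pow 3
  have h3 := (h1.mul h2).const_mul lam
  have e : lam * (κ * (1 + 2 * (ℓ:ℝ) * 0) ^ 3) = lam * κ := by ring
  rw [e] at h3
  refine h3.congr fun m => ?_
  have hm : (0:ℝ) < (m:ℝ) + 1 := by positivity
  simp only [Function.comp]
  unfold qq
  have hx : ((m : ℝ) + 1) / ℓ + 2 = ((m:ℝ) + 1) / ℓ * (1 + 2 * (ℓ:ℝ) * (1 / ((m:ℝ) + 1))) := by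
    field_simp
  set u := (G (((m : ℝ) + 1) / ℓ + 2) : ℝ)
  have hy : (((m : ℝ) + 1) / ℓ + 2) ^ 3 = (((m:ℝ) + 1) / ℓ) ^ 3 * (1 + 2 * (ℓ:ℝ) * (1 / ((m:ℝ) + 1))) ^ 3 := by
    rw [hx, mul_pow]
  have hz : (0:ℝ) < (1 + 2 * (ℓ:ℝ) * (1 / ((m:ℝ) + 1))) ^ 3 := by positivity
  rw [hy]
  set w := (1 + 2 * (ℓ:ℝ) * (1 / ((m:ℝ) + 1))) ^ 3
  field_simp

theorem tendsto_log_err {ρ : ℝ} (hρ : 1 ≤ ρ) :
    Tendsto (fun ℓ : ℕ => Real.log (ρ * (ℓ:ℝ) ^ 3 + 2) / (ℓ:ℝ) ^ 3) atTop (𝓝 0) := by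
  have h1 : Tendsto (fun x : ℝ => Real.log x / x) atTop (𝓝 0) := by
    have := Real.isLittleO_log_id_atTop
    exact this.tendsto_div_nhds_zero
  have h2 : Tendsto (fun ℓ : ℕ => ρ * (ℓ:ℝ) ^ 3 + 2) atTop atTop := by
    refine tendsto_atTop_add_const_right _ _ ?_
    refine Tendsto.const_mul_atTop (by linarith) ?_
    exact (tendsto_pow_atTop (by norm_num)).comp tendsto_natCast_atTop_atTop
  have h3 := h1.comp h2
  have h4 : Tendsto (fun ℓ : ℕ => ρ + 2 * (1 / (ℓ:ℝ)) ^ 3) atTop (𝓝 (ρ + 2 * 0 ^ 3)) :=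
    tendsto_const_nhds.add ((tendsto_one_div_atTop_nhds_zero_nat.pow 3).const_mul 2)
  have h5 := h3.mul h4
  rw [zero_mul] at h5
  refine h5.congr' ?_
  filter_upwards [eventually_gt_atTop 0] with ℓ hℓ
  have hl : (0:ℝ) < ℓ := by exact_mod_cast hℓ
  simp only [Function.comp]
  have : 0 < ρ * (ℓ:ℝ) ^ 3 + 2 := by positivity
  set L := Real.log (ρ * (ℓ:ℝ) ^ 3 + 2)
  have e : ρ + 2 * (1 / (ℓ:ℝ)) ^ 3 = (ρ * (ℓ:ℝ) ^ 3 + 2) / (ℓ:ℝ) ^ 3 := by field_simp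
  rw [e]
  field_simp

/-- upper bound for the pressure perturbed by a long range attraction -/
theorem Pr_upper_limit {K κ : ℝ} (hκ : Tendsto (fun r : ℝ => (G r : ℝ) / r ^ 3) atTop (𝓝 κ))
    {c : ℕ → ℝ} (hc : ∀ m, 0 ≤ c m) (hs : Summable c) {lam : ℝ} (hlam : 0 ≤ lam) {μ ρ η p₁ : ℝ}
    (hKJ : 343 * ∑' m, c m + 3 ≤ K) (hKJ2 : 343 * (∑' m, c m + lam) ≤ K)
    (hρ1 : 1 ≤ ρ) (hρ2 : 2 * (μ + K / 2 + 1) ≤ ρ) (hp : 0 ≤ p₁)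
    (h1 : lam * κ < 1) (h2 : lam * κ * ρ < η)
    (hlin : ∀ t ∈ Set.Icc μ (μ + η), Pr (fc K c) t ≤ Pr (fc K c) μ + p₁ * (t - μ))
    {δ : ℝ} (hδ : 0 < δ) :
    ∀ᶠ m : ℕ in atTop, Pr (fc K (c + Pi.single m lam)) μ
      ≤ Pr (fc K c) μ + lam * κ * p₁ ^ 2 / 2 + δ := by
  have hδ4 : 0 < δ / 4 := by linarith
  have e1 : ∀ᶠ ℓ : ℕ in atTop, eps ℓ c < 1 := (tendsto_eps hc hs).eventually_lt_const zero_lt_one
  have e2 : ∀ᶠ ℓ : ℕ in atTop, Real.log (ρ * (ℓ:ℝ) ^ 3 + 2) / (ℓ:ℝ) ^ 3 < δ / 4 :=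
    (tendsto_log_err hρ1).eventually_lt_const hδ4
  have e3 : ∀ᶠ ℓ : ℕ in atTop, ((1 + 2 / (ℓ:ℝ)) ^ 3 - 1) * (Pr (fc K c) μ + p₁ * η) < δ / 4 := by
    have : Tendsto (fun ℓ : ℕ => ((1 + 2 / (ℓ:ℝ)) ^ 3 - 1) * (Pr (fc K c) μ + p₁ * η)) atTop
        (𝓝 (((1 + 0) ^ 3 - 1) * (Pr (fc K c) μ + p₁ * η))) := by
      refine Tendsto.mul_const _ (Tendsto.sub_const ((tendsto_const_nhds.add ?_).pow 3) 1)
      exact tendsto_const_div_atTop_nhds_zero_nat 2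
    have h0 : ((1 + 0) ^ 3 - 1) * (Pr (fc K c) μ + p₁ * η) = 0 := by ring
    rw [h0] at this
    exact this.eventually_lt_const hδ4
  have e4 : ∀ᶠ ℓ : ℕ in atTop, eps ℓ c * (1 + (K / 2 + |μ| + η) * ρ) < δ / 4 := by
    have := (tendsto_eps hc hs).mul_const (1 + (K / 2 + |μ| + η) * ρ)
    rw [zero_mul] at this
    exact this.eventually_lt_const hδ4
  obtain ⟨ℓ, hℓ0, a1, a2, a3, a4⟩ := ((eventually_gt_atTop 0).and (e1.and (e2.and (e3.and e4)))).exists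
  have hq := tendsto_qq hκ hℓ0 lam
  have f1 : ∀ᶠ m : ℕ in atTop, qq ℓ lam m * (ℓ:ℝ) ^ 3 < 1 := hq.eventually_lt_const h1
  have f2 : ∀ᶠ m : ℕ in atTop, qq ℓ lam m * (ℓ:ℝ) ^ 3 * ρ < η := (hq.mul_const ρ).eventually_lt_const h2
  have f3 : ∀ᶠ m : ℕ in atTop, qq ℓ lam m * (ℓ:ℝ) ^ 3 * p₁ ^ 2 / 2 < lam * κ * p₁ ^ 2 / 2 + δ / 4 :=
    ((hq.mul_const (p₁ ^ 2)).div_const 2).eventually_lt_const (by linarith)
  filter_upwards [f1, f2, f3] with m b1 b2 b3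
  have := Pr_upper hc hs hℓ0 hlam m a1.le hKJ hKJ2 b1.le hρ1 hρ2 b2.le hp hlin
  linarith

end Vale.Agent.P171
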