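import Mathlib
import Vale.Agent.P171.Defs
import Vale.Agent.P171.Ekeland
import Vale.Agent.P171.Trial
import Vale.Agent.P171.Pot
import Vale.Agent.P171.Upper1
import Vale.Agent.P171.Upper5
import Vale.Agent.P171.Lsc

namespace Vale.Agent.P171

open MeasureTheory Finset Filter Topology
open scoped ENNReal BigOperators

/-- coefficients of the trial functional -/
noncomputable def gam (m : ℕ) : ℝ := max 0 (g ((m:ℝ) + 1)) / ((m:ℝ) + 1) ^ 3

theorem gam_nonneg (m : ℕ) : 0 ≤ gam m := by unfold gam; positivity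

theorem gam_le (m : ℕ) : gam m ≤ 1 := by
  unfold gam
  rw [div_le_one (by positivity)]
  refine max_le (by positivity) ?_
  unfold g
  have hm : (0:ℝ) ≤ m := Nat.cast_nonneg m
  by_cases h : 0 ≤ ((m:ℝ) + 1) / 3 - 1
  · have h1 := G_le h
    have h2 : (2 * (((m:ℝ) + 1) / 3 - 1) + 1) ^ 3 ≤ ((m:ℝ) + 1) ^ 3 := by
      apply pow_le_pow_left₀ <;> linarith
    linarith
  · have : G (((m:ℝ) + 1) / 3 - 1) = 0 := by
      unfold G
      have : {z : Fin 3 → ℤ | 0 ≤ ((m:ℝ) + 1) / 3 - 1 ∧ ∑ k, ((z k : ℝ)) ^ 2 ≤ (((m:ℝ) + 1) / 3 - 1) ^ 2} = ∅ := by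
        ext z; simp only [Set.mem_ofPred_eq, Set.mem_empty_iff_false, iff_false]
        exact fun hz => h hz.1
      rw [this, Set.ncard_empty]
    rw [this]
    have : (0:ℝ) ≤ ((m:ℝ) + 1) ^ 3 := by positivity
    simp only [Nat.cast_zero]
    linarith

theorem tendsto_gam {κ : ℝ} (hκ : Tendsto (fun r : ℝ => (G r : ℝ) / r ^ 3) atTop (𝓝 κ)) (hκ0 : 0 < κ) :
    Tendsto gam atTop (𝓝 (κ / 27)) := by
  have hr : Tendsto (fun m : ℕ => ((m : ℝ) + 1) / 3 - 1) atTop atTop := by
    refine tendsto_atTop_add_const_right _ _ ?_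
    refine Tendsto.atTop_div_const (by norm_num) ?_
    exact tendsto_atTop_add_const_right _ _ tendsto_natCast_atTop_atTop
  have h1 := hκ.comp hr
  have hinv : Tendsto (fun m : ℕ => 1 / ((m:ℝ) + 1)) atTop (𝓝 0) := tendsto_one_div_add_atTop_nhds_zero_nat
  have h2 : Tendsto (fun m : ℕ => (1 / 3 - 1 / ((m:ℝ) + 1)) ^ 3) atTop (𝓝 ((1 / 3 - 0) ^ 3)) :=
    (tendsto_const_nhds.sub hinv).pow 3
  have h3 := (h1.mul h2).sub (hinv.pow 3)
  have e : κ * (1 / 3 - 0) ^ 3 - 0 ^ 3 = κ / 27 := by ring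
  rw [e] at h3
  have h4 : Tendsto (fun m : ℕ => g ((m:ℝ) + 1) / ((m:ℝ) + 1) ^ 3) atTop (𝓝 (κ / 27)) := by
    refine h3.congr' ?_
    filter_upwards [hr.eventually_gt_atTop 0] with m hm
    have hm1 : (0:ℝ) < (m:ℝ) + 1 := by positivity
    simp only [Function.comp]
    unfold g
    set u := (G (((m : ℝ) + 1) / 3 - 1) : ℝ)
    have hx : (1:ℝ) / 3 - 1 / ((m:ℝ) + 1) = (((m:ℝ) + 1) / 3 - 1) / ((m:ℝ) + 1) := by field_simp
    rw [hx, div_pow]
    have hm' : (((m : ℝ) + 1) / 3 - 1) ≠ 0 := hm.ne'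
    set w := (((m : ℝ) + 1) / 3 - 1)
    field_simp
  have h5 : ∀ᶠ m : ℕ in atTop, g ((m:ℝ) + 1) / ((m:ℝ) + 1) ^ 3 = gam m := by
    filter_upwards [h4.eventually_const_lt (show (0:ℝ) < κ / 27 by positivity)] with m hm
    unfold gam
    rw [max_eq_right]
    by_contra hneg
    push Not at hneg
    have : g ((m:ℝ) + 1) / ((m:ℝ) + 1) ^ 3 < 0 := div_neg_of_neg_of_pos hneg (by positivity)
    linarith
  exact h4.congr' h5

/-- trial functional (half of it) -/
noncomputable def al (p : L1 × ℝ) : ℝ := (1 / 54) * (p.2 + (1 / 2) * ∑' m : ℕ, p.1 m * gam m)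

theorem summable_gam (c : L1) : Summable (fun m => c m * gam m) := by
  refine Summable.of_norm_bounded (L1.summable_abs c) fun m => ?_
  rw [Real.norm_eq_abs, abs_mul, abs_of_nonneg (gam_nonneg m)]
  exact mul_le_of_le_one_right (abs_nonneg _) (gam_le m)

theorem continuous_al : Continuous al := by
  have h : Continuous (fun c : L1 => ∑' m : ℕ, c m * gam m) := by
    refine (LipschitzWith.of_dist_le_mul (K := 1) fun c c' => ?_).continuous
    rw [Real.dist_eq, dist_eq_norm, NNReal.coe_one, one_mul,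
      ← Summable.tsum_sub (summable_gam c) (summable_gam c'), L1.norm_eq]
    have hsum : Summable (fun m => c m * gam m - c' m * gam m) :=
      (summable_gam c).sub (summable_gam c')
    have hb : ∀ m, |c m * gam m - c' m * gam m| ≤ |(c - c') m| := by
      intro m
      rw [← sub_mul, abs_mul, abs_of_nonneg (gam_nonneg m)]
      exact mul_le_of_le_one_right (abs_nonneg _) (gam_le m)
    have habs : Summable (fun m => |c m * gam m - c' m * gam m|) :=
      Summable.of_nonneg_of_le (fun m => abs_nonneg _) hb (L1.summable_abs (c - c'))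
    calc |∑' m, (c m * gam m - c' m * gam m)| ≤ ∑' m, |c m * gam m - c' m * gam m| := by
          have := norm_tsum_le_tsum_norm (f := fun m => c m * gam m - c' m * gam m) habs
          simpa [Real.norm_eq_abs] using this
      _ ≤ ∑' m, |(c - c') m| := habs.tsum_le_tsum hb (L1.summable_abs (c - c'))
  unfold al
  exact continuous_const.mul (continuous_snd.add (continuous_const.mul (h.comp continuous_fst)))

theorem al_le_Pr {B K : ℝ} (hK : 343 * B ≤ K) (p : PS B) :
    al (p : L1 × ℝ) ≤ Pr (fc K (p : L1 × ℝ).1) (p : L1 × ℝ).2 := by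
  have hst := isStab_PS hK p
  have h1 := trial p.2.1 (L1.summable _) hst (p : L1 × ℝ).2
  have h2 := Pr_nonneg hst (p : L1 × ℝ).2
  have e : ∑' m : ℕ, (p : L1 × ℝ).1 m / ((m:ℝ) + 1) ^ 3 * max 0 (g ((m:ℝ) + 1))
      = ∑' m : ℕ, (p : L1 × ℝ).1 m * gam m := by
    refine tsum_congr fun m => ?_
    unfold gam; ring
  rw [e] at h1
  unfold al
  set X := (p : L1 × ℝ).2 + 1 / 2 * ∑' m : ℕ, (p : L1 × ℝ).1 m * gam m
  by_cases hX : 0 ≤ X
  · linarith
  · push Not at hX
    linarith

/-- the zero interaction strength has pressure at most one -/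
theorem Pr_zero_le {K : ℝ} (hK : 0 ≤ K) : Pr (fc K (0 : L1)) 0 ≤ 1 := by
  have hst : IsStab (fc K (0 : L1)) 0 := by
    refine ⟨isPair_fc K _, fc_trans K _, fun a b h => fc_neg (fun m => le_rfl) a b h, ?_⟩
    intro n x
    have : 0 ≤ offSum (fc K (0 : L1)) x := by
      unfold offSum
      refine Finset.sum_nonneg fun i _ => Finset.sum_nonneg fun j _ => ?_
      split_ifs
      · exact le_rfl
      · unfold fc pot att
        have : ∀ m : ℕ, (if dist (x i) (x j) ≤ (m:ℝ) + 1 then (0 : L1) m / ((m:ℝ) + 1) ^ 3 else 0) = 0 := by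
          intro m
          have : (0 : L1) m = 0 := rfl
          rw [this]; simp
        simp only [this, tsum_zero, sub_zero]
        split_ifs
        · exact hK
        · exact le_rfl
    linarith
  have := Pr_le hst 0
  simpa using this

/-- MAIN: there are couplings for which the pressure is not differentiable -/
theorem exists_not_differentiable :
    ∃ (K : ℝ) (c : ℕ → ℝ) (μ : ℝ), (∀ m, 0 ≤ c m) ∧ Summable c ∧ 343 * ∑' m, c m + 3 ≤ K ∧
      ¬ DifferentiableAt ℝ (fun t => Pr (fc K c) t) μ := by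
  obtain ⟨κ, hκ0, hκ⟩ := exists_kappa
  -- choice of ε
  set ε : ℝ := min κ 1 / 100000 with hε
  have hm0 : 0 < min κ 1 := lt_min hκ0 one_pos
  have hε0 : 0 < ε := by positivity
  have hεκ : ε ≤ κ / 100000 := by rw [hε]; gcongr; exact min_le_left _ _
  have hε1 : ε ≤ 1 / 100000 := by rw [hε]; gcongr; exact min_le_right _ _
  set B : ℝ := 1 / ε + 1 with hB
  have hB0 : 0 < B := by positivity
  set K : ℝ := 343 * (B + 1) + 3 with hK
  have hK0 : 0 ≤ K := by positivity
  have hKB : 343 * B ≤ K := by rw [hK]; linarith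
  -- Ekeland
  have : CompleteSpace (PS B) := (isClosed_PS B).completeSpace_coe
  have h00 : ((0 : L1), (0:ℝ)) ∈ PS B := by
    refine ⟨fun m => le_rfl, ?_⟩
    simp only [norm_zero]; exact hB0.le
  set F : PS B → ℝ := fun p => Pr (fc K (p : L1 × ℝ).1) (p : L1 × ℝ).2 - al (p : L1 × ℝ) with hF
  have hFlsc : LowerSemicontinuous F := by
    have h1 := lsc_Pr (B := B) hKB
    have h2 : LowerSemicontinuous (fun p : PS B => - al (p : L1 × ℝ)) :=
      (continuous_al.comp continuous_subtype_val).neg.lowerSemicontinuous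
    exact h1.add h2
  have hF0 : ∀ p, 0 ≤ F p := fun p => by
    have := al_le_Pr hKB p
    simp only [hF]; linarith
  obtain ⟨x, hx1, hx2⟩ := ekeland F hFlsc hF0 ⟨(0, 0), h00⟩ hε0
  have hFx0 : F ⟨(0, 0), h00⟩ ≤ 1 := by
    have h1 := Pr_zero_le hK0
    have h2 : al ((0 : L1), (0:ℝ)) = 0 := by
      unfold al
      have : ∀ m, ((0 : L1) m) * gam m = 0 := fun m => by
        have : (0 : L1) m = 0 := rfl
        rw [this, zero_mul]
      simp only [this, tsum_zero]; ring
    simp only [hF]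
    rw [h2]; simpa using h1
  set c : L1 := (x : L1 × ℝ).1 with hc
  set μ : ℝ := (x : L1 × ℝ).2 with hμ
  have hcnn : ∀ m, 0 ≤ c m := x.2.1
  have hcs : Summable (fun m => c m) := L1.summable c
  have hdist : dist x ⟨(0, 0), h00⟩ ≤ 1 / ε := by
    rw [le_div_iff₀ hε0]
    have := hF0 x
    linarith
  have hcnorm : ‖c‖ ≤ 1 / ε := by
    refine le_trans ?_ hdist
    rw [Subtype.dist_eq, Prod.dist_eq]
    refine le_trans ?_ (le_max_left _ _)
    simp [hc]
  have hct : ∑' m, c m = ‖c‖ := (L1.norm_eq_of_nonneg hcnn).symm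
  refine ⟨K, c, μ, hcnn, hcs, ?_, ?_⟩
  · rw [hct, hK, hB]; linarith
  intro hdiff
  set P : ℝ → ℝ := fun t => Pr (fc K c) t with hP
  set ρ' : ℝ := deriv P μ with hρ'
  have hd : HasDerivAt P ρ' μ := hdiff.hasDerivAt
  -- (i) comparison in μ
  have hvar : ∀ t : ℝ, P μ - al (c, μ) - ε * |t - μ| ≤ P t - al (c, t) := by
    intro t
    have hmem : ((c, t) : L1 × ℝ) ∈ PS B := ⟨hcnn, x.2.2⟩
    have := hx2 ⟨(c, t), hmem⟩
    have hdd : dist (⟨(c, t), hmem⟩ : PS B) x = |t - μ| := by
      rw [Subtype.dist_eq, Prod.dist_eq]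
      have : dist ((c, t) : L1 × ℝ).1 (x : L1 × ℝ).1 = 0 := by
        rw [dist_eq_zero]
      rw [this, max_eq_right dist_nonneg, Real.dist_eq]
    rw [hdd] at this
    exact this
  have hal : ∀ t : ℝ, al (c, t) - al (c, μ) = (1 / 54) * (t - μ) := by
    intro t; unfold al; ring
  have hslope : ρ' ≤ 1 / 54 + ε := by
    -- use t < μ
    have h1 : Tendsto (slope P μ) (𝓝[<] μ) (𝓝 ρ') :=
      (hasDerivAt_iff_tendsto_slope.mp hd).mono_left (nhdsWithin_mono _ (fun y hy => ne_of_lt hy))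
    refine le_of_tendsto h1 ?_
    filter_upwards [self_mem_nhdsWithin] with t ht
    have ht' : t < μ := ht
    rw [slope_def_field, div_le_iff_of_neg (by linarith)]
    have h2 := hvar t
    have h3 := hal t
    rw [abs_of_neg (by linarith : t - μ < 0)] at h2
    linarith
  have hslope' : 1 / 54 - ε ≤ ρ' := by
    have h1 : Tendsto (slope P μ) (𝓝[>] μ) (𝓝 ρ') :=
      (hasDerivAt_iff_tendsto_slope.mp hd).mono_left (nhdsWithin_mono _ (fun y hy => ne_of_gt hy))
    refine ge_of_tendsto h1 ?_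
    filter_upwards [self_mem_nhdsWithin] with t ht
    have ht' : μ < t := ht
    rw [slope_def_field, le_div_iff₀ (by linarith)]
    have h2 := hvar t
    have h3 := hal t
    rw [abs_of_pos (by linarith : 0 < t - μ)] at h2
    linarith
  -- slope bound near μ
  set p₁ : ℝ := 1 / 54 + 2 * ε with hp₁
  have hp₁0 : 0 ≤ p₁ := by positivity
  have hlin : ∃ η > 0, ∀ t ∈ Set.Icc μ (μ + η), P t ≤ P μ + p₁ * (t - μ) := by
    have h1 : Tendsto (slope P μ) (𝓝[>] μ) (𝓝 ρ') :=
      (hasDerivAt_iff_tendsto_slope.mp hd).mono_left (nhdsWithin_mono _ (fun y hy => ne_of_gt hy))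
    have h2 : ∀ᶠ t in 𝓝[>] μ, slope P μ t < p₁ := h1.eventually_lt_const (by rw [hp₁]; linarith)
    rw [eventually_nhdsWithin_iff, Metric.eventually_nhds_iff] at h2
    obtain ⟨η, hη, h3⟩ := h2
    refine ⟨η / 2, by linarith, fun t ht => ?_⟩
    rcases eq_or_lt_of_le ht.1 with h | h
    · rw [← h]; simp
    · have h4 := h3 (y := t) (by rw [Real.dist_eq, abs_of_pos (by linarith)]; linarith [ht.2]) h
      rw [slope_def_field, div_lt_iff₀ (by linarith)] at h4
      linarith
  obtain ⟨η, hη, hlin⟩ := hlin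
  -- choice of ρmax and λ
  set ρm : ℝ := max 1 (2 * (μ + K / 2 + 1)) with hρm
  have hρm1 : 1 ≤ ρm := le_max_left _ _
  have hρm2 : 2 * (μ + K / 2 + 1) ≤ ρm := le_max_right _ _
  set lam : ℝ := min 1 (min (1 / (2 * κ)) (η / (2 * κ * ρm))) with hlam
  have hlam0 : 0 < lam := by
    rw [hlam]
    refine lt_min one_pos (lt_min (by positivity) (by positivity))
  have hlam1 : lam ≤ 1 := min_le_left _ _
  have hlam2 : lam * κ < 1 := by
    have : lam ≤ 1 / (2 * κ) := (min_le_right _ _).trans (min_le_left _ _)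
    calc lam * κ ≤ 1 / (2 * κ) * κ := mul_le_mul_of_nonneg_right this hκ0.le
      _ = 1 / 2 := by field_simp
      _ < 1 := by norm_num
  have hlam3 : lam * κ * ρm < η := by
    have : lam ≤ η / (2 * κ * ρm) := (min_le_right _ _).trans (min_le_right _ _)
    calc lam * κ * ρm = lam * (κ * ρm) := by ring
      _ ≤ η / (2 * κ * ρm) * (κ * ρm) := mul_le_mul_of_nonneg_right this (by positivity)
      _ = η / 2 := by field_simp
      _ < η := by linarith
  have hup := Pr_upper_limit (K := K) hκ hcnn hcs hlam0.le (μ := μ) (ρ := ρm) (η := η) (p₁ := p₁)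
    (by rw [hct, hK, hB]; linarith) (by rw [hct, hK, hB]; linarith) hρm1 hρm2 hp₁0 hlam2 hlam3 hlin
    (δ := ε * lam) (by positivity)
  -- (ii) lower bound from Ekeland
  have hlow : ∀ m : ℕ, P μ + lam * (1 / 108 * gam m - ε) ≤ Pr (fc K ((c : ℕ → ℝ) + Pi.single m lam)) μ := by
    intro m
    set c' : L1 := c + lp.single 1 m lam with hc'
    have hc'eq : ((c' : L1) : ℕ → ℝ) = (c : ℕ → ℝ) + Pi.single m lam := by
      rw [hc']
      ext j
      simp only [lp.coeFn_add, Pi.add_apply, lp.coeFn_single]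
    have hnn : ∀ j, 0 ≤ c' j := by
      intro j
      have : c' j = ((c : ℕ → ℝ) + Pi.single m lam : ℕ → ℝ) j := congrFun hc'eq j
      rw [this, Pi.add_apply]
      refine add_nonneg (hcnn j) ?_
      by_cases hj : j = m
      · subst hj; simpa using hlam0.le
      · simp [Pi.single_eq_of_ne hj]
    have hdc : ‖c' - c‖ = lam := by
      rw [hc', add_sub_cancel_left, lp.norm_single (by norm_num), Real.norm_eq_abs, abs_of_pos hlam0]
    have hnorm : ‖c'‖ ≤ B := by
      calc ‖c'‖ = ‖(c' - c) + c‖ := by rw [sub_add_cancel]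
        _ ≤ ‖c' - c‖ + ‖c‖ := norm_add_le _ _
        _ ≤ 1 + 1 / ε := by rw [hdc]; linarith
        _ = B := by rw [hB]; ring
    have hmem : ((c', μ) : L1 × ℝ) ∈ PS B := ⟨hnn, hnorm⟩
    have h1 := hx2 ⟨(c', μ), hmem⟩
    have hdd : dist (⟨(c', μ), hmem⟩ : PS B) x = lam := by
      rw [Subtype.dist_eq, Prod.dist_eq]
      have h2 : dist ((c', μ) : L1 × ℝ).2 (x : L1 × ℝ).2 = 0 := by rw [dist_eq_zero]
      rw [h2, max_eq_left dist_nonneg, dist_eq_norm]
      exact hdc
    rw [hdd] at h1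
    have hal2 : al (c', μ) - al (c, μ) = 1 / 108 * (lam * gam m) := by
      unfold al
      have h3 : ∑' j, c' j * gam j = ∑' j, c j * gam j + lam * gam m := by
        have h4 : (fun j => c' j * gam j) = fun j => c j * gam j + (if j = m then lam * gam m else 0) := by
          ext j
          have : c' j = ((c : ℕ → ℝ) + Pi.single m lam : ℕ → ℝ) j := congrFun hc'eq j
          rw [this, Pi.add_apply]
          by_cases hj : j = m
          · subst hj; simp; ring
          · simp [Pi.single_eq_of_ne hj, hj]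
        rw [h4, Summable.tsum_add (summable_gam c) (hasSum_ite_eq m _).summable, tsum_ite_eq]
      simp only []
      rw [h3]; ring
    have h5 : P μ - al (c, μ) - ε * lam ≤ Pr (fc K c') μ - al (c', μ) := h1
    rw [hc'eq] at h5
    linarith
  -- contradiction
  have hgam := tendsto_gam hκ hκ0
  have hfin : ∀ᶠ m : ℕ in atTop, 1 / 108 * gam m - ε ≤ κ * p₁ ^ 2 / 2 + ε := by
    filter_upwards [hup] with m hm
    have h1 := hlow m
    have h2 : lam * (1 / 108 * gam m - ε) ≤ lam * (κ * p₁ ^ 2 / 2 + ε) := by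
      have : Pr (fc K c) μ = P μ := rfl
      linarith
    exact le_of_mul_le_mul_left h2 hlam0
  have hlim : 1 / 108 * (κ / 27) - ε ≤ κ * p₁ ^ 2 / 2 + ε :=
    le_of_tendsto ((hgam.const_mul (1 / 108)).sub_const ε) hfin
  rw [hp₁] at hlim
  nlinarith [mul_nonneg hκ0.le hε0.le, mul_le_mul_of_nonneg_left hε1 (mul_nonneg hκ0.le hε0.le)]

end Vale.Agent.P171
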