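import Mathlib

/-!
P171: definitions used in the statement (following the problem file).
-/

namespace Vale.Agent.P171.Official

open MeasureTheory Filter Topology

/-- Euclidean space of dimension three -/
abbrev R3 := EuclideanSpace ℝ (Fin 3)

/-- the total energy `U_N(x_1,…,x_N) = ∑_{i<j} φ(|x_i - x_j|)` (zero for `N = 0, 1`) -/
noncomputable def energy (φ : ℝ → ℝ) {N : ℕ} (x : Fin N → R3) : ℝ :=
  ∑ i : Fin N, ∑ j : Fin N, if i < j then φ ‖x i - x j‖ else 0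

/-- `φ` is bounded on every compact subinterval of `(0,∞)` -/
def LocallyBounded (φ : ℝ → ℝ) : Prop :=
  ∀ a b : ℝ, 0 < a → ∃ C : ℝ, ∀ r ∈ Set.Icc a b, |φ r| ≤ C

/-- stability: `U_N ≥ -B N` for all configurations of distinct points -/
def Stable (φ : ℝ → ℝ) : Prop :=
  ∃ B : ℝ, ∀ (N : ℕ) (x : Fin N → R3), Function.Injective x → -(B * N) ≤ energy φ x

/-- temperedness: `φ(r) ≤ C r^{-3-ε}` for `r ≥ R₀` -/
def Tempered (φ : ℝ → ℝ) : Prop :=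
  ∃ C ε R₀ : ℝ, 0 < C ∧ 0 < ε ∧ 0 < R₀ ∧ ∀ r : ℝ, R₀ ≤ r → φ r ≤ C * r ^ (-(3:ℝ) - ε)

/-- the cube `Λ_L = [0,L]³` -/
def cube (L : ℝ) : Set R3 := {x | ∀ k, 0 ≤ x k ∧ x k ≤ L}

/-- `Z_{L,N}(β) = (1/N!) ∫_{Λ_L^N} e^{-β U_N(x)} dx`, Lebesgue measure on `(ℝ³)^N` -/
noncomputable def Z (φ : ℝ → ℝ) (β L : ℝ) (N : ℕ) : ℝ :=
  1 / (N.factorial : ℝ) *
    ∫ x in {x : Fin N → R3 | ∀ i, x i ∈ cube L}, Real.exp (-(β * energy φ x))

/-- the grand canonical partition function `∑_N z^N Z_{L,N}(β)` -/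
noncomputable def Xi (φ : ℝ → ℝ) (β z L : ℝ) : ℝ := ∑' N : ℕ, z ^ N * Z φ β L N

/-- `P` is the infinite volume pressure `Π(β,·)`: for every `z > 0` all the finite volume series
converge and `L^{-3} log ∑_N z^N Z_{L,N}(β)` tends to `P z` as `L → ∞` -/
def IsPressure (φ : ℝ → ℝ) (β : ℝ) (P : ℝ → ℝ) : Prop :=
  ∀ z : ℝ, 0 < z →
    (∀ L : ℝ, 0 < L → Summable (fun N : ℕ => z ^ N * Z φ β L N)) ∧
    Tendsto (fun L : ℝ => Real.log (Xi φ β z L) / L ^ 3) atTop (𝓝 (P z))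

/-- phase transition in sense (a): for some `β > 0` the function `z ↦ Π(β,z)` is not
differentiable at some point of `(0,∞)` -/
def HasNonDifferentiablePressure (φ : ℝ → ℝ) : Prop :=
  ∃ β : ℝ, 0 < β ∧ ∃ P : ℝ → ℝ, IsPressure φ β P ∧ ∃ z₀ : ℝ, 0 < z₀ ∧ ¬ DifferentiableAt ℝ P z₀

end Vale.Agent.P171.Official
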