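import Mathlib
import Vale.Agent.P171.Core
import Vale.Agent.P171.Official

/-!
P171: translation between the official definitions and the internal objects.
-/

namespace Vale.Agent.P171.Official

open MeasureTheory Filter Topology

open Vale.Agent.P171 in
theorem energy_eq (K : ℝ) (c : ℕ → ℝ) {N : ℕ} (x : Fin N → R3) :
    energy (pot K c) x = offSum (fc K c) x / 2 := by
  have h1 : offSum (fc K c) x = (∑ i : Fin N, ∑ j : Fin N, if i < j then pot K c ‖x i - x j‖ else 0)
      + ∑ i : Fin N, ∑ j : Fin N, if j < i then pot K c ‖x i - x j‖ else 0 := by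
    unfold offSum
    rw [← Finset.sum_add_distrib]
    refine Finset.sum_congr rfl fun i _ => ?_
    rw [← Finset.sum_add_distrib]
    refine Finset.sum_congr rfl fun j _ => ?_
    unfold fc
    rw [dist_eq_norm]
    rcases lt_trichotomy i j with h | h | h
    · simp [h, h.ne, h.not_gt]
    · simp [h]
    · simp [h, h.ne', h.not_gt]
  have h2 : (∑ i : Fin N, ∑ j : Fin N, if j < i then pot K c ‖x i - x j‖ else 0)
      = ∑ i : Fin N, ∑ j : Fin N, if i < j then pot K c ‖x i - x j‖ else 0 := by
    rw [Finset.sum_comm]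
    refine Finset.sum_congr rfl fun i _ => Finset.sum_congr rfl fun j _ => ?_
    rw [norm_sub_rev]
  rw [h1, h2]
  unfold energy
  ring

open Vale.Agent.P171 in
theorem term_eq (K : ℝ) (c : ℕ → ℝ) (μ L : ℝ) (N : ℕ) :
    Real.exp μ ^ N * Z (pot K c) 1 L N = (cpf (fc K c) μ (box L) N).toReal := by
  have hset : {x : Fin N → R3 | ∀ i, x i ∈ cube L} = Set.pi Set.univ (fun _ : Fin N => box L) := by
    ext x; simp [Set.mem_pi, cube, box]
  have hmeas : Measurable (fun x : Fin N → R3 => Real.exp (-(offSum (fc K c) x / 2))) :=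
    Real.measurable_exp.comp (((measurable_offSum (isPair_fc K c) N).div_const 2).neg)
  unfold Z
  rw [hset]
  simp only [one_mul, energy_eq]
  rw [integral_eq_lintegral_of_nonneg_ae (Filter.Eventually.of_forall fun x => (Real.exp_pos _).le)
    hmeas.aestronglyMeasurable]
  have hc : cpf (fc K c) μ (box L) N = ENNReal.ofReal (1 / (N.factorial : ℝ) * Real.exp μ ^ N) *
      ∫⁻ x in Set.pi Set.univ (fun _ : Fin N => box L), ENNReal.ofReal (Real.exp (-(offSum (fc K c) x / 2))) := by
    unfold cpf
    have h1 : ∀ x : Fin N → E, ENNReal.ofReal (Real.exp (μ * N - offSum (fc K c) x / 2))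
        = ENNReal.ofReal (Real.exp μ ^ N) * ENNReal.ofReal (Real.exp (-(offSum (fc K c) x / 2))) := by
      intro x
      rw [← ENNReal.ofReal_mul (by positivity), ← Real.exp_nat_mul, ← Real.exp_add]
      congr 2; ring
    have hm2 : Measurable (fun x : Fin N → E => ENNReal.ofReal (Real.exp (-(offSum (fc K c) x / 2)))) :=
      ENNReal.measurable_ofReal.comp hmeas
    simp only [h1]
    rw [lintegral_const_mul _ hm2, ← mul_assoc]
    congr 1
    rw [ENNReal.ofReal_mul (by positivity), one_div, ENNReal.ofReal_inv_of_pos (by positivity),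
      ENNReal.ofReal_natCast]
  rw [hc, ENNReal.toReal_mul, ENNReal.toReal_ofReal (by positivity)]
  ring

open Vale.Agent.P171 in
theorem Xi_eq {K : ℝ} {c : ℕ → ℝ} {B : ℝ} (hf : IsStab (fc K c) B) (μ : ℝ) {L : ℝ} (hL : 0 < L) :
    Summable (fun N : ℕ => Real.exp μ ^ N * Z (pot K c) 1 L N) ∧
    Xi (pot K c) 1 (Real.exp μ) L = (pf (fc K c) μ (box L)).toReal := by
  have hfin : pf (fc K c) μ (box L) ≠ ⊤ := ne_top_of_le_ne_top ENNReal.ofReal_ne_top (pf_box_le hf hL.le)
  constructor
  · simp only [term_eq]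
    exact ENNReal.summable_toReal hfin
  · unfold Xi
    simp only [term_eq]
    unfold pf
    rw [ENNReal.tsum_toReal_eq]
    intro N
    exact ne_top_of_le_ne_top hfin (ENNReal.le_tsum N)

open Vale.Agent.P171 in
theorem integrable_pot (K : ℝ) {c : ℕ → ℝ} (hc : ∀ m, 0 ≤ c m) (hs : Summable c) :
    Integrable (fun x : R3 => pot K c ‖x‖) := by
  have h1 : Integrable (fun x : R3 => if ‖x‖ < 2 then K else 0) := by
    have : (fun x : R3 => if ‖x‖ < 2 then K else 0) = (Metric.ball (0:R3) 2).indicator (fun _ => K) := by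
      ext x; simp [Set.indicator, Metric.mem_ball]
    rw [this]
    exact (integrableOn_const measure_ball_lt_top.ne).integrable_indicator measurableSet_ball
  have h2 : Integrable (fun x : R3 => att c ‖x‖) := by
    have hmeas : Measurable (fun x : R3 => att c ‖x‖) := (measurable_att c).comp measurable_norm
    refine ⟨hmeas.aestronglyMeasurable, ?_⟩
    rw [hasFiniteIntegral_iff_ofReal (Filter.Eventually.of_forall fun x => att_nonneg hc _)]
    have h3 : ∀ x : R3, ENNReal.ofReal (att c ‖x‖) = ∑' m : ℕ,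
        (Metric.closedBall (0:R3) ((m:ℝ) + 1)).indicator (fun _ => ENNReal.ofReal (c m / ((m:ℝ) + 1) ^ 3)) x := by
      intro x
      unfold att
      rw [ENNReal.ofReal_tsum_of_nonneg (term_nonneg hc _) (summable_term hc hs _)]
      refine tsum_congr fun m => ?_
      by_cases hx : ‖x‖ ≤ (m:ℝ) + 1
      · rw [Set.indicator_of_mem (by simpa using hx), if_pos hx]
      · rw [Set.indicator_of_notMem (by simpa using hx), if_neg hx, ENNReal.ofReal_zero]
    simp only [h3]
    rw [lintegral_tsum (fun m => (measurable_const.indicator measurableSet_closedBall).aemeasurable)]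
    have h4 : ∀ m : ℕ, ∫⁻ x, (Metric.closedBall (0:R3) ((m:ℝ) + 1)).indicator
        (fun _ => ENNReal.ofReal (c m / ((m:ℝ) + 1) ^ 3)) x
        = ENNReal.ofReal (c m) * volume (Metric.closedBall (0:R3) 1) := by
      intro m
      rw [lintegral_indicator measurableSet_closedBall, setLIntegral_const,
        Measure.addHaar_closedBall' volume (0:R3) (by positivity : (0:ℝ) ≤ (m:ℝ) + 1)]
      have : Module.finrank ℝ R3 = 3 := by simp
      rw [this, ← mul_assoc, ← ENNReal.ofReal_mul (div_nonneg (hc m) (by positivity))]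
      congr 2
      field_simp
    simp only [h4]
    rw [ENNReal.tsum_mul_right, ← ENNReal.ofReal_tsum_of_nonneg hc hs]
    exact ENNReal.mul_lt_top ENNReal.ofReal_lt_top measure_closedBall_lt_top
  exact h1.sub h2

open Vale.Agent.P171 in
theorem main :
    ∃ φ : ℝ → ℝ, Measurable φ ∧ LocallyBounded φ ∧ Stable φ ∧ Tempered φ ∧
      HasNonDifferentiablePressure φ ∧
      (∃ C : ℝ, ∀ r : ℝ, |φ r| ≤ C) ∧ Integrable (fun x : R3 => φ ‖x‖) := by
  obtain ⟨K, c, μ, hc, hs, hK, hnd⟩ := exists_not_differentiable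
  have hc0 : 0 ≤ ∑' m, c m := tsum_nonneg hc
  have hK0 : 0 ≤ K := by linarith
  have hst : IsStab (fc K c) (K / 2) := isStab_fc hc hs (by linarith)
  have hbd : ∀ r : ℝ, |pot K c r| ≤ K + ∑' m, c m := by
    intro r
    unfold pot
    have h1 := att_nonneg hc r
    have h2 := att_le hc hs r
    rw [abs_le]
    split_ifs <;> constructor <;> linarith
  refine ⟨pot K c, measurable_pot K c, fun a b _ => ⟨_, fun r _ => hbd r⟩, ⟨K / 2, fun N x _ => ?_⟩,
    ⟨1, 1, 2, one_pos, one_pos, two_pos, fun r hr => ?_⟩,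
    ⟨1, one_pos, fun z => Pr (fc K c) (Real.log z), ?_, Real.exp μ, Real.exp_pos μ, ?_⟩,
    ⟨_, hbd⟩, integrable_pot K hc hs⟩
  · rw [energy_eq]; exact hst.stab N x
  · have h1 : pot K c r ≤ 0 := by
      unfold pot
      rw [if_neg (not_lt.mpr hr)]
      linarith [att_nonneg hc r]
    exact h1.trans (mul_nonneg zero_le_one (Real.rpow_nonneg (by linarith) _))
  · intro z hz
    have hz' : Real.exp (Real.log z) = z := Real.exp_log hz
    refine ⟨fun L hL => ?_, ?_⟩
    · have := (Xi_eq hst (Real.log z) hL).1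
      rwa [hz'] at this
    · refine (tendsto_Pr hst (Real.log z)).congr' ?_
      filter_upwards [eventually_gt_atTop 0] with L hL
      rw [← (Xi_eq hst (Real.log z) hL).2, hz']
  · intro hdiff
    apply hnd
    have h1 : DifferentiableAt ℝ ((fun z => Pr (fc K c) (Real.log z)) ∘ Real.exp) μ :=
      DifferentiableAt.comp μ hdiff Real.differentiableAt_exp
    have h2 : ((fun z => Pr (fc K c) (Real.log z)) ∘ Real.exp) = fun t => Pr (fc K c) t := by
      funext t; simp only [Function.comp, Real.log_exp]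
    rwa [h2] at h1

end Vale.Agent.P171.Official
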